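import Vale.Agent.P240.R2.AS.Defs2
import Mathlib.FieldTheory.Finite.Basic
import Mathlib.FieldTheory.Fixed

/-!
The fixed field of a field automorphism of odd prime order of a finite field with involution
(P240, module A7).
-/

set_option autoImplicit false

namespace Vale.Agent.P240.R2.H687

open Matrix Vale.Agent.P240.R2.AS

universe u v w

section
variable {K : Type u} [Field K] [StarRing K]

/-- the fixed field of `σ` -/
def FS (σ : SA K) : Subfield K where
  carrier := {x | σ.1 x = x}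
  zero_mem' := map_zero σ.1
  one_mem' := map_one σ.1
  add_mem' := fun {a b} ha hb => by
    have ha : σ.1 a = a := ha
    have hb : σ.1 b = b := hb
    show σ.1 (a + b) = a + b
    rw [map_add, ha, hb]
  mul_mem' := fun {a b} ha hb => by
    have ha : σ.1 a = a := ha
    have hb : σ.1 b = b := hb
    show σ.1 (a * b) = a * b
    rw [map_mul, ha, hb]
  neg_mem' := fun {a} ha => by
    have ha : σ.1 a = a := ha
    show σ.1 (-a) = -a
    rw [map_neg, ha]
  inv_mem' := fun a ha => by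
    have ha : σ.1 a = a := ha
    show σ.1 a⁻¹ = a⁻¹
    rw [map_inv₀, ha]

lemma mem_FS {σ : SA K} {x : K} : x ∈ FS σ ↔ σ.1 x = x := Iff.rfl

/-- the fixed field, as a type with `star` -/
def FT (σ : SA K) : Type u := FS σ

noncomputable instance (σ : SA K) : Field (FT σ) := inferInstanceAs (Field (FS σ))

noncomputable instance (σ : SA K) [Fintype K] : Fintype (FT σ) :=
  Fintype.ofFinite (FS σ)

instance (σ : SA K) : StarRing (FT σ) where
  star x := ⟨star x.1, by
    rw [mem_FS, SA_star]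
    have h : σ.1 x.1 = x.1 := x.2
    rw [h]⟩
  star_involutive x := Subtype.ext (star_star x.1)
  star_mul x y := Subtype.ext (star_mul x.1 y.1)
  star_add x y := Subtype.ext (star_add x.1 y.1)

/-- the inclusion -/
def FI (σ : SA K) : FT σ →+* K := (FS σ).subtype

lemma FI_star (σ : SA K) (x : FT σ) : FI σ (star x) = star (FI σ x) := rfl

lemma FI_fix (σ : SA K) (x : FT σ) : σ.1 (FI σ x) = FI σ x := x.2

lemma exists_FI (σ : SA K) {x : K} (h : σ.1 x = x) : ∃ y, FI σ y = x := ⟨⟨x, h⟩, rfl⟩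

end

/-- arithmetic: a `p`-th root of a square, `p` odd -/
lemma exists_root {Q q p : ℕ} (hp : Odd p) (hq : 0 < q) (h : Q ^ p = q ^ 2) :
    ∃ a, Q = a ^ 2 ∧ q = a ^ p := by
  obtain ⟨m, rfl⟩ := hp
  have h1 : Q * (Q ^ m) ^ 2 = q ^ 2 := by rw [← h]; ring
  have hQ : 0 < Q := by
    rcases Nat.eq_zero_or_pos Q with h0 | h0
    · rw [h0] at h1
      have := pow_pos hq 2
      omega
    · exact h0
  have h2 : (Q ^ m) ^ 2 ∣ q ^ 2 := ⟨Q, by rw [← h1]; ring⟩
  have h3 : Q ^ m ∣ q := (Nat.pow_dvd_pow_iff two_ne_zero).1 h2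
  obtain ⟨r, hr⟩ := h3
  have h4 : 0 < (Q ^ m) ^ 2 := pow_pos (pow_pos hQ m) 2
  have h5 : Q = r ^ 2 := by
    have : (Q ^ m) ^ 2 * Q = (Q ^ m) ^ 2 * r ^ 2 := by
      rw [mul_comm, h1, hr]
      ring
    exact Nat.eq_of_mul_eq_mul_left h4 this
  refine ⟨r, h5, ?_⟩
  rw [hr, h5]
  ring

section
variable {K : Type u} [Field K] [StarRing K] [Fintype K]

/-- `|K| = |K^σ| ^ p` and the Frobenius of the fixed field is a power of `σ`. -/
theorem card_fix (σ : SA K) {p : ℕ} (hp : p.Prime) (hσ : orderOf σ = p) :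
    Nat.card K = Nat.card (FT σ) ^ p ∧
      ∃ k : ℕ, ∀ x : K, (σ ^ k).1 x = x ^ Nat.card (FT σ) := by
  classical
  have hσ1 : orderOf σ.1 = p := by rw [← hσ]; exact Subgroup.orderOf_coe σ
  have hfo : IsOfFinOrder σ.1 := orderOf_pos_iff.1 (by rw [hσ1]; exact hp.pos)
  have hfin : Finite (Subgroup.zpowers σ.1) := finite_zpowers.2 hfo
  let _ : Fintype (Subgroup.zpowers σ.1) := Fintype.ofFinite _
  have : FaithfulSMul (Subgroup.zpowers σ.1) K := ⟨fun {a b} h => Subtype.ext (RingEquiv.ext h)⟩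
  set F := FixedPoints.subfield (Subgroup.zpowers σ.1) K with hF
  have hmem : ∀ x : K, x ∈ F ↔ x ∈ FS σ := by
    intro x
    rw [mem_FS]
    constructor
    · intro h
      exact h ⟨σ.1, Subgroup.mem_zpowers σ.1⟩
    · rintro h ⟨g, hg⟩
      have h2 : σ.1 ∈ MulAction.stabilizer (RingAut K) x := h
      exact (Subgroup.zpowers_le.2 h2) hg
  have hc : Nat.card F = Nat.card (FT σ) :=
    Nat.card_congr (Equiv.subtypeEquivRight hmem)
  have h1 : Module.finrank F K = p := by
    rw [FixedPoints.finrank_eq_card, ← Nat.card_eq_fintype_card, Nat.card_zpowers, hσ1]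
  refine ⟨?_, ?_⟩
  · rw [Module.natCard_eq_pow_finrank (K := F), h1, hc]
  · obtain ⟨g, hg⟩ := (FixedPoints.toAlgHom_bijective (Subgroup.zpowers σ.1) K).2
      (FiniteField.frobeniusAlgHom F K)
    obtain ⟨k, hk⟩ := hfo.mem_powers_iff_mem_zpowers.2 g.2
    refine ⟨k, fun x => ?_⟩
    have h2 := DFunLike.congr_fun hg x
    have h3 : (σ ^ k).1 = g.1 := by rw [← hk]; rfl
    rw [h3]
    have h4 : FiniteField.frobeniusAlgHom F K x = x ^ Nat.card (FT σ) := by
      rw [FiniteField.coe_frobeniusAlgHom, ← Nat.card_eq_fintype_card, hc]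
    rw [← h4, ← h2]
    rfl

/-- **The data of the fixed field** of a field automorphism `σ` of odd order `p ∣ q + 1`. -/
theorem fix_data {q : ℕ} (hq : 3 ≤ q) (hK : Nat.card K = q ^ 2) (hs : ∀ x : K, star x = x ^ q)
    {p : ℕ} (hp : p.Prime) (hp2 : p ≠ 2) (hpq : p ∣ q + 1) (h38 : ¬ (p = 3 ∧ q = 8))
    (σ : SA K) (hσ : orderOf σ = p) :
    ∃ a : ℕ, 4 ≤ a ∧ q = a ^ p ∧ p ∣ a + 1 ∧ Nat.card (FT σ) = a ^ 2 ∧
      (∀ x : FT σ, star x = x ^ a) ∧ ∃ k : ℕ, ∀ x : K, (σ ^ k).1 x = x ^ (a ^ 2) := by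
  obtain ⟨h1, k, hk⟩ := card_fix σ hp hσ
  have hodd : Odd p := hp.odd_of_ne_two hp2
  rw [hK] at h1
  obtain ⟨a, ha, hqa⟩ := exists_root hodd (by omega) h1.symm
  have ha2 : 2 ≤ a := by
    rcases Nat.lt_or_ge a 2 with h | h
    · exfalso
      have : a = 0 ∨ a = 1 := by omega
      rcases this with rfl | rfl
      · rw [zero_pow hp.ne_zero] at hqa; omega
      · rw [one_pow] at hqa; omega
    · exact h
  have hpa : p ∣ a + 1 := by
    have h2 : a ^ p ≡ a [MOD p] := by
      have : Fact p.Prime := ⟨hp⟩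
      have := ZMod.pow_card (a : ZMod p)
      rw [← ZMod.natCast_eq_natCast_iff]
      push_cast
      exact this
    have h3 : a ^ p + 1 ≡ a + 1 [MOD p] := h2.add_right 1
    rw [← hqa] at h3
    exact (Nat.modEq_zero_iff_dvd).1 (h3.symm.trans ((Nat.modEq_zero_iff_dvd).2 hpq))
  have ha4 : 4 ≤ a := by
    have h3 : 2 < a := by
      rcases Nat.lt_or_ge 2 a with h | h
      · exact h
      · exfalso
        have : a = 2 := by omega
        subst this
        have h4 : p = 3 := by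
          have : p ∣ 3 := hpa
          exact (Nat.prime_dvd_prime_iff_eq hp Nat.prime_three).1 this
        subst h4
        exact h38 ⟨rfl, by rw [hqa]; norm_num⟩
    rcases Nat.lt_or_ge a 4 with h | h
    · have h3 : a = 3 := by omega
      subst h3
      exfalso
      have h4 : p ∣ 2 ^ 2 := by simpa using hpa
      exact hp2 ((Nat.prime_dvd_prime_iff_eq hp Nat.prime_two).1 (hp.dvd_of_dvd_pow h4))
    · exact h
  refine ⟨a, ha4, hqa, hpa, ha, fun x => ?_, k, fun x => by rw [hk, ha]⟩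
  -- `star x = x ^ q = x ^ a`
  obtain ⟨m, hm⟩ := hodd
  have h5 : ∀ y : FT σ, y ^ (a ^ 2) = y := by
    intro y
    have := FiniteField.pow_card y
    rwa [← Nat.card_eq_fintype_card, ha] at this
  have h6 : ∀ (m : ℕ) (y : FT σ), y ^ ((a ^ 2) ^ m) = y := by
    intro m y
    induction m with
    | zero => simp
    | succ m ih => rw [pow_succ, pow_mul, ih, h5]
  have h7 : star x = x ^ q := by
    apply Subtype.ext
    have : (FI σ (star x)) = FI σ (x ^ q) := by
      rw [FI_star, hs, map_pow]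
    exact this
  rw [h7, hqa, hm, pow_succ, pow_mul, pow_mul, h6]

end

end Vale.Agent.P240.R2.H687
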