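import Vale.Agent.P240.MathlibUsed
import Mathlib.LinearAlgebra.UnitaryGroup
import Mathlib.FieldTheory.Finite.Basic

/-!
Numbers and matrices for a field automorphism of order `p` of the unitary group (P240, module M5a).
-/

namespace Vale.Agent.P240.R2.H687

open Matrix

/-- `A = (a ^ p + 1) / (a + 1)` and the norm exponent `∑ a ^ (2 i)`. -/
lemma exponents {a p : ℕ} (hp : Odd p) (ha : 2 ≤ a) :
    ∃ A T : ℕ, A * (a + 1) = a ^ p + 1 ∧
      ∑ i ∈ Finset.range p, (a ^ 2) ^ i = A + (a ^ p + 1) * T := by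
  have hd : a + 1 ∣ a ^ p + 1 := by
    have := hp.nat_add_dvd_pow_add_pow a 1
    rwa [one_pow] at this
  obtain ⟨A, hA⟩ := hd
  obtain ⟨m, hm⟩ := hp
  have hB : ∀ m : ℕ, ∃ T : ℕ, ∑ i ∈ Finset.range (2 * m + 1), a ^ i = 1 + (a + 1) * T := by
    intro m
    induction m with
    | zero => exact ⟨0, by simp⟩
    | succ m ih =>
      obtain ⟨T, hT⟩ := ih
      refine ⟨T + a ^ (2 * m + 1), ?_⟩
      have h1 : 2 * (m + 1) + 1 = 2 * m + 1 + 1 + 1 := by ring
      rw [h1, Finset.sum_range_succ, Finset.sum_range_succ, hT]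
      ring
  obtain ⟨T, hT⟩ := hB m
  rw [← hm] at hT
  refine ⟨A, T, by rw [hA, mul_comm], ?_⟩
  have e1 : (∑ i ∈ Finset.range p, ((a : ℤ) ^ 2) ^ i) * ((a : ℤ) ^ 2 - 1) = ((a : ℤ) ^ 2) ^ p - 1 :=
    geom_sum_mul _ _
  have e2 : (∑ i ∈ Finset.range p, (a : ℤ) ^ i) * ((a : ℤ) - 1) = (a : ℤ) ^ p - 1 :=
    geom_sum_mul _ _
  have e3 : (a : ℤ) ^ p + 1 = ((a : ℤ) + 1) * A := by exact_mod_cast hA
  have e4 : ∑ i ∈ Finset.range p, (a : ℤ) ^ i = 1 + ((a : ℤ) + 1) * T := by exact_mod_cast hT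
  have e5 : ((a : ℤ) ^ 2 - 1) ≠ 0 := by
    have : (2 : ℤ) ≤ a := by exact_mod_cast ha
    nlinarith
  have e6 : (∑ i ∈ Finset.range p, ((a : ℤ) ^ 2) ^ i) = A + ((a : ℤ) ^ p + 1) * T := by
    apply mul_right_cancel₀ e5
    rw [e1]
    have e7 : ((a : ℤ) ^ 2) ^ p - 1 = ((a : ℤ) ^ p + 1) * ((a : ℤ) ^ p - 1) := by
      rw [← pow_mul, mul_comm 2 p, pow_mul]
      ring
    rw [e7, ← e2, e4, e3]
    ring
  exact_mod_cast e6

lemma pow_red {K : Type*} [Monoid K] {c : K} {a p A T : ℕ}
    (hS : ∑ i ∈ Finset.range p, (a ^ 2) ^ i = A + (a ^ p + 1) * T) (h1 : c ^ (a ^ p + 1) = 1)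
    (h2 : c ^ (∑ i ∈ Finset.range p, (a ^ 2) ^ i) = 1) : c ^ A = 1 := by
  rw [hS, pow_add, pow_mul, h1, one_pow, mul_one] at h2
  exact h2

section
variable {K K₀ : Type*} [Field K] [StarRing K] [Field K₀] [StarRing K₀] {n : ℕ}

/-- Entrywise application of a ring homomorphism compatible with `star` to unitary matrices. -/
def uMap (n : ℕ) (f : K₀ →+* K) (hf : ∀ x, f (star x) = star (f x)) :
    unitaryGroup (Fin n) K₀ →* unitaryGroup (Fin n) K where
  toFun g := ⟨(g : Matrix (Fin n) (Fin n) K₀).map f, by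
    rw [mem_unitaryGroup_iff]
    have h := mem_unitaryGroup_iff.1 g.2
    have h2 : star ((g : Matrix (Fin n) (Fin n) K₀).map f)
        = (star (g : Matrix (Fin n) (Fin n) K₀)).map f := by
      ext i j
      simp [star_eq_conjTranspose, conjTranspose_apply, hf]
    rw [h2, ← Matrix.map_mul, h, Matrix.map_one f (map_zero f) (map_one f)]⟩
  map_one' := Subtype.ext (Matrix.map_one f (map_zero f) (map_one f))
  map_mul' g h := by
    apply Subtype.ext
    simp [Matrix.map_mul]

lemma uMap_coe (f : K₀ →+* K) (hf : ∀ x, f (star x) = star (f x))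
    (g : unitaryGroup (Fin n) K₀) :
    ((uMap n f hf g : unitaryGroup (Fin n) K) : Matrix (Fin n) (Fin n) K)
      = (g : Matrix (Fin n) (Fin n) K₀).map f := rfl

lemma uMap_injective (f : K₀ →+* K) (hf : ∀ x, f (star x) = star (f x)) :
    Function.Injective (uMap n f hf) := by
  intro g h hgh
  apply Subtype.ext
  have h1 := congrArg Subtype.val hgh
  rw [uMap_coe, uMap_coe] at h1
  ext i j
  have h2 := congrFun (congrFun h1 i) j
  simpa using f.injective h2

end

section
variable {K : Type*} [Field K] [StarRing K] {n : ℕ}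

lemma exists_entry_ne_zero (hn : 0 < n) (g : unitaryGroup (Fin n) K) :
    ∃ i j, (g : Matrix (Fin n) (Fin n) K) i j ≠ 0 := by
  by_contra h
  push Not at h
  have h0 : (g : Matrix (Fin n) (Fin n) K) = 0 := by
    ext i j
    exact h i j
  have h1 := mem_unitaryGroup_iff.1 g.2
  rw [h0, zero_mul] at h1
  have h2 := congrFun (congrFun h1 ⟨0, hn⟩) ⟨0, hn⟩
  simp at h2

/-- a unitary matrix that the ring automorphism `f` multiplies by `c`: `c` has norm one. -/
lemma scal_norm (hn : 0 < n) (f : K →+* K) (hf : ∀ x, f (star x) = star (f x))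
    {g : unitaryGroup (Fin n) K} {c : K}
    (h : (g : Matrix (Fin n) (Fin n) K).map f = c • (g : Matrix (Fin n) (Fin n) K)) :
    c * star c = 1 := by
  have h1 := mem_unitaryGroup_iff.1 (uMap n f hf g).2
  rw [uMap_coe, h, star_smul, smul_mul_smul_comm, mem_unitaryGroup_iff.1 g.2] at h1
  have h2 := congrFun (congrFun h1 ⟨0, hn⟩) ⟨0, hn⟩
  simpa using h2

omit [StarRing K] in
lemma scal_iter (f : K →+* K) {N : ℕ} (hN : ∀ x, f x = x ^ N) {g : Matrix (Fin n) (Fin n) K} {c : K}
    (h : g.map f = c • g) (i : ℕ) :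
    g.map (fun x => x ^ (N ^ i)) = c ^ (∑ j ∈ Finset.range i, N ^ j) • g := by
  induction i with
  | zero =>
    ext k l
    simp
  | succ i ih =>
    ext k l
    have h1 := congrFun (congrFun ih k) l
    have h2 := congrFun (congrFun h k) l
    simp only [Matrix.map_apply, Matrix.smul_apply, smul_eq_mul] at h1 h2 ⊢
    rw [pow_succ, pow_mul, h1, ← hN, map_mul, h2, hN (c ^ _), geom_sum_succ, pow_add, pow_one,
      ← pow_mul, mul_comm (N : ℕ)]
    ring

/-- the scalars `c` that occur satisfy `c ^ A = 1` -/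
lemma scal_pow [Finite K] (hn : 0 < n) {a p A T : ℕ}
    (hS : ∑ i ∈ Finset.range p, (a ^ 2) ^ i = A + (a ^ p + 1) * T)
    (hcard : Nat.card K = a ^ (2 * p)) (hstar : ∀ x : K, star x = x ^ (a ^ p))
    (f : K →+* K) (hf : ∀ x, f x = x ^ (a ^ 2))
    {g : unitaryGroup (Fin n) K} {c : K}
    (h : (g : Matrix (Fin n) (Fin n) K).map f = c • (g : Matrix (Fin n) (Fin n) K)) :
    c ^ A = 1 := by
  have hfs : ∀ x, f (star x) = star (f x) := by
    intro x
    rw [hf, hf, hstar, hstar, ← pow_mul, ← pow_mul, mul_comm]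
  have h1 := scal_norm hn f hfs h
  rw [hstar, mul_comm, ← pow_succ] at h1
  refine pow_red hS h1 ?_
  have h2 := scal_iter f hf h p
  obtain ⟨i, j, hij⟩ := exists_entry_ne_zero hn g
  have h3 := congrFun (congrFun h2 i) j
  simp only [Matrix.map_apply, Matrix.smul_apply, smul_eq_mul] at h3
  have h4 : ∀ x : K, x ^ ((a ^ 2) ^ p) = x := by
    intro x
    have := Fintype.ofFinite K
    have h5 := FiniteField.pow_card x
    rw [← Nat.card_eq_fintype_card, hcard, pow_mul] at h5
    exact h5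
  rw [h4] at h3
  exact mul_right_cancel₀ hij (h3.symm.trans (one_mul _).symm)

end

section
variable {K K₀ : Type*} [Field K] [StarRing K] [Field K₀] [StarRing K₀] {n : ℕ}

lemma mem_range_uMap (f : K₀ →+* K) (hf : ∀ x, f (star x) = star (f x))
    {g : unitaryGroup (Fin n) K} (h : ∀ i j, ∃ x, f x = (g : Matrix (Fin n) (Fin n) K) i j) :
    ∃ g₀, uMap n f hf g₀ = g := by
  choose g₀ hg₀ using h
  have e1 : (Matrix.of g₀).map f = (g : Matrix (Fin n) (Fin n) K) := by
    ext i j
    simp [hg₀]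
  have e2 : (Matrix.of g₀) * star (Matrix.of g₀) = 1 := by
    have h2 : star ((Matrix.of g₀).map f) = (star (Matrix.of g₀)).map f := by
      ext i j
      simp [star_eq_conjTranspose, conjTranspose_apply, hf]
    have h3 := mem_unitaryGroup_iff.1 g.2
    rw [← e1, h2, ← Matrix.map_mul, ← Matrix.map_one f (map_zero f) (map_one f)] at h3
    ext i j
    have h4 := congrFun (congrFun h3 i) j
    exact f.injective h4
  refine ⟨⟨Matrix.of g₀, mem_unitaryGroup_iff.2 e2⟩, Subtype.ext ?_⟩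
  rw [uMap_coe]
  exact e1

/-- **The centralizer count**, for a subgroup `S` of `U_n(K)` and a set `Z` containing the scalars
that occur: at most `|Z| |S ∩ U_n(K₀)|` elements `g` of `S` satisfy `φ(g) = c g`. -/
theorem card_scal_gen [Finite K] [Finite K₀]
    (φ : K →+* K) (hφs : ∀ x, φ (star x) = star (φ x))
    (f : K₀ →+* K) (hf : ∀ x, f (star x) = star (f x)) (hfix : ∀ x : K, φ x = x → ∃ y, f y = x)
    (S : Subgroup (unitaryGroup (Fin n) K)) (Z : Set K)
    (hZ : ∀ g ∈ S, ∀ c : K,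
      (g : Matrix (Fin n) (Fin n) K).map φ = c • (g : Matrix (Fin n) (Fin n) K) → c ∈ Z) :
    Nat.card {g : unitaryGroup (Fin n) K // g ∈ S ∧
      ∃ c : K, (g : Matrix (Fin n) (Fin n) K).map φ = c • (g : Matrix (Fin n) (Fin n) K)} ≤
      Nat.card Z * Nat.card (S.comap (uMap n f hf)) := by
  classical
  have : Finite (Matrix (Fin n) (Fin n) K) := inferInstanceAs (Finite (Fin n → Fin n → K))
  have : Finite (Matrix (Fin n) (Fin n) K₀) := inferInstanceAs (Finite (Fin n → Fin n → K₀))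
  have : Finite (unitaryGroup (Fin n) K) := Subtype.finite
  have : Finite (unitaryGroup (Fin n) K₀) := Subtype.finite
  have : Finite Z := Subtype.finite
  -- representatives
  set R : K → unitaryGroup (Fin n) K := fun c =>
    if h : ∃ g : unitaryGroup (Fin n) K, g ∈ S ∧
      (g : Matrix (Fin n) (Fin n) K).map φ = c • (g : Matrix (Fin n) (Fin n) K) then h.choose else 1
    with hR
  have hRc : ∀ (c : K) (g : unitaryGroup (Fin n) K), g ∈ S →
      (g : Matrix (Fin n) (Fin n) K).map φ = c • (g : Matrix (Fin n) (Fin n) K) →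
      R c ∈ S ∧ ((R c : unitaryGroup (Fin n) K) : Matrix (Fin n) (Fin n) K).map φ
        = c • ((R c : unitaryGroup (Fin n) K) : Matrix (Fin n) (Fin n) K) := by
    intro c g hS hg
    have h : ∃ g : unitaryGroup (Fin n) K, g ∈ S ∧
      (g : Matrix (Fin n) (Fin n) K).map φ = c • (g : Matrix (Fin n) (Fin n) K) := ⟨g, hS, hg⟩
    simp only [hR, dif_pos h]
    exact h.choose_spec
  have key : ∀ (c : K) (g : unitaryGroup (Fin n) K), g ∈ S →
      (g : Matrix (Fin n) (Fin n) K).map φ = c • (g : Matrix (Fin n) (Fin n) K) →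
      ∃ u ∈ S.comap (uMap n f hf), R c * uMap n f hf u = g := by
    intro c g hS hg
    obtain ⟨hS1, h1⟩ := hRc c g hS hg
    have h3 : uMap n φ hφs ((R c)⁻¹ * g) = (R c)⁻¹ * g := by
      rw [map_mul, map_inv]
      have e1 : ((uMap n φ hφs (R c))⁻¹ * uMap n φ hφs g) = (R c)⁻¹ * g := by
        rw [inv_mul_eq_iff_eq_mul]
        apply Subtype.ext
        have e2 : ((uMap n φ hφs (R c) * ((R c)⁻¹ * g) : unitaryGroup (Fin n) K) :
            Matrix (Fin n) (Fin n) K)
            = ((uMap n φ hφs (R c) : unitaryGroup (Fin n) K) : Matrix (Fin n) (Fin n) K)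
              * (((R c)⁻¹ * g : unitaryGroup (Fin n) K) : Matrix (Fin n) (Fin n) K) := rfl
        rw [e2, uMap_coe, uMap_coe, h1, hg, Matrix.smul_mul]
        have e3 : ((R c : unitaryGroup (Fin n) K) : Matrix (Fin n) (Fin n) K)
              * (((R c)⁻¹ * g : unitaryGroup (Fin n) K) : Matrix (Fin n) (Fin n) K)
            = ((R c * ((R c)⁻¹ * g) : unitaryGroup (Fin n) K) : Matrix (Fin n) (Fin n) K) := rfl
        rw [e3, mul_inv_cancel_left]
      exact e1
    obtain ⟨u, hu⟩ := mem_range_uMap (K₀ := K₀) f hf (g := (R c)⁻¹ * g) (fun i j => by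
      refine hfix _ ?_
      have h4 := congrArg Subtype.val h3
      rw [uMap_coe] at h4
      exact congrFun (congrFun h4 i) j)
    refine ⟨u, ?_, by rw [hu, mul_inv_cancel_left]⟩
    rw [Subgroup.mem_comap, hu]
    exact S.mul_mem (S.inv_mem hS1) hS
  have hc : ∀ g : {g : unitaryGroup (Fin n) K // g ∈ S ∧
      ∃ c : K, (g : Matrix (Fin n) (Fin n) K).map φ = c • (g : Matrix (Fin n) (Fin n) K)},
      ∃ x : Z × S.comap (uMap n f hf), R x.1 * uMap n f hf x.2 = g.1 := by
    rintro ⟨g, hS, c, hg⟩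
    obtain ⟨u, hu', hu⟩ := key c g hS hg
    exact ⟨(⟨c, hZ g hS c hg⟩, ⟨u, hu'⟩), hu⟩
  choose F hF using hc
  rw [← Nat.card_prod]
  refine Nat.card_le_card_of_injective F fun x y hxy => ?_
  apply Subtype.ext
  rw [← hF x, ← hF y, hxy]

omit [StarRing K] in
lemma card_roots_le [Finite K] {A : ℕ} (hA : 0 < A) :
    Nat.card ({c : K | c ^ A = 1} : Set K) ≤ A := by
  classical
  have h1 : ({c : K | c ^ A = 1} : Set K)
      = ((Polynomial.nthRootsFinset A (1 : K) : Finset K) : Set K) := by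
    ext c
    simp [Polynomial.mem_nthRootsFinset hA]
  rw [h1, Nat.card_coe_set_eq, Set.ncard_coe_finset, Polynomial.nthRootsFinset_def]
  exact (Multiset.toFinset_card_le _).trans (Polynomial.card_nthRoots A 1)

omit [StarRing K] in
/-- a unitary matrix of determinant one that `φ` multiplies by `c`: `c ^ n = 1`. -/
lemma scal_det (φ : K →+* K) {g : Matrix (Fin n) (Fin n) K} (hg : g.det = 1) {c : K}
    (h : g.map φ = c • g) : c ^ n = 1 := by
  have h1 := congrArg Matrix.det h
  rw [Matrix.det_smul, hg, mul_one, Fintype.card_fin] at h1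
  rw [← h1]
  have h2 : g.map φ = φ.mapMatrix g := rfl
  rw [h2, ← RingHom.map_det, hg, map_one]

end

end Vale.Agent.P240.R2.H687
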