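import Vale.Agent.P240.R2.H687.CntSU
import Vale.Agent.P240.R2.H38.UDefs

/-!
NL6: the counts and the families of frames for a homomorphism that is defined on `SU_n(q)` only.
-/

set_option autoImplicit false

namespace Vale.Agent.P240.R2.H687

open Matrix Vale.Agent.P240.R2.AS Vale.Agent.P240.R2.H986.St Vale.Agent.P240.R2.H38

universe u v w

section
variable {K : Type u} {Γ : Type w} [Field K] [StarRing K] [Group Γ] {n : ℕ}

/-- **The number of conjugates**, for a homomorphism defined on a subgroup `S` only. -/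
theorem card_conjs_S [Finite K] (S : Subgroup (GU K n)) (ep : S →* Γ)
    (φ : K →+* K)
    (hep : ∀ g : S, ep g = 1 → ∃ c : K,
      ((g : GU K n) : Matrix (Fin n) (Fin n) K) = c • (1 : Matrix (Fin n) (Fin n) K))
    (x : Γ) (hS : ∀ g : S, ∃ g' : S, ((g' : GU K n) : Matrix (Fin n) (Fin n) K)
      = ((g : GU K n) : Matrix (Fin n) (Fin n) K).map φ ∧ x * ep g * x⁻¹ = ep g') :
    Nat.card S ≤ Nat.card (Set.range fun g : S => ep g * x * (ep g)⁻¹) *
      Nat.card {g : GU K n // g ∈ S ∧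
        ∃ c : K, (g : Matrix (Fin n) (Fin n) K).map φ = c • (g : Matrix (Fin n) (Fin n) K)} := by
  have : Finite (Matrix (Fin n) (Fin n) K) := inferInstanceAs (Finite (Fin n → Fin n → K))
  have : Finite (unitaryGroup (Fin n) K) := Subtype.finite
  have h1 := card_le_range_mul (fun g : S => ep g * x * (ep g)⁻¹) {g : S |
      ∃ c : K, ((g : GU K n) : Matrix (Fin n) (Fin n) K).map φ
        = c • ((g : GU K n) : Matrix (Fin n) (Fin n) K)} (fun g g' h => by
    have h : ep g * x * (ep g)⁻¹ = ep g' * x * (ep g')⁻¹ := h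
    obtain ⟨w', hw', hw''⟩ := hS (g⁻¹ * g')
    have h1 : x * ep (g⁻¹ * g') * x⁻¹ = ep (g⁻¹ * g') := by
      rw [map_mul, map_inv]
      have h2 : ep g' * x * (ep g')⁻¹ = ep g * x * (ep g)⁻¹ := h.symm
      have h3 : ep g' * x = ep g * x * (ep g)⁻¹ * ep g' := by rw [← h2]; group
      have h4 : x * (ep g)⁻¹ * ep g' = (ep g)⁻¹ * (ep g' * x) := by rw [h3]; group
      rw [← mul_assoc, h4]
      group
    rw [hw''] at h1
    have h5 : ep ((g⁻¹ * g')⁻¹ * w') = 1 := by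
      rw [map_mul, map_inv, h1, inv_mul_cancel]
    obtain ⟨c, hc⟩ := hep _ h5
    refine ⟨c, ?_⟩
    have h6 : w' = (g⁻¹ * g') * ((g⁻¹ * g')⁻¹ * w') := by rw [mul_inv_cancel_left]
    have h8 : ∀ u v : S, (((u * v : S) : GU K n) : Matrix (Fin n) (Fin n) K)
        = ((u : GU K n) : Matrix (Fin n) (Fin n) K) * ((v : GU K n) : Matrix (Fin n) (Fin n) K) :=
      fun _ _ => rfl
    have h7 : ((w' : GU K n) : Matrix (Fin n) (Fin n) K)
        = (((g⁻¹ * g') * ((g⁻¹ * g')⁻¹ * w') : S) : GU K n) :=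
      congrArg (fun y : S => ((y : GU K n) : Matrix (Fin n) (Fin n) K)) h6
    rw [h8 (g⁻¹ * g'), hc, Matrix.mul_smul, Matrix.mul_one] at h7
    rw [← hw', h7])
  refine h1.trans (Nat.mul_le_mul_left _ ?_)
  refine Nat.card_le_card_of_injective
    (fun g : {g : S | ∃ c : K, ((g : GU K n) : Matrix (Fin n) (Fin n) K).map φ
        = c • ((g : GU K n) : Matrix (Fin n) (Fin n) K)} =>
      (⟨g.1.1, g.1.2, g.2⟩ : {g : GU K n // g ∈ S ∧
      ∃ c : K, (g : Matrix (Fin n) (Fin n) K).map φ = c • (g : Matrix (Fin n) (Fin n) K)})) ?_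
  intro g g' h
  have h2 := congrArg (fun y : {g : GU K n // g ∈ S ∧
      ∃ c : K, (g : Matrix (Fin n) (Fin n) K).map φ = c • (g : Matrix (Fin n) (Fin n) K)} => y.1) h
  exact Subtype.ext (Subtype.ext h2)

end

section
variable {K : Type u} {K₀ : Type v} {Γ : Type w} [Field K] [StarRing K] [Fintype K]
  [Field K₀] [StarRing K₀] [Fintype K₀] [Group Γ] {n : ℕ}

/-- **The family of frames**, for a homomorphism defined on a subgroup `S` only. -/
theorem family_S (f : K₀ →+* K) (hf : ∀ x, f (star x) = star (f x)) (S : Subgroup (GU K n))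
    (ep : S →* Γ) (x : Γ) (ew : List (Ln K n) → Γ)
    (hcomm : ∀ g : S, ∀ u v : List (Ln K₀ n), u ++ v ∈ Fr K₀ n →
      ew (u.map (lam f hf g)) * (ep g * x * (ep g)⁻¹)
        = (ep g * x * (ep g)⁻¹) * ew (u.map (lam f hf g))) :
    ∃ (Y : Finset Γ) (Fy : Γ → Finset (List (Ln K n))),
      (∀ y, y ∈ Y ↔ ∃ g : S, ep g * x * (ep g)⁻¹ = y) ∧
      (∀ y ∈ Y, Fy y ⊆ Fr K n ∧ (∀ w ∈ Fy y, ∀ w', w.Perm w' → w' ∈ Fy y) ∧
        ∀ u v, u ++ v ∈ Fy y → ew u * y = y * ew u) ∧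
      ∑ y ∈ Y, t (Fy y)
        = Nat.card (Set.range fun g : S => ep g * x * (ep g)⁻¹) * t (Fr K₀ n) := by
  classical
  have : Finite (Matrix (Fin n) (Fin n) K) := inferInstanceAs (Finite (Fin n → Fin n → K))
  have : Finite (unitaryGroup (Fin n) K) := Subtype.finite
  have hfin : (Set.range fun g : S => ep g * x * (ep g)⁻¹).Finite := Set.finite_range _
  set Y : Finset Γ := hfin.toFinset with hY
  have hmem : ∀ y, y ∈ Y ↔ ∃ g : S, ep g * x * (ep g)⁻¹ = y := fun y => Set.Finite.mem_toFinset _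
  have hr : ∀ y : Γ, ∃ g : S, y ∈ Y → ep g * x * (ep g)⁻¹ = y := by
    intro y
    by_cases h : y ∈ Y
    · obtain ⟨g, hg⟩ := (hmem y).1 h
      exact ⟨g, fun _ => hg⟩
    · exact ⟨1, fun h' => absurd h' h⟩
  choose r hr using hr
  refine ⟨Y, fun y => Fg f hf (r y), hmem, fun y hy => ⟨Fg_sub f hf _, Fg_perm f hf _,
    fun u v huv => ?_⟩, ?_⟩
  · obtain ⟨w₀, h₀, h1⟩ := mem_mapW.1 huv
    obtain ⟨u₀, v₀, rfl, rfl, rfl⟩ := List.map_eq_append_iff.1 h1
    have h := hcomm (r y) u₀ v₀ h₀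
    rwa [hr y hy] at h
  · simp only [t_Fg]
    rw [Finset.sum_const, smul_eq_mul]
    have hc : Nat.card (Set.range fun g : S => ep g * x * (ep g)⁻¹) = Y.card := by
      rw [hY, Nat.card_coe_set_eq, Set.ncard_eq_toFinset_card _ hfin]
    rw [← hc]

end

section
variable {K : Type u} {Γ : Type w} [Field K] [StarRing K] [Fintype K] [Group Γ] {n : ℕ}

lemma mt_mul (a b : H38.SU K n) : mt (a * b) = mt a * mt b := rfl

lemma mt_inv (a : H38.SU K n) : mt a⁻¹ = star (mt a) := rfl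

lemma mt_star_mul (a : H38.SU K n) : star (mt a) * mt a = 1 := mem_unitaryGroup_iff'.1 a.1.2

lemma mt_det (a : H38.SU K n) : (mt a).det = 1 := a.2

lemma conj_scal {R : Type*} [CommRing R] (g gs M : Matrix (Fin n) (Fin n) R) (hg : gs * g = 1)
    (a b : R) : gs * (a • (1 + b • (g * M * gs))) * g = a • (1 + b • M) := by
  have h2 : gs * (g * M * gs) * g = M := by
    have h3 : gs * (g * M * gs) * g = (gs * g) * M * (gs * g) := by simp only [Matrix.mul_assoc]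
    rw [h3, hg, Matrix.one_mul, Matrix.mul_one]
  rw [Matrix.mul_smul, Matrix.smul_mul, Matrix.mul_add, Matrix.add_mul, Matrix.mul_one, hg,
    Matrix.mul_smul, Matrix.smul_mul, h2]

lemma map_scal {R : Type*} [CommRing R] (φ : R →+* R) (M : Matrix (Fin n) (Fin n) R)
    (hM : M.map φ = M) (a b : R) (hb : φ b = b) :
    (a • (1 + b • M)).map φ = φ a • (1 + b • M) := by
  have h1 : ∀ i j, φ (M i j) = M i j := fun i j => congrFun (congrFun hM i) j
  ext i j
  simp only [Matrix.map_apply, Matrix.smul_apply, Matrix.add_apply, smul_eq_mul, map_mul,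
    map_add, hb, h1]
  rw [Matrix.one_apply, apply_ite φ, map_one, map_zero]

/-- if `x` acts by `φ`, it commutes with `ε h` for every `h` with `φ h` a multiple of `h` -/
lemma comm_scal (φ : K →+* K) (hφs : ∀ x, φ (star x) = star (φ x)) (ε : H38.SU K n →* Γ)
    (hε : ∀ g : H38.SU K n, (∃ c : K, mt g = c • (1 : Matrix (Fin n) (Fin n) K)) → ε g = 1)
    (x : Γ) (hx : ∀ h h' : H38.SU K n, mt h' = (mt h).map φ → x * ε h * x⁻¹ = ε h')
    (h : H38.SU K n) (a : K) (ha : (mt h).map φ = a • mt h) : x * ε h = ε h * x := by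
  have hdet : ((mt h).map φ).det = 1 := by
    have h3 : (mt h).map φ = φ.mapMatrix (mt h) := rfl
    rw [h3, ← RingHom.map_det, mt_det, map_one]
  obtain ⟨h', hm'⟩ : ∃ h' : H38.SU K n, mt h' = (mt h).map φ := ⟨⟨uMap n φ hφs h.1, hdet⟩, rfl⟩
  have hscal : mt h' = a • mt h := hm'.trans ha
  have hεh : ε h' = ε h := by
    rw [← inv_mul_eq_one, ← map_inv, ← map_mul]
    apply hε
    refine ⟨star a, ?_⟩
    rw [mt_mul, mt_inv, hscal, star_smul, Matrix.smul_mul, mt_star_mul]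
  have hcom := hx h h' hm'
  rw [hεh] at hcom
  rw [← mul_inv_eq_iff_eq_mul]
  exact hcom

end

section
variable {K : Type u} {K₀ : Type v} {Γ : Type w} [Field K] [StarRing K] [Fintype K]
  [Field K₀] [StarRing K₀] [Fintype K₀] [Group Γ] {n : ℕ}

/-- the elements `sW ζ c u` commute with the conjugates -/
lemma sW_comm (f : K₀ →+* K) (hf : ∀ x, f (star x) = star (f x))
    (φ : K →+* K) (hφs : ∀ x, φ (star x) = star (φ x)) (hφf : ∀ y, φ (f y) = f y)
    {ζ c : K} (hζ : φ ζ = ζ) (hc : c ≠ 0) (ε : H38.SU K n →* Γ)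
    (hε : ∀ g : H38.SU K n, (∃ c : K, mt g = c • (1 : Matrix (Fin n) (Fin n) K)) → ε g = 1)
    (x : Γ) (hx : ∀ h h' : H38.SU K n, mt h' = (mt h).map φ → x * ε h * x⁻¹ = ε h')
    (g : H38.SU K n) (u : List (Ln K₀ n)) :
    ε (sW ζ c (u.map (lam f hf g))) * (ε g * x * (ε g)⁻¹)
      = (ε g * x * (ε g)⁻¹) * ε (sW ζ c (u.map (lam f hf g))) := by
  classical
  by_cases hex : ∃ s : H38.SU K n, mt s = sM ζ c (u.map (lam f hf g))
  · obtain ⟨E, hE, hEm⟩ : ∃ E, sW ζ c (u.map (lam f hf g)) = E ∧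
        mt E = sM ζ c (u.map (lam f hf g)) :=
      ⟨_, rfl, by rw [sW, dif_pos hex]; exact hex.choose_spec⟩
    rw [hE]
    -- the conjugate `h = g⁻¹ E g`
    have hh : mt (g⁻¹ * E * g) = c ^ u.length • (1 + (ζ - 1) • (sm u).map f) := by
      rw [mt_mul, mt_mul, mt_inv, hEm, sM, sm_map, List.length_map]
      exact conj_scal (mt g) (star (mt g)) _ (mt_star_mul g) _ _
    have hfm : ((sm u).map f).map φ = (sm u).map f := by
      ext i j
      simp only [Matrix.map_apply, hφf]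
    have hm2 : (mt (g⁻¹ * E * g)).map φ
        = ((φ c) ^ u.length * (c ^ u.length)⁻¹) • mt (g⁻¹ * E * g) := by
      rw [hh, map_scal φ _ hfm _ _ (by rw [map_sub, map_one, hζ]), smul_smul, mul_assoc,
        inv_mul_cancel₀ (pow_ne_zero _ hc), mul_one, map_pow]
    have h8 := comm_scal φ hφs ε hε x hx (g⁻¹ * E * g) _ hm2
    rw [map_mul, map_mul, map_inv] at h8
    calc ε E * (ε g * x * (ε g)⁻¹) = ε g * (((ε g)⁻¹ * ε E * ε g) * x) * (ε g)⁻¹ := by group
      _ = ε g * (x * ((ε g)⁻¹ * ε E * ε g)) * (ε g)⁻¹ := by rw [h8]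
      _ = ε g * x * (ε g)⁻¹ * ε E := by group
  · have h1 : sW ζ c (u.map (lam f hf g)) = 1 := by
      rw [sW, dif_neg hex]
    rw [h1, map_one, one_mul, mul_one]

end

/-! ### the counts -/

section
variable {K : Type u} [Field K] [StarRing K] [Fintype K] {n : ℕ}

omit [Fintype K] in
lemma SU_eq : (H38.SU K n) = SUg K n := by
  ext g
  exact (mem_SUg (g := g)).symm

/-- `fix_data`, with the power of `σ` that is the Frobenius of the fixed field generating the same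
group -/
theorem fix_data2 {q : ℕ} (hq : 3 ≤ q) (hK : Nat.card K = q ^ 2) (hs : ∀ x : K, star x = x ^ q)
    {p : ℕ} (hp : p.Prime) (hp2 : p ≠ 2) (hpq : p ∣ q + 1) (h38 : ¬ (p = 3 ∧ q = 8))
    (σ : SA K) (hσ : orderOf σ = p) :
    ∃ a k : ℕ, 4 ≤ a ∧ q = a ^ p ∧ p ∣ a + 1 ∧ Nat.card (FT σ) = a ^ 2 ∧
      (∀ x : FT σ, star x = x ^ a) ∧ (∀ x : K, (σ ^ k).1 x = x ^ (a ^ 2)) ∧
      ∀ x : K, (σ ^ k).1 x = x → σ.1 x = x := by
  obtain ⟨a, ha4, hqa, hpa, hFa, hFs, k, hk⟩ := fix_data hq hK hs hp hp2 hpq h38 σ hσ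
  refine ⟨a, k, ha4, hqa, hpa, hFa, hFs, hk, ?_⟩
  have hcardK : Nat.card K = a ^ (2 * p) := by rw [hK, hqa, ← pow_mul, mul_comm]
  have hne : σ ^ k ≠ 1 := by
    intro h1
    obtain ⟨g, hg⟩ := IsCyclic.exists_generator (α := Kˣ)
    have ho : orderOf g = Nat.card K - 1 := by
      rw [orderOf_eq_card_of_forall_mem_zpowers hg, Nat.card_units]
    have h2 : (g : K) ^ (a ^ 2) = g := by
      rw [← hk, h1]
      rfl
    have h3 : g ^ (a ^ 2 - 1) = 1 := by
      have h4 : g ^ (a ^ 2 - 1) * g = 1 * g := by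
        rw [← pow_succ, Nat.sub_add_cancel (Nat.one_le_pow _ _ (by omega)), one_mul]
        exact Units.ext h2
      exact mul_right_cancel h4
    have h5 := orderOf_dvd_of_pow_eq_one h3
    rw [ho, hcardK] at h5
    have h6 : 0 < a ^ 2 - 1 := by
      have : 4 ^ 2 ≤ a ^ 2 := Nat.pow_le_pow_left ha4 2
      omega
    have h7 := Nat.le_of_dvd h6 h5
    have h8 : a ^ 2 < a ^ (2 * p) :=
      Nat.pow_lt_pow_right (by omega) (by have := hp.two_le; omega)
    omega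
  have hfixpow : ∀ (τ : SA K) (x : K), τ.1 x = x → ∀ m : ℕ, (τ ^ m).1 x = x := by
    intro τ x h m
    induction m with
    | zero => rfl
    | succ m ih =>
      rw [pow_succ]
      show (τ ^ m).1 (τ.1 x) = x
      rw [h, ih]
  have hcop : k.Coprime (orderOf σ) := by
    rw [hσ]
    refine (Nat.Coprime.symm ((Nat.Prime.coprime_iff_not_dvd hp).2 fun hd => hne ?_))
    exact orderOf_dvd_iff_pow_eq_one.1 (hσ ▸ hd)
  intro x hx
  obtain ⟨m, hm⟩ := exists_pow_eq_self_of_coprime hcop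
  have h1 := hfixpow (σ ^ k) x hx m
  rw [hm] at h1
  exact h1

omit [Fintype K] in
/-- a matrix that `σ` multiplies by a scalar is multiplied by a scalar by every power of `σ` -/
lemma scal_pow_of (σ : SA K) {M : Matrix (Fin n) (Fin n) K} {c : K} (h : M.map σ.1 = c • M)
    (k : ℕ) : ∃ d : K, M.map (σ ^ k).1 = d • M := by
  induction k with
  | zero =>
    refine ⟨1, ?_⟩
    rw [one_smul]
    ext i j
    rfl
  | succ k ih =>
    obtain ⟨d, hd⟩ := ih
    refine ⟨(σ ^ k).1 c * d, ?_⟩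
    have h1 : M.map (σ ^ (k + 1)).1 = (M.map σ.1).map (σ ^ k).1 := by
      rw [pow_succ]
      ext i j
      rfl
    rw [h1, h]
    ext i j
    have h2 := congrFun (congrFun hd i) j
    simp only [Matrix.map_apply, Matrix.smul_apply, smul_eq_mul, map_mul] at h2 ⊢
    rw [h2, mul_assoc]

/-- **The count for `p` odd**, abstract form: `P` is the number of conjugates. -/
theorem card_lt_abs {q : ℕ} (hq : 3 ≤ q) (hK : Nat.card K = q ^ 2) (hs : ∀ x : K, star x = x ^ q)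
    {p : ℕ} (hp : p.Prime) (hp2 : p ≠ 2) (hn : 2 ≤ n) (σ : SA K) {a k : ℕ} (ha : 4 ≤ a)
    (hqa : q = a ^ p) (hFa : Nat.card (FT σ) = a ^ 2) (hFs : ∀ x : FT σ, star x = x ^ a)
    (ht : (Fr (FT σ) n).card < 3 * 2 ^ n * t (Fr (FT σ) n))
    (hk : ∀ x : K, (σ ^ k).1 x = x ^ (a ^ 2)) (hfix : ∀ x : K, (σ ^ k).1 x = x → σ.1 x = x)
    {P : ℕ} (hP : Nat.card (SUg K n) ≤ P * Nat.card {g : GU K n // g ∈ SUg K n ∧
      ∃ c : K, (g : Matrix (Fin n) (Fin n) K).map σ.1 = c • (g : Matrix (Fin n) (Fin n) K)}) :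
    (Fr K n).card < P * t (Fr (FT σ) n) := by
  have : Finite (Matrix (Fin n) (Fin n) K) := inferInstanceAs (Finite (Fin n → Fin n → K))
  have : Finite (unitaryGroup (Fin n) K) := Subtype.finite
  have hodd : Odd p := hp.odd_of_ne_two hp2
  have hp3 : 3 ≤ p := by
    have := hp.two_le
    omega
  obtain ⟨A, T, hA, hS⟩ := exponents hodd (by omega : 2 ≤ a)
  have hA13 := A_ge ha hp3 hA
  have hAodd : Odd A := odd_A hodd hA hS
  have hcard : Nat.card K = a ^ (2 * p) := by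
    rw [hK, hqa, ← pow_mul, mul_comm]
  have hstar : ∀ x : K, star x = x ^ (a ^ p) := by
    intro x
    rw [hs, hqa]
  have hφ : ∀ x, ((σ ^ k).1 : K →+* K) x = x ^ (a ^ 2) := hk
  have hφs : ∀ x, ((σ ^ k).1 : K →+* K) (star x) = star (((σ ^ k).1 : K →+* K) x) :=
    fun x => SA_star (σ ^ k) x
  have hZ : ∀ g ∈ SUg K n, ∀ c : K,
      (g : Matrix (Fin n) (Fin n) K).map ((σ ^ k).1 : K →+* K)
        = c • (g : Matrix (Fin n) (Fin n) K) →
      c ∈ {c : K | c ^ A.gcd n = 1} := by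
    intro g hg c hc
    have h1 : c ^ A = 1 := scal_pow (by omega) hS hcard hstar _ hφ hc
    have h2 : c ^ n = 1 := scal_det _ (mem_SUg.1 hg) hc
    exact (pow_gcd_eq_one).2 ⟨h1, h2⟩
  have h1 := card_scal_gen ((σ ^ k).1 : K →+* K) hφs (FI σ) (FI_star σ)
    (fun x h => exists_FI σ (hfix x h)) (SUg K n) {c : K | c ^ A.gcd n = 1} hZ
  rw [comap_SUg'] at h1
  have h2 : Nat.card {g : GU K n // g ∈ SUg K n ∧
      ∃ c : K, (g : Matrix (Fin n) (Fin n) K).map σ.1 = c • (g : Matrix (Fin n) (Fin n) K)} ≤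
      Nat.card {g : GU K n // g ∈ SUg K n ∧
      ∃ c : K, (g : Matrix (Fin n) (Fin n) K).map ((σ ^ k).1 : K →+* K)
        = c • (g : Matrix (Fin n) (Fin n) K)} := by
    refine Nat.card_le_card_of_injective (fun g => ⟨g.1, g.2.1, ?_⟩) ?_
    · obtain ⟨c, hc⟩ := g.2.2
      exact scal_pow_of σ hc k
    · intro g g' h
      exact Subtype.ext (congrArg (fun y : {g : GU K n // g ∈ SUg K n ∧
        ∃ c : K, (g : Matrix (Fin n) (Fin n) K).map ((σ ^ k).1 : K →+* K)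
        = c • (g : Matrix (Fin n) (Fin n) K)} => y.1) h)
  have hP' := hP.trans (Nat.mul_le_mul_left _ (h2.trans h1))
  have hg0 : 0 < A.gcd n := Nat.gcd_pos_of_pos_left _ (by omega)
  have hZ0 : 0 < Nat.card ({c : K | c ^ A.gcd n = 1} : Set K) := by
    have : Nonempty ({c : K | c ^ A.gcd n = 1} : Set K) := ⟨⟨1, one_pow _⟩⟩
    exact Nat.card_pos
  have hP0 : 0 < P := by
    rcases Nat.eq_zero_or_pos P with h | h
    · rw [h, zero_mul] at hP
      have : 0 < Nat.card (SUg K n) := Nat.card_pos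
      omega
    · exact h
  have hN1 : Nat.card (unitary K) = q + 1 := by
    rw [card_unitary_N1, H715.card_N1_of_pow (by omega) hK hs]
  have hN0 : Nat.card (unitary (FT σ)) = a + 1 := by
    rw [card_unitary_N1, H715.card_N1_of_pow (by omega) hFa hFs]
  refine countSU (q := q) (a := a) (A := A) hn hA13 hAodd (by rw [hA, hqa])
    (U := Nat.card (unitaryGroup (Fin n) K)) (U₀ := Nat.card (unitaryGroup (Fin n) (FT σ)))
    ?_ ?_ ?_ ?_ hP' hP0 hZ0 (card_roots_le hg0) ht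
  · rw [H715.card_unitary, H715.card_N1_of_pow (by omega) hK hs]
  · rw [H715.card_unitary, H715.card_N1_of_pow (by omega) hFa hFs]
  · rw [card_U_SU (by omega), hN1]
  · rw [card_U_SU (by omega), hN0]

/-- **The count for `p = 2`**, `φ = star`, abstract form. -/
theorem card_lt_two {q r : ℕ} (hq : 2 ≤ q) (hK : Nat.card K = q ^ 2) (h2 : (2 : F0 K) ≠ 0)
    (hs : ∀ x : K, star x = x ^ q) (hn : 0 < n)
    (ht : (Fr (F0 K) n).card < 3 * 2 ^ n * t (Fr (F0 K) n))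
    (hnum : (q + 1) * Nat.gcd n (q + 1) * (3 * 4 ^ n) ≤ r * (2 * (q + 1) ^ n))
    {P : ℕ} (hP : Nat.card (SUg K n) ≤ P * Nat.card {g : GU K n // g ∈ SUg K n ∧
      ∃ c : K, (g : Matrix (Fin n) (Fin n) K).map (starRingEnd K)
        = c • (g : Matrix (Fin n) (Fin n) K)}) :
    (Fr K n).card < r * (P * t (Fr (F0 K) n)) := by
  have : Finite (Matrix (Fin n) (Fin n) K) := inferInstanceAs (Finite (Fin n → Fin n → K))
  have : Finite (unitaryGroup (Fin n) K) := Subtype.finite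
  have h1 := card_scal_gen (K₀ := F0 K) (starRingEnd K) star_comm (toK K) (toK_star K)
    (fun x hx => exists_toK hx) (SUg K n)
    ({c : K | c ^ (Nat.gcd n (q + 1)) = 1}) (fun g hg c hc => ?_)
  · have h3 : Nat.card ({c : K | c ^ (Nat.gcd n (q + 1)) = 1} : Set K) ≤ Nat.gcd n (q + 1) :=
      card_roots_le (Nat.gcd_pos_of_pos_left _ hn)
    have hP' := hP.trans (Nat.mul_le_mul_left _ (h1.trans (Nat.mul_le_mul_right _ h3)))
    rw [comap_SUg] at hP'
    have hU := H715.card_unitary_pow (K := K) hq hK hs n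
    have hU₀ := H715.card_unitary_trivial (K := F0 K) h2 (star_F0 K) n
    have e1 := card_U_SU (K := K) hn
    have e2 := card_U_SU (K := F0 K) hn
    rw [card_unitary_N1, H715.card_N1_of_pow hq hK hs] at e1
    rw [card_unitary_N1, H715.card_N1_of_trivial h2 (star_F0 K)] at e2
    refine count_gen' (A := q + 1) (m := 2) (Z := (q + 1) * Nat.gcd n (q + 1)) (by omega)
      (by norm_num) hU hU₀ ?_ Nat.card_pos ht hnum
    rw [e1, e2]
    calc 2 * ((q + 1) * Nat.card (SUg K n))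
        ≤ 2 * ((q + 1) * (P * (Nat.gcd n (q + 1) * Nat.card (SUg (F0 K) n)))) :=
          Nat.mul_le_mul_left _ (Nat.mul_le_mul_left _ hP')
      _ = _ := by ring
  · have e1 : c ^ n = 1 := scal_det _ (mem_SUg.1 hg) hc
    have e2 : c * star c = 1 := scal_norm hn (starRingEnd K) star_comm hc
    have e3 : c ^ (q + 1) = 1 := by
      rw [pow_succ, ← hs, mul_comm]; exact e2
    show c ^ (Nat.gcd n (q + 1)) = 1
    exact pow_gcd_eq_one.2 ⟨e1, e3⟩

end

/-! ### the final forms -/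

section
variable {K : Type u} {Γ : Type w} [Field K] [StarRing K] [Fintype K] [Group Γ] {n : ℕ}

/-- the conjugates, `x` acting by `φ` on `SU` -/
lemma card_conjs_SU (φ : K →+* K) (hφs : ∀ x, φ (star x) = star (φ x)) (ε : H38.SU K n →* Γ)
    (hε : ∀ g : H38.SU K n, ε g = 1 → ∃ c : K, mt g = c • (1 : Matrix (Fin n) (Fin n) K))
    (x : Γ) (hx : ∀ h h' : H38.SU K n, mt h' = (mt h).map φ → x * ε h * x⁻¹ = ε h') :
    Nat.card (SUg K n) ≤ Nat.card (Set.range fun g : H38.SU K n => ε g * x * (ε g)⁻¹) *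
      Nat.card {g : GU K n // g ∈ SUg K n ∧
        ∃ c : K, (g : Matrix (Fin n) (Fin n) K).map φ = c • (g : Matrix (Fin n) (Fin n) K)} := by
  have h1 := card_conjs_S (H38.SU K n) ε φ hε x (fun g => ?_)
  · rwa [← SU_eq]
  · have hdet : ((mt g).map φ).det = 1 := by
      have h3 : (mt g).map φ = φ.mapMatrix (mt g) := rfl
      rw [h3, ← RingHom.map_det, mt_det, map_one]
    obtain ⟨h', hm'⟩ : ∃ h' : H38.SU K n, mt h' = (mt g).map φ :=
      ⟨⟨uMap n φ hφs g.1, hdet⟩, rfl⟩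
    exact ⟨h', hm', hx g h' hm'⟩

/-- **NL6, `p` odd** -/
theorem nl6_odd (hM2 : StmtM2.{u}) {q : ℕ} (hq : 3 ≤ q) (hK : Nat.card K = q ^ 2)
    (hs : ∀ x : K, star x = x ^ q) {p : ℕ} (hp : p.Prime) (hp2 : p ≠ 2) (hpq : p ∣ q + 1)
    (h38 : ¬ (p = 3 ∧ q = 8)) (hn : 2 ≤ n) {ζ c : K} (hζ : ζ ^ p = 1) (hc : c ≠ 0)
    (σ : SA K) (hσ : orderOf σ = p) (ε : H38.SU K n →* Γ)
    (hε : ∀ g : H38.SU K n, ε g = 1 ↔ ∃ c : K, mt g = c • (1 : Matrix (Fin n) (Fin n) K))
    (x : Γ) (hx : ∀ h h' : H38.SU K n, mt h' = (mt h).map σ.1 → x * ε h * x⁻¹ = ε h') :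
    ∃ (Y : Finset Γ) (Fy : Γ → Finset (List (Ln K n))),
      (∀ y, y ∈ Y ↔ ∃ g : H38.SU K n, ε g * x * (ε g)⁻¹ = y) ∧
      (∀ y ∈ Y, Fy y ⊆ Fr K n ∧ (∀ w ∈ Fy y, ∀ w', w.Perm w' → w' ∈ Fy y) ∧
        ∀ u v, u ++ v ∈ Fy y → ε (sW ζ c u) * y = y * ε (sW ζ c u)) ∧
      (Fr K n).card < ∑ y ∈ Y, t (Fy y) := by
  obtain ⟨a, k, ha4, hqa, hpa, hFa, hFs, hk, hfix⟩ := fix_data2 hq hK hs hp hp2 hpq h38 σ hσ
  have hζa : ζ ^ (a + 1) = 1 := by
    obtain ⟨r, hr⟩ := hpa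
    rw [hr, pow_mul, hζ, one_pow]
  have hζσ : σ.1 ζ = ζ := by
    refine hfix ζ ?_
    rw [hk]
    have e1 : a ^ 2 = (a + 1) * (a - 1) + 1 := by
      obtain ⟨b, rfl⟩ : ∃ b, a = b + 1 := ⟨a - 1, by omega⟩
      simp only [Nat.add_sub_cancel]
      ring
    rw [e1, pow_add, pow_mul, hζa, one_pow, one_mul, pow_one]
  have hσs : ∀ x, (σ.1 : K →+* K) (star x) = star ((σ.1 : K →+* K) x) := fun x => SA_star σ x
  obtain ⟨Y, Fy, hY, hFy, hsum⟩ := family_S (FI σ) (FI_star σ) (H38.SU K n) ε x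
    (fun u => ε (sW ζ c u)) (fun g u _ _ => sW_comm (FI σ) (FI_star σ) (σ.1 : K →+* K) hσs
      (FI_fix σ) hζσ hc ε (fun g => (hε g).2) x hx g u)
  refine ⟨Y, Fy, hY, hFy, ?_⟩
  rw [hsum]
  exact card_lt_abs hq hK hs hp hp2 hn σ ha4 hqa hFa hFs
    (hM2 (FT σ) a (by omega) hFa hFs n hn) hk hfix
    (card_conjs_SU (σ.1 : K →+* K) hσs ε (fun g => (hε g).1) x hx)

/-- **NL6, `p = 2`**: `x` acts as `star` on the matrices; `r = 1` or, with the reversal, `r = 2`. -/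
theorem nl6_two {q r : ℕ} (hqo : Odd q) (hK : Nat.card K = q ^ 2)
    (hs : ∀ x : K, star x = x ^ q) (hn : 0 < n)
    (ht : (Fr (F0 K) n).card < 3 * 2 ^ n * t (Fr (F0 K) n))
    (hnum : (q + 1) * Nat.gcd n (q + 1) * (3 * 4 ^ n) ≤ r * (2 * (q + 1) ^ n))
    {c : K} (hc : c ≠ 0) (ε : H38.SU K n →* Γ)
    (hε : ∀ g : H38.SU K n, ε g = 1 ↔ ∃ c : K, mt g = c • (1 : Matrix (Fin n) (Fin n) K))
    (x : Γ) (hx : ∀ h h' : H38.SU K n, mt h' = (mt h).map (starRingEnd K) →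
      x * ε h * x⁻¹ = ε h') :
    ∃ (Y : Finset Γ) (Fy : Γ → Finset (List (Ln K n))),
      (∀ y, y ∈ Y ↔ ∃ g : H38.SU K n, ε g * x * (ε g)⁻¹ = y) ∧
      (∀ y ∈ Y, Fy y ⊆ Fr K n ∧ (∀ w ∈ Fy y, ∀ w', w.Perm w' → w' ∈ Fy y) ∧
        ∀ u v, u ++ v ∈ Fy y → ε (sW (-1) c u) * y = y * ε (sW (-1) c u)) ∧
      (Fr K n).card < r * ∑ y ∈ Y, t (Fy y) := by
  have hq2 : 2 ≤ q := by
    have hq1 : 1 < q := by
      rw [Nat.card_eq_fintype_card] at hK
      exact H472.one_lt hK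
    omega
  obtain ⟨Y, Fy, hY, hFy, hsum⟩ := family_S (toK K) (toK_star K) (H38.SU K n) ε x
    (fun u => ε (sW (-1) c u)) (fun g u _ _ => sW_comm (toK K) (toK_star K) (starRingEnd K)
      star_comm (fun y => y.2) (by rw [map_neg, map_one]) hc ε (fun g => (hε g).2) x hx g u)
  refine ⟨Y, Fy, hY, hFy, ?_⟩
  rw [hsum]
  exact card_lt_two hq2 hK (two_ne hqo hK hs) hs hn ht hnum
    (card_conjs_SU (starRingEnd K) star_comm ε (fun g => (hε g).1) x hx)

end

end Vale.Agent.P240.R2.H687
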