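import Vale.Agent.P240.R2.H687.Fld

/-!
The number of conjugates of the field automorphism, and the numerical inequality of Theorem 3
(P240, module M5a).
-/

namespace Vale.Agent.P240.R2.H687

open Matrix

lemma card_le_range_mul {U X : Type*} [Group U] [Finite U] (f : U → X) (C : Set U)
    (h : ∀ g g', f g = f g' → g⁻¹ * g' ∈ C) :
    Nat.card U ≤ Nat.card (Set.range f) * Nat.card C := by
  classical
  have hr : ∀ y : Set.range f, ∃ g, f g = y := fun y => y.2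
  choose r hr using hr
  have : Finite (Set.range f) := Set.finite_range f
  have : Finite C := Subtype.finite
  rw [← Nat.card_prod]
  refine Nat.card_le_card_of_injective
    (fun g : U => ((⟨f g, g, rfl⟩ : Set.range f),
      (⟨(r ⟨f g, g, rfl⟩)⁻¹ * g, h _ _ (hr ⟨f g, g, rfl⟩)⟩ : C))) ?_
  intro g g' hgg
  simp only [Prod.mk.injEq, Subtype.mk.injEq] at hgg
  obtain ⟨h1, h2⟩ := hgg
  simp only [h1] at h2
  exact mul_left_cancel h2

section
variable {K K₀ Γ : Type*} [Field K] [StarRing K] [Field K₀] [StarRing K₀] [Group Γ] {n : ℕ}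

/-- the conjugates of `x` under the image of the subgroup `S` of the unitary group -/
def conjs (e : unitaryGroup (Fin n) K →* Γ) (S : Subgroup (unitaryGroup (Fin n) K)) (x : Γ) :
    Set Γ :=
  {y | ∃ g ∈ S, e g * x * (e g)⁻¹ = y}

lemma self_mem_conjs (e : unitaryGroup (Fin n) K →* Γ) (S : Subgroup (unitaryGroup (Fin n) K))
    (x : Γ) : x ∈ conjs e S x :=
  ⟨1, S.one_mem, by simp⟩

lemma conjs_finite [Finite K] (e : unitaryGroup (Fin n) K →* Γ)
    (S : Subgroup (unitaryGroup (Fin n) K)) (x : Γ) : (conjs e S x).Finite := by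
  have : Finite (Matrix (Fin n) (Fin n) K) := inferInstanceAs (Finite (Fin n → Fin n → K))
  have : Finite (unitaryGroup (Fin n) K) := Subtype.finite
  have h : conjs e S x = (fun g => e g * x * (e g)⁻¹) '' (S : Set (unitaryGroup (Fin n) K)) := rfl
  rw [h]
  exact Set.toFinite _

lemma scal_of_fix (φ : K →+* K) (hφs : ∀ x, φ (star x) = star (φ x))
    (e : unitaryGroup (Fin n) K →* Γ)
    (he : ∀ g, e g = 1 → ∃ c : K, (g : Matrix (Fin n) (Fin n) K) = c • (1 : Matrix (Fin n) (Fin n) K))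
    {w : unitaryGroup (Fin n) K} (h1 : e (uMap n φ hφs w) = e w) :
    ∃ c : K, (w : Matrix (Fin n) (Fin n) K).map φ = c • (w : Matrix (Fin n) (Fin n) K) := by
  have h5 : e (w⁻¹ * uMap n φ hφs w) = 1 := by
    rw [map_mul, map_inv, h1, inv_mul_cancel]
  obtain ⟨c, hc⟩ := he _ h5
  refine ⟨c, ?_⟩
  have h6 : uMap n φ hφs w = w * (w⁻¹ * uMap n φ hφs w) := by
    rw [mul_inv_cancel_left]
  have h7 := congrArg Subtype.val h6
  rw [uMap_coe] at h7
  rw [h7]
  have h8 : ∀ u v : unitaryGroup (Fin n) K, ((u * v : unitaryGroup (Fin n) K) :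
      Matrix (Fin n) (Fin n) K) = (u : Matrix (Fin n) (Fin n) K) * (v : Matrix (Fin n) (Fin n) K) :=
    fun _ _ => rfl
  rw [h8 w, hc, Matrix.mul_smul, Matrix.mul_one]

/-- **The number of conjugates** of `x`, for a subgroup `S`. -/
theorem card_conjs_gen [Finite K] [Finite K₀]
    (φ : K →+* K) (hφs : ∀ x, φ (star x) = star (φ x))
    (f : K₀ →+* K) (hf : ∀ x, f (star x) = star (f x)) (hfix : ∀ x : K, φ x = x → ∃ y, f y = x)
    (S : Subgroup (unitaryGroup (Fin n) K)) (Z : Set K)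
    (hZ : ∀ g ∈ S, ∀ c : K,
      (g : Matrix (Fin n) (Fin n) K).map φ = c • (g : Matrix (Fin n) (Fin n) K) → c ∈ Z)
    (e : unitaryGroup (Fin n) K →* Γ)
    (he : ∀ g, e g = 1 → ∃ c : K, (g : Matrix (Fin n) (Fin n) K) = c • (1 : Matrix (Fin n) (Fin n) K))
    (x : Γ) (hx : ∀ g, x * e g * x⁻¹ = e (uMap n φ hφs g)) :
    Nat.card S ≤
      Nat.card (conjs e S x) * (Nat.card Z * Nat.card (S.comap (uMap n f hf))) := by
  have : Finite (Matrix (Fin n) (Fin n) K) := inferInstanceAs (Finite (Fin n → Fin n → K))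
  have : Finite (unitaryGroup (Fin n) K) := Subtype.finite
  have hC := card_scal_gen φ hφs f hf hfix S Z hZ
  have h0 : Nat.card (Set.range fun g : S => e g * x * (e g)⁻¹) = Nat.card (conjs e S x) := by
    have : (Set.range fun g : S => e g * x * (e g)⁻¹) = conjs e S x := by
      ext y
      constructor
      · rintro ⟨g, rfl⟩
        exact ⟨g, g.2, rfl⟩
      · rintro ⟨g, hg, rfl⟩
        exact ⟨⟨g, hg⟩, rfl⟩
    rw [this]
  have h1 := card_le_range_mul (fun g : S => e g * x * (e g)⁻¹) {g : S |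
      ∃ c : K, ((g : unitaryGroup (Fin n) K) : Matrix (Fin n) (Fin n) K).map φ
        = c • ((g : unitaryGroup (Fin n) K) : Matrix (Fin n) (Fin n) K)} (fun g g' h => by
    have h : e g * x * (e g)⁻¹ = e g' * x * (e g')⁻¹ := h
    have h1 : x * e ((g : unitaryGroup (Fin n) K)⁻¹ * g') * x⁻¹
        = e ((g : unitaryGroup (Fin n) K)⁻¹ * g') := by
      rw [map_mul, map_inv]
      have h2 : e g' * x * (e g')⁻¹ = e g * x * (e g)⁻¹ := h.symm
      have h3 : e g' * x = e g * x * (e g)⁻¹ * e g' := by rw [← h2]; group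
      have h4 : x * (e g)⁻¹ * e g' = (e g)⁻¹ * (e g' * x) := by rw [h3]; group
      rw [← mul_assoc, h4]
      group
    rw [hx] at h1
    exact scal_of_fix φ hφs e he h1)
  rw [h0] at h1
  refine h1.trans (Nat.mul_le_mul_left _ (le_trans ?_ hC))
  refine Nat.card_le_card_of_injective
    (fun g : {g : S | ∃ c : K, ((g : unitaryGroup (Fin n) K) : Matrix (Fin n) (Fin n) K).map φ
        = c • ((g : unitaryGroup (Fin n) K) : Matrix (Fin n) (Fin n) K)} =>
      (⟨g.1.1, g.1.2, g.2⟩ : {g : unitaryGroup (Fin n) K // g ∈ S ∧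
      ∃ c : K, (g : Matrix (Fin n) (Fin n) K).map φ = c • (g : Matrix (Fin n) (Fin n) K)})) ?_
  intro g g' h
  have h2 := congrArg (fun y : {g : unitaryGroup (Fin n) K // g ∈ S ∧
      ∃ c : K, (g : Matrix (Fin n) (Fin n) K).map φ = c • (g : Matrix (Fin n) (Fin n) K)} => y.1) h
  exact Subtype.ext (Subtype.ext h2)

end

/-- `A = (a ^ p + 1) / (a + 1) ≥ 13` -/
lemma A_ge {a p A : ℕ} (ha : 4 ≤ a) (hp : 3 ≤ p) (hA : A * (a + 1) = a ^ p + 1) : 13 ≤ A := by
  have h1 : a ^ 3 ≤ a ^ p := Nat.pow_le_pow_right (by omega) hp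
  by_contra h
  have h2 : A ≤ 12 := by omega
  have h3 : A * (a + 1) ≤ 12 * (a + 1) := Nat.mul_le_mul_right _ h2
  have h4 : 16 * a ≤ a ^ 3 := by
    have : a ^ 3 = a * a * a := by ring
    rw [this]
    exact Nat.mul_le_mul_right _ (Nat.mul_le_mul ha ha)
  omega

lemma thirteen_pow {n A : ℕ} (hn : 2 ≤ n) (hA : 13 ≤ A) : 3 * 2 ^ n ≤ A ^ (n - 1) := by
  obtain ⟨m, rfl⟩ : ∃ m, n = m + 2 := ⟨n - 2, by omega⟩
  have e : m + 2 - 1 = m + 1 := by omega
  rw [e]
  induction m with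
  | zero => simpa using (by omega : 12 ≤ A)
  | succ m ih =>
    have h1 := ih (by omega) (by omega)
    calc 3 * 2 ^ (m + 1 + 2) = (3 * 2 ^ (m + 2)) * 2 := by ring
      _ ≤ A ^ (m + 1) * A := Nat.mul_le_mul h1 (by omega)
      _ = A ^ (m + 1 + 1) := by ring

/-- **The count of Theorem 3**. `F₁ = |Fr(Kⁿ)|`, `F₀ = |Fr(K₀ⁿ)|`, `P = |Φ|`, `t = t(K₀ⁿ)`. -/
theorem count {n a p A U U₀ F₁ F₀ P t : ℕ} (hn : 2 ≤ n) (ha : 4 ≤ a) (hp : 3 ≤ p)
    (hA : A * (a + 1) = a ^ p + 1) (hU : U = F₁ * (a ^ p + 1) ^ n) (hU₀ : U₀ = F₀ * (a + 1) ^ n)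
    (hP : U ≤ P * (A * U₀)) (hP0 : 0 < P) (ht : F₀ < 3 * 2 ^ n * t) : F₁ < P * t := by
  have hA13 := A_ge ha hp hA
  have h1 : F₁ * A ^ (n - 1) ≤ P * F₀ := by
    rw [hU, hU₀, ← hA, mul_pow] at hP
    have h2 : A ^ n = A ^ (n - 1) * A := by rw [← pow_succ]; congr 1; omega
    have h3 : 0 < A * (a + 1) ^ n := Nat.mul_pos (by omega) (Nat.pow_pos (by omega))
    refine Nat.le_of_mul_le_mul_right ?_ h3
    calc F₁ * A ^ (n - 1) * (A * (a + 1) ^ n) = F₁ * (A ^ n * (a + 1) ^ n) := by rw [h2]; ring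
      _ ≤ P * (A * (F₀ * (a + 1) ^ n)) := hP
      _ = P * F₀ * (A * (a + 1) ^ n) := by ring
  have h4 : P * F₀ < P * (3 * 2 ^ n * t) := Nat.mul_lt_mul_of_pos_left ht hP0
  have h5 : F₁ * (3 * 2 ^ n) ≤ F₁ * A ^ (n - 1) := Nat.mul_le_mul_left _ (thirteen_pow hn hA13)
  have h6 : F₁ * (3 * 2 ^ n) < (P * t) * (3 * 2 ^ n) := by
    calc F₁ * (3 * 2 ^ n) ≤ P * F₀ := h5.trans h1
      _ < P * (3 * 2 ^ n * t) := h4
      _ = (P * t) * (3 * 2 ^ n) := by ring
  exact lt_of_mul_lt_mul_right h6 (Nat.zero_le _)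

/-- `a ≥ 4` as soon as `a > 2` and an odd prime divides `a + 1` -/
lemma four_le {a p : ℕ} (hp : p.Prime) (hp2 : p ≠ 2) (hd : p ∣ a + 1) (ha : 2 < a) : 4 ≤ a := by
  rcases Nat.lt_or_ge a 4 with h | h
  · have h3 : a = 3 := by omega
    subst h3
    exfalso
    have h4 : p ∣ 2 ^ 2 := by simpa using hd
    exact hp2 ((Nat.prime_dvd_prime_iff_eq hp Nat.prime_two).1 (hp.dvd_of_dvd_pow h4))
  · exact h

end Vale.Agent.P240.R2.H687
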