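import Vale.Agent.P240.R2.H687.Tr
import Vale.Agent.P240.R2.H687.Cnt

/-!
The frames of `K ^ n` that are defined over `K₀`, moved by a unitary matrix `g` (P240, module M5a):
for a conjugate `y = g x g⁻¹` of the field automorphism `x`, these are frames of the fixed space
of `y`.
-/

set_option autoImplicit false

namespace Vale.Agent.P240.R2.H687

open Matrix Vale.Agent.P240.R2.AS

universe u v w

section
variable {K : Type u} {K₀ : Type v} [Field K] [StarRing K] [Field K₀] [StarRing K₀] {n : ℕ}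

/-- `M ↦ g M^f g*` -/
def conjM (f : K₀ →+* K) (g : GU K n) (M : Matrix (Fin n) (Fin n) K₀) : Matrix (Fin n) (Fin n) K :=
  (g : Matrix (Fin n) (Fin n) K) * M.map f * star (g : Matrix (Fin n) (Fin n) K)

omit [StarRing K₀] in
lemma conjM_mul (f : K₀ →+* K) (g : GU K n) (M M' : Matrix (Fin n) (Fin n) K₀) :
    conjM f g (M * M') = conjM f g M * conjM f g M' := by
  have h := mem_unitaryGroup_iff'.1 g.2
  unfold conjM
  rw [Matrix.map_mul]
  have : (g : Matrix (Fin n) (Fin n) K) * M.map f * star (g : Matrix (Fin n) (Fin n) K)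
      * ((g : Matrix (Fin n) (Fin n) K) * M'.map f * star (g : Matrix (Fin n) (Fin n) K))
      = (g : Matrix (Fin n) (Fin n) K) * M.map f * (star (g : Matrix (Fin n) (Fin n) K)
      * (g : Matrix (Fin n) (Fin n) K)) * (M'.map f * star (g : Matrix (Fin n) (Fin n) K)) := by
    simp only [Matrix.mul_assoc]
  rw [this, h, Matrix.mul_one]
  simp only [Matrix.mul_assoc]

omit [StarRing K₀] in
lemma conjM_add (f : K₀ →+* K) (g : GU K n) (M M' : Matrix (Fin n) (Fin n) K₀) :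
    conjM f g (M + M') = conjM f g M + conjM f g M' := by
  unfold conjM
  have h : (M + M').map f = M.map f + M'.map f := by
    ext i j
    simp
  rw [h, Matrix.mul_add, Matrix.add_mul]

omit [StarRing K₀] in
lemma conjM_zero (f : K₀ →+* K) (g : GU K n) : conjM f g 0 = 0 := by
  unfold conjM
  have h : (0 : Matrix (Fin n) (Fin n) K₀).map f = 0 := by
    ext i j
    simp
  rw [h, Matrix.mul_zero, Matrix.zero_mul]

lemma conjM_star (f : K₀ →+* K) (hf : ∀ x, f (star x) = star (f x)) (g : GU K n)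
    (M : Matrix (Fin n) (Fin n) K₀) : star (conjM f g M) = conjM f g (star M) := by
  unfold conjM
  rw [star_mul, star_mul, star_star]
  have h : star (M.map f) = (star M).map f := by
    ext i j
    simp [star_eq_conjTranspose, conjTranspose_apply, hf]
  rw [h, Matrix.mul_assoc]

omit [StarRing K₀] in
lemma conjM_injective (f : K₀ →+* K) (g : GU K n) : Function.Injective (conjM f g) := by
  intro M M' h
  have h1 := mem_unitaryGroup_iff'.1 g.2
  have h2 : ∀ N : Matrix (Fin n) (Fin n) K₀,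
      star (g : Matrix (Fin n) (Fin n) K) * conjM f g N * (g : Matrix (Fin n) (Fin n) K) = N.map f := by
    intro N
    unfold conjM
    have : star (g : Matrix (Fin n) (Fin n) K) * ((g : Matrix (Fin n) (Fin n) K) * N.map f
        * star (g : Matrix (Fin n) (Fin n) K)) * (g : Matrix (Fin n) (Fin n) K)
        = (star (g : Matrix (Fin n) (Fin n) K) * (g : Matrix (Fin n) (Fin n) K)) * N.map f
        * (star (g : Matrix (Fin n) (Fin n) K) * (g : Matrix (Fin n) (Fin n) K)) := by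
      simp only [Matrix.mul_assoc]
    rw [this, h1, Matrix.one_mul, Matrix.mul_one]
  have h3 : M.map f = M'.map f := by rw [← h2, h, h2]
  ext i j
  exact f.injective (congrFun (congrFun h3 i) j)

/-- the map on letters -/
def lam (f : K₀ →+* K) (hf : ∀ x, f (star x) = star (f x)) (g : GU K n) (P : Ln K₀ n) : Ln K n :=
  ⟨conjM f g P.1, by
    obtain ⟨x, hx, hP⟩ := P.2
    refine ⟨(g : Matrix (Fin n) (Fin n) K) *ᵥ (f ∘ x), ?_, ?_⟩
    · rw [star_mulVec, Matrix.dotProduct_mulVec, Matrix.vecMul_vecMul]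
      have h := mem_unitaryGroup_iff'.1 g.2
      rw [star_eq_conjTranspose] at h
      rw [h, Matrix.vecMul_one]
      have h2 : star (f ∘ x) = f ∘ star x := by
        funext i
        simp [hf]
      rw [h2, ← RingHom.map_dotProduct, hx, map_one]
    · rw [hP]
      unfold conjM
      have h1 : (vecMulVec x (star x)).map f = vecMulVec (f ∘ x) (star (f ∘ x)) := by
        ext i j
        simp [vecMulVec_apply, hf]
      rw [h1, Matrix.mul_vecMulVec, Matrix.vecMulVec_mul, star_mulVec, star_eq_conjTranspose]⟩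

lemma lam_coe (f : K₀ →+* K) (hf : ∀ x, f (star x) = star (f x)) (g : GU K n) (P : Ln K₀ n) :
    (lam f hf g P).1 = conjM f g P.1 := rfl

lemma lam_injective (f : K₀ →+* K) (hf : ∀ x, f (star x) = star (f x)) (g : GU K n) :
    Function.Injective (lam f hf g) := by
  intro P P' h
  exact Subtype.ext (conjM_injective f g (congrArg Subtype.val h))

lemma sm_map (f : K₀ →+* K) (hf : ∀ x, f (star x) = star (f x)) (g : GU K n) (w : List (Ln K₀ n)) :
    sm (w.map (lam f hf g)) = conjM f g (sm w) := by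
  induction w with
  | nil => simp [sm, conjM_zero]
  | cons P w ih =>
    have h1 : sm ((P :: w).map (lam f hf g)) = (lam f hf g P).1 + sm (w.map (lam f hf g)) := by
      simp [sm]
    have h2 : sm (P :: w) = P.1 + sm w := by simp [sm]
    rw [h1, h2, ih, conjM_add, lam_coe]

lemma orth_map (f : K₀ →+* K) (hf : ∀ x, f (star x) = star (f x)) (g : GU K n)
    {w : List (Ln K₀ n)} (h : Orth w) : Orth (w.map (lam f hf g)) := by
  unfold Orth at h ⊢
  rw [List.pairwise_map]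
  refine h.imp ?_
  intro P Q hPQ
  rw [lam_coe, lam_coe, ← conjM_mul, hPQ, conjM_zero]

lemma coe_mul' (g h : GU K n) : ((g * h : GU K n) : Matrix (Fin n) (Fin n) K)
    = (g : Matrix (Fin n) (Fin n) K) * (h : Matrix (Fin n) (Fin n) K) := rfl

/-- the self-adjoint idempotent property -/
def IsPr {R : Type*} [CommRing R] [StarRing R] {n : ℕ} (P : Matrix (Fin n) (Fin n) R) : Prop :=
  star P = P ∧ P * P = P

lemma eU_val {ζ : K} {P : Matrix (Fin n) (Fin n) K} (h : IsPr P) (hζ : ζ * star ζ = 1) :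
    ((eU ζ P : GU K n) : Matrix (Fin n) (Fin n) K) = 1 + (ζ - 1) • P := by
  unfold eU
  rw [dif_pos ⟨h.1, h.2, hζ⟩]

lemma IsPr.conjM {f : K₀ →+* K} (hf : ∀ x, f (star x) = star (f x)) (g : GU K n)
    {P : Matrix (Fin n) (Fin n) K₀} (h : IsPr P) : IsPr (conjM f g P) :=
  ⟨by rw [conjM_star f hf, h.1], by rw [← conjM_mul, h.2]⟩

/-- `eU ζ (g P^f g*) = g (eU ζ₀ P)^f g⁻¹`, `ζ = f ζ₀` -/
lemma eU_conjM {f : K₀ →+* K} (hf : ∀ x, f (star x) = star (f x)) (g : GU K n)
    {P : Matrix (Fin n) (Fin n) K₀} (h : IsPr P) {ζ₀ : K₀} (hζ : ζ₀ * star ζ₀ = 1) :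
    (eU (f ζ₀) (conjM f g P) : GU K n) = g * uMap n f hf (eU ζ₀ P) * g⁻¹ := by
  have hζ' : f ζ₀ * star (f ζ₀) = 1 := by rw [← hf, ← map_mul, hζ, map_one]
  apply Subtype.ext
  rw [eU_val (h.conjM hf g) hζ', coe_mul', coe_mul', uMap_coe, eU_val h hζ]
  have h1 : ((g⁻¹ : GU K n) : Matrix (Fin n) (Fin n) K) = star (g : Matrix (Fin n) (Fin n) K) := rfl
  rw [h1]
  have h2 : (1 + (ζ₀ - 1) • P : Matrix (Fin n) (Fin n) K₀).map f = 1 + (f ζ₀ - 1) • P.map f := by
    ext i j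
    by_cases hij : i = j
    · subst hij; simp
    · simp [Matrix.one_apply, hij]
  rw [h2, Matrix.mul_add, Matrix.add_mul, Matrix.mul_one, mem_unitaryGroup_iff.1 g.2,
    Matrix.mul_smul, Matrix.smul_mul]
  rfl

end

section
variable {K : Type u} [Field K] [StarRing K] {n : ℕ}

lemma isPr_Ln (P : Ln K n) : IsPr P.1 := by
  obtain ⟨x, hx, hP⟩ := P.2
  refine ⟨?_, ?_⟩
  · rw [hP, star_eq_conjTranspose, conjTranspose_vecMulVec, star_star]
  · rw [hP, vecMulVec_mul_vecMulVec, hx, one_smul]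

lemma isPr_sm {w : List (Ln K n)} (h : Orth w) : IsPr (sm w) := by
  induction w with
  | nil => exact ⟨by simp [sm], by simp [sm]⟩
  | cons P w ih =>
    have h2 : sm (P :: w) = P.1 + sm w := by simp [sm]
    have hw := ih (List.Pairwise.of_cons h)
    have h3 : ∀ v : List (Ln K n), (∀ Q ∈ v, P.1 * Q.1 = 0) → P.1 * sm v = 0 := by
      intro v
      induction v with
      | nil => intro _; simp [sm]
      | cons Q v ihv =>
        intro hv
        have : sm (Q :: v) = Q.1 + sm v := by simp [sm]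
        rw [this, Matrix.mul_add, hv Q (by simp), ihv (fun R hR => hv R (by simp [hR])), add_zero]
    have h4 : P.1 * sm w = 0 := h3 w fun Q hQ => (List.pairwise_cons.1 h).1 Q hQ
    have h5 : sm w * P.1 = 0 := by
      have h6 := congrArg star h4
      rw [star_mul, hw.1, (isPr_Ln P).1, star_zero] at h6
      exact h6
    rw [h2]
    refine ⟨by rw [star_add, (isPr_Ln P).1, hw.1], ?_⟩
    rw [Matrix.add_mul, Matrix.mul_add, Matrix.mul_add, (isPr_Ln P).2, hw.2, h4, h5]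
    simp

end

noncomputable section
variable {K : Type u} {K₀ : Type v} {Γ : Type w} [Field K] [StarRing K] [Fintype K] [Field K₀]
  [StarRing K₀] [Fintype K₀] [Group Γ] {n : ℕ}

/-- the frames defined over `K₀`, moved by `g` -/
def Fg (f : K₀ →+* K) (hf : ∀ x, f (star x) = star (f x)) (g : GU K n) :
    Finset (List (Ln K n)) :=
  mapW (lam f hf g) (lam_injective f hf g) (Fr K₀ n)

lemma Fg_sub (f : K₀ →+* K) (hf : ∀ x, f (star x) = star (f x)) (g : GU K n) :
    Fg f hf g ⊆ Fr K n := by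
  intro w hw
  obtain ⟨w₀, h₀, rfl⟩ := mem_mapW.1 hw
  rw [mem_Fr] at h₀ ⊢
  exact ⟨by rw [List.length_map, h₀.1], orth_map f hf g h₀.2⟩

lemma Fr_perm : ∀ w ∈ Fr K n, ∀ w', w.Perm w' → w' ∈ Fr K n := by
  intro w hw w' h
  rw [mem_Fr] at hw ⊢
  refine ⟨by rw [← h.length_eq, hw.1], ?_⟩
  refine List.Perm.pairwise h hw.2 ?_
  intro P Q hPQ
  have h6 := congrArg star hPQ
  rwa [star_mul, (isPr_Ln P).1, (isPr_Ln Q).1, star_zero] at h6

omit [Fintype K] in
lemma Fg_perm (f : K₀ →+* K) (hf : ∀ x, f (star x) = star (f x)) (g : GU K n) :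
    ∀ w ∈ Fg f hf g, ∀ w', w.Perm w' → w' ∈ Fg f hf g :=
  mapW_perm Fr_perm

lemma t_Fg (f : K₀ →+* K) (hf : ∀ x, f (star x) = star (f x)) (g : GU K n) :
    t (Fg f hf g) = t (Fr K₀ n) := t_map _ _

omit [Fintype K] in
lemma Fg_comm (φ : K →+* K) (hφs : ∀ x, φ (star x) = star (φ x))
    (f : K₀ →+* K) (hf : ∀ x, f (star x) = star (f x)) (hφf : ∀ y, φ (f y) = f y)
    (e : GU K n →* Γ) (x : Γ) (hx : ∀ g, x * e g * x⁻¹ = e (uMap n φ hφs g))
    {ζ₀ : K₀} (hζ : ζ₀ * star ζ₀ = 1) (g : GU K n) {u v : List (Ln K n)}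
    (huv : u ++ v ∈ Fg f hf g) :
    e (eU (f ζ₀) (sm u)) * (e g * x * (e g)⁻¹) = (e g * x * (e g)⁻¹) * e (eU (f ζ₀) (sm u)) := by
  obtain ⟨w₀, h₀, h1⟩ := mem_mapW.1 huv
  obtain ⟨u₀, v₀, rfl, rfl, rfl⟩ := List.map_eq_append_iff.1 h1
  have hO : Orth u₀ := by
    have := (mem_Fr K₀).1 h₀
    exact (List.pairwise_append.1 this.2).1
  rw [sm_map, eU_conjM hf g (isPr_sm hO) hζ]
  have h2 : uMap n φ hφs (uMap n f hf (eU ζ₀ (sm u₀))) = uMap n f hf (eU ζ₀ (sm u₀)) := by
    apply Subtype.ext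
    rw [uMap_coe, uMap_coe]
    ext i j
    simp [hφf]
  have h3 := hx (uMap n f hf (eU ζ₀ (sm u₀)))
  rw [h2] at h3
  have h4 : x * e (uMap n f hf (eU ζ₀ (sm u₀))) = e (uMap n f hf (eU ζ₀ (sm u₀))) * x := by
    rw [← mul_inv_eq_iff_eq_mul]
    exact h3
  rw [map_mul, map_mul, map_inv]
  calc e g * e (uMap n f hf (eU ζ₀ (sm u₀))) * (e g)⁻¹ * (e g * x * (e g)⁻¹)
      = e g * (e (uMap n f hf (eU ζ₀ (sm u₀))) * x) * (e g)⁻¹ := by group
    _ = e g * (x * e (uMap n f hf (eU ζ₀ (sm u₀)))) * (e g)⁻¹ := by rw [h4]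
    _ = e g * x * (e g)⁻¹ * (e g * e (uMap n f hf (eU ζ₀ (sm u₀))) * (e g)⁻¹) := by group

/-- **The family of frames** for the conjugates of `x`, abstract form: `ew` only has to commute
with the conjugates on the words of the moved frames. -/
theorem family_abs (f : K₀ →+* K) (hf : ∀ x, f (star x) = star (f x))
    (e : GU K n →* Γ) (x : Γ) (S : Subgroup (GU K n)) (ew : List (Ln K n) → Γ)
    (hcomm : ∀ g ∈ S, ∀ u v : List (Ln K₀ n), u ++ v ∈ Fr K₀ n →
      ew (u.map (lam f hf g)) * (e g * x * (e g)⁻¹) = (e g * x * (e g)⁻¹) * ew (u.map (lam f hf g)))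
    (hcount : (Fr K n).card < Nat.card (conjs e S x) * t (Fr K₀ n)) :
    ∃ (Y : Finset Γ) (Fy : Γ → Finset (List (Ln K n))),
      (∀ y, y ∈ Y ↔ y ∈ conjs e S x) ∧
      (∀ y ∈ Y, Fy y ⊆ Fr K n ∧ (∀ w ∈ Fy y, ∀ w', w.Perm w' → w' ∈ Fy y) ∧
        ∀ u v, u ++ v ∈ Fy y → ew u * y = y * ew u) ∧
      (Fr K n).card < ∑ y ∈ Y, t (Fy y) := by
  classical
  set Y : Finset Γ := (conjs_finite e S x).toFinset with hY
  have hmem : ∀ y, y ∈ Y ↔ y ∈ conjs e S x := fun y => Set.Finite.mem_toFinset _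
  have hr : ∀ y : Γ, ∃ g : GU K n, y ∈ Y → g ∈ S ∧ e g * x * (e g)⁻¹ = y := by
    intro y
    by_cases h : y ∈ Y
    · obtain ⟨g, hg', hg⟩ := (hmem y).1 h
      exact ⟨g, fun _ => ⟨hg', hg⟩⟩
    · exact ⟨1, fun h' => absurd h' h⟩
  choose r hr using hr
  refine ⟨Y, fun y => Fg f hf (r y), hmem, fun y hy => ⟨Fg_sub f hf _, Fg_perm f hf _,
    fun u v huv => ?_⟩, ?_⟩
  · obtain ⟨w₀, h₀, h1⟩ := mem_mapW.1 huv
    obtain ⟨u₀, v₀, rfl, rfl, rfl⟩ := List.map_eq_append_iff.1 h1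
    have h := hcomm (r y) (hr y hy).1 u₀ v₀ h₀
    rwa [(hr y hy).2] at h
  · simp only [t_Fg]
    rw [Finset.sum_const, smul_eq_mul]
    have hc : Nat.card (conjs e S x) = Y.card := by
      rw [hY, Nat.card_coe_set_eq, Set.ncard_eq_toFinset_card _ (conjs_finite e S x)]
    rwa [← hc]

/-- the same with `ew u = e (eU ζ (sm u))`. -/
theorem family (φ : K →+* K) (hφs : ∀ x, φ (star x) = star (φ x))
    (f : K₀ →+* K) (hf : ∀ x, f (star x) = star (f x)) (hφf : ∀ y, φ (f y) = f y)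
    (e : GU K n →* Γ) (x : Γ) (hx : ∀ g, x * e g * x⁻¹ = e (uMap n φ hφs g))
    {ζ₀ : K₀} (hζ : ζ₀ * star ζ₀ = 1) (S : Subgroup (GU K n))
    (hcount : (Fr K n).card < Nat.card (conjs e S x) * t (Fr K₀ n)) :
    ∃ (Y : Finset Γ) (Fy : Γ → Finset (List (Ln K n))),
      (∀ y, y ∈ Y ↔ y ∈ conjs e S x) ∧
      (∀ y ∈ Y, Fy y ⊆ Fr K n ∧ (∀ w ∈ Fy y, ∀ w', w.Perm w' → w' ∈ Fy y) ∧
        ∀ u v, u ++ v ∈ Fy y →
          e (eU (f ζ₀) (sm u)) * y = y * e (eU (f ζ₀) (sm u))) ∧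
      (Fr K n).card < ∑ y ∈ Y, t (Fy y) := by
  refine family_abs f hf e x S (fun u => e (eU (f ζ₀) (sm u))) (fun g _ u v huv => ?_) hcount
  refine Fg_comm φ hφs f hf hφf e x hx hζ g (v := v.map (lam f hf g)) ?_
  rw [← List.map_append]
  exact map_mem_mapW.2 huv

end

end Vale.Agent.P240.R2.H687
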