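import Vale.Agent.P240.R2.H687.Gal
import Vale.Agent.P240.R2.H687.Fy
import Vale.Agent.P240.R2.H986.StarSU

/-!
The count for the conjugates of a field automorphism of odd order `p` under `SU_n(q)`
(P240, module A7).
-/

set_option autoImplicit false

namespace Vale.Agent.P240.R2.H687

open Matrix Vale.Agent.P240.R2.AS Vale.Agent.P240.R2.H986.St

universe u v w

/-- `3 * 2 ^ n * gcd(A, n) ≤ A ^ (n - 1)` for odd `A ≥ 13`, `n ≥ 2`. -/
lemma num_gcd {n A : ℕ} (hn : 2 ≤ n) (hA : 13 ≤ A) (hodd : Odd A) :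
    3 * 2 ^ n * A.gcd n ≤ A ^ (n - 1) := by
  rcases Nat.lt_or_ge n 3 with h | h
  · have h2 : n = 2 := by omega
    subst h2
    have h3 : A.gcd 2 = 1 := by
      rw [← Nat.coprime_iff_gcd_eq_one]
      exact Nat.coprime_two_right.2 hodd
    rw [h3]
    simp
    omega
  · have hg : A.gcd n ≤ n := Nat.gcd_le_right _ (by omega)
    refine (Nat.mul_le_mul_left _ hg).trans ?_
    obtain ⟨m, rfl⟩ : ∃ m, n = m + 3 := ⟨n - 3, by omega⟩
    have e : m + 3 - 1 = m + 2 := by omega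
    rw [e]
    clear hg h hn hodd e
    induction m with
    | zero =>
      have : 13 * 13 ≤ A * A := Nat.mul_le_mul hA hA
      have e2 : A ^ (0 + 2) = A * A := by ring
      rw [e2]
      norm_num
      omega
    | succ m ih =>
      calc 3 * 2 ^ (m + 1 + 3) * (m + 1 + 3) ≤ (3 * 2 ^ (m + 3) * (m + 3)) * 13 := by
            have : 3 * 2 ^ (m + 1 + 3) * (m + 1 + 3) = (3 * 2 ^ (m + 3)) * (2 * (m + 4)) := by ring
            have e3 : 3 * 2 ^ (m + 3) * (m + 3) * 13 = (3 * 2 ^ (m + 3)) * ((m + 3) * 13) := by ring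
            rw [this, e3]
            exact Nat.mul_le_mul_left _ (by omega)
        _ ≤ A ^ (m + 2) * A := Nat.mul_le_mul ih hA
        _ = A ^ (m + 1 + 2) := by ring

lemma sum_mod_two {a : ℕ} (ha : Odd a) (m : ℕ) :
    (∑ i ∈ Finset.range m, (a ^ 2) ^ i) % 2 = m % 2 := by
  induction m with
  | zero => simp
  | succ m ih =>
    have h1 : ((a ^ 2) ^ m) % 2 = 1 := Nat.odd_iff.1 ((ha.pow).pow)
    rw [Finset.sum_range_succ, Nat.add_mod, ih, h1, Nat.add_mod m 1]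

lemma odd_A {a p A T : ℕ} (hp : Odd p) (hA : A * (a + 1) = a ^ p + 1)
    (hS : ∑ i ∈ Finset.range p, (a ^ 2) ^ i = A + (a ^ p + 1) * T) : Odd A := by
  rcases Nat.even_or_odd a with ha | ha
  · have h1 : Odd (a ^ p + 1) := (ha.pow_of_ne_zero (by rintro rfl; simp at hp)).add_one
    rw [← hA] at h1
    exact (Nat.odd_mul.1 h1).1
  · have h2 : Even (a ^ p + 1) := (ha.pow).add_one
    have h3 : Odd (∑ i ∈ Finset.range p, (a ^ 2) ^ i) := by
      rw [Nat.odd_iff, sum_mod_two ha]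
      exact Nat.odd_iff.1 hp
    rw [hS] at h3
    exact (Nat.odd_add.1 h3).2 (h2.mul_right T)

/-- The numerical inequality for `SU`. -/
theorem countSU {n a q A S S₀ U U₀ F₁ F₀ P t Z : ℕ} (hn : 2 ≤ n) (hA13 : 13 ≤ A) (hodd : Odd A)
    (hA : A * (a + 1) = q + 1) (hU : U = F₁ * (q + 1) ^ n) (hU₀ : U₀ = F₀ * (a + 1) ^ n)
    (hS : U = (q + 1) * S) (hS₀ : U₀ = (a + 1) * S₀) (hP : S ≤ P * (Z * S₀)) (hP0 : 0 < P)
    (hZ0 : 0 < Z) (hZ : Z ≤ A.gcd n) (ht : F₀ < 3 * 2 ^ n * t) : F₁ < P * t := by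
  have hn1 : n = (n - 1) + 1 := by omega
  have h1 : S = F₁ * (q + 1) ^ (n - 1) := by
    have : (q + 1) * S = (q + 1) * (F₁ * (q + 1) ^ (n - 1)) := by
      rw [← hS, hU]
      conv_lhs => rw [hn1, pow_succ]
      ring
    exact Nat.eq_of_mul_eq_mul_left (by omega) this
  have h2 : S₀ = F₀ * (a + 1) ^ (n - 1) := by
    have : (a + 1) * S₀ = (a + 1) * (F₀ * (a + 1) ^ (n - 1)) := by
      rw [← hS₀, hU₀]
      conv_lhs => rw [hn1, pow_succ]
      ring
    exact Nat.eq_of_mul_eq_mul_left (by omega) this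
  have h3 : F₁ * A ^ (n - 1) ≤ P * (Z * F₀) := by
    rw [h1, h2, ← hA, mul_pow] at hP
    refine Nat.le_of_mul_le_mul_right (c := (a + 1) ^ (n - 1)) ?_ (Nat.pow_pos (by omega))
    calc F₁ * A ^ (n - 1) * (a + 1) ^ (n - 1) = F₁ * (A ^ (n - 1) * (a + 1) ^ (n - 1)) := by ring
      _ ≤ P * (Z * (F₀ * (a + 1) ^ (n - 1))) := hP
      _ = P * (Z * F₀) * (a + 1) ^ (n - 1) := by ring
  have h4 : P * (Z * F₀) < P * (Z * (3 * 2 ^ n * t)) :=
    Nat.mul_lt_mul_of_pos_left (Nat.mul_lt_mul_of_pos_left ht hZ0) hP0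
  have h5 : P * (Z * (3 * 2 ^ n * t)) ≤ P * t * A ^ (n - 1) := by
    calc P * (Z * (3 * 2 ^ n * t)) = P * t * (3 * 2 ^ n * Z) := by ring
      _ ≤ P * t * (3 * 2 ^ n * A.gcd n) := Nat.mul_le_mul_left _ (Nat.mul_le_mul_left _ hZ)
      _ ≤ P * t * A ^ (n - 1) := Nat.mul_le_mul_left _ (num_gcd hn hA13 hodd)
  exact lt_of_mul_lt_mul_right (h3.trans_lt (h4.trans_le h5)) (Nat.zero_le _)

section
variable {K : Type u} {Γ : Type w} [Field K] [StarRing K] [Fintype K] [Group Γ] {n : ℕ}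

omit [Fintype K] in
lemma comap_SUg' {K₀ : Type v} [Field K₀] [StarRing K₀] (f : K₀ →+* K)
    (hf : ∀ x, f (star x) = star (f x)) :
    (SUg K n).comap (uMap n f hf) = SUg K₀ n := by
  ext g
  rw [Subgroup.mem_comap, mem_SUg, mem_SUg, uMap_coe]
  have h : ((g : Matrix (Fin n) (Fin n) K₀).map f).det
      = f (g : Matrix (Fin n) (Fin n) K₀).det := by
    have h3 : (g : Matrix (Fin n) (Fin n) K₀).map f
      = f.mapMatrix (g : Matrix (Fin n) (Fin n) K₀) := rfl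
    rw [h3, ← RingHom.map_det]
  rw [h]
  constructor
  · intro h1
    exact f.injective (h1.trans (map_one _).symm)
  · intro h1
    rw [h1, map_one]

/-- **The count of A7**: `σ` a field automorphism of odd order `p ∣ q + 1`, `σ ^ k` the Frobenius
of the fixed field, `x` an element inducing it. -/
theorem card_lt {q : ℕ} (hq : 3 ≤ q) (hK : Nat.card K = q ^ 2) (hs : ∀ x : K, star x = x ^ q)
    {p : ℕ} (hp : p.Prime) (hp2 : p ≠ 2) (hn : 2 ≤ n) (σ : SA K) {a : ℕ} (ha : 4 ≤ a)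
    (hqa : q = a ^ p) (hFa : Nat.card (FT σ) = a ^ 2) (hFs : ∀ x : FT σ, star x = x ^ a)
    (ht : (Fr (FT σ) n).card < 3 * 2 ^ n * t (Fr (FT σ) n))
    (φ : K →+* K) (hφ : ∀ x, φ x = x ^ (a ^ 2)) (hφs : ∀ x, φ (star x) = star (φ x))
    (hfix : ∀ x : K, φ x = x → σ.1 x = x)
    (e : GU K n →* Γ)
    (he : ∀ g, e g = 1 → ∃ c : K, (g : Matrix (Fin n) (Fin n) K) = c • (1 : Matrix (Fin n) (Fin n) K))
    (x : Γ) (hx : ∀ g, x * e g * x⁻¹ = e (uMap n φ hφs g)) :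
    (Fr K n).card < Nat.card (conjs e (SUg K n) x) * t (Fr (FT σ) n) := by
  have hodd : Odd p := hp.odd_of_ne_two hp2
  have hp3 : 3 ≤ p := by
    have := hp.two_le
    omega
  obtain ⟨A, T, hA, hS⟩ := exponents hodd (by omega : 2 ≤ a)
  have hA13 := A_ge ha hp3 hA
  have hAodd : Odd A := odd_A hodd hA hS
  have hcard : Nat.card K = a ^ (2 * p) := by
    rw [hK, hqa, ← pow_mul, mul_comm]
  have hstar : ∀ x : K, star x = x ^ (a ^ p) := by
    intro x
    rw [hs, hqa]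
  have hZ : ∀ g ∈ SUg K n, ∀ c : K,
      (g : Matrix (Fin n) (Fin n) K).map φ = c • (g : Matrix (Fin n) (Fin n) K) →
      c ∈ {c : K | c ^ A.gcd n = 1} := by
    intro g hg c hc
    have h1 : c ^ A = 1 := scal_pow (by omega) hS hcard hstar φ hφ hc
    have h2 : c ^ n = 1 := scal_det φ (mem_SUg.1 hg) hc
    exact (pow_gcd_eq_one).2 ⟨h1, h2⟩
  have h1 := card_conjs_gen φ hφs (FI σ) (FI_star σ) (fun x h => exists_FI σ (hfix x h))
    (SUg K n) {c : K | c ^ A.gcd n = 1} hZ e he x hx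
  rw [comap_SUg'] at h1
  have hg0 : 0 < A.gcd n := Nat.gcd_pos_of_pos_left _ (by omega)
  have hZ0 : 0 < Nat.card ({c : K | c ^ A.gcd n = 1} : Set K) := by
    have : Nonempty ({c : K | c ^ A.gcd n = 1} : Set K) := ⟨⟨1, one_pow _⟩⟩
    exact Nat.card_pos
  have hP0 : 0 < Nat.card (conjs e (SUg K n) x) := by
    have : Finite (conjs e (SUg K n) x) := conjs_finite e _ x
    have : Nonempty (conjs e (SUg K n) x) := ⟨⟨x, self_mem_conjs e _ x⟩⟩
    exact Nat.card_pos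
  have hN1 : Nat.card (unitary K) = q + 1 := by
    rw [card_unitary_N1, H715.card_N1_of_pow (by omega) hK hs]
  have hN0 : Nat.card (unitary (FT σ)) = a + 1 := by
    rw [card_unitary_N1, H715.card_N1_of_pow (by omega) hFa hFs]
  refine countSU (q := q) (a := a) (A := A) hn hA13 hAodd (by rw [hA, hqa])
    (U := Nat.card (unitaryGroup (Fin n) K)) (U₀ := Nat.card (unitaryGroup (Fin n) (FT σ)))
    ?_ ?_ ?_ ?_ h1 hP0 hZ0 (card_roots_le hg0) ht
  · rw [H715.card_unitary, H715.card_N1_of_pow (by omega) hK hs]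
  · rw [H715.card_unitary, H715.card_N1_of_pow (by omega) hFa hFs]
  · rw [card_U_SU (by omega), hN1]
  · rw [card_U_SU (by omega), hN0]

end

end Vale.Agent.P240.R2.H687
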