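import Vale.Agent.P240.R2.H938.LocG
import Vale.Agent.P240.R2.H715.SpDefs

/-!
P240, next level, odd primes: classical groups in which the elements of order `p` act on blocks on
which they are not normal (`PSp_{2m}(q)` for all odd `p`, `PSU_n(q)` for `p ∤ q + 1`).
Definitions and literal statements of the modules.
-/

set_option autoImplicit false

namespace Vale.Agent.P240.R2.H687.Odd

open Matrix Subgroup Vale.Agent.P240.K
open Vale.Agent.P240.R2.H715 (Sy)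
open Vale.Agent.P240.R2.H487 (LocTopF)

universe u v w

/-- OG: a cycle of rank two in `N⟨t⟩` -/
def StmtOG : Prop :=
  ∀ (p : ℕ) [Fact p.Prime], p ≠ 2 → ∀ (𝕜 : Type v) [Field 𝕜] (G : Type u) [Group G] [Finite G]
    (N : Subgroup G) (t : G), t ^ p = 1 → t ∉ N → (∀ n ∈ N, t * n * t⁻¹ ∈ N) →
    (∃ c ∈ N, c ^ p = 1 ∧ c ≠ 1 ∧ c * t = t * c) →
    (∀ y, y * t⁻¹ ∈ N → y ^ p = 1 → ∀ c ∈ N, c ^ p = 1 → c ≠ 1 → c * y = y * c →
      ∃ c' ∈ N, c' ^ p = 1 ∧ c' * y = y * c' ∧ c' ∉ zpowers c) →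
    ∃ y, y * t⁻¹ ∈ N ∧ y ^ p = 1 ∧ ∃ c ∈ N, c ^ p = 1 ∧ c ≠ 1 ∧ c * y = y * c ∧
      ∃ (α : Ch 𝕜 (Subgroup G)) (φ : List (Subgroup G)),
        TopCycle 𝕜 p (N ⊔ zpowers t) (zpowers c ⊔ zpowers y) α φ

section
variable {R : Type u} [Ring R] {S : Type v} [Group S]

/-- `θ`-fixed elements of order `p` in a block are not normal in the `θ`-fixed part of the block -/
def NN (p : ℕ) (j : S →* R) (st : R → R) (θ : R ≃+* R) : Prop :=
  ∀ f : R, f * f = f → st f = f → θ f = f → ∀ x : S, x ^ p = 1 → x ≠ 1 → θ (j x) = j x →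
    j x * (1 - f) = 1 - f → (1 - f) * j x = 1 - f →
    ∃ h : S, θ (j h) = j h ∧ j h * (1 - f) = 1 - f ∧ (1 - f) * j h = 1 - f ∧
      h * x * h⁻¹ ∉ zpowers x

end

section
variable {K : Type u} [Field K] {m : ℕ}

/-- the symplectic adjoint -/
def adj (A : Matrix (Fin m ⊕ Fin m) (Fin m ⊕ Fin m) K) :
    Matrix (Fin m ⊕ Fin m) (Fin m ⊕ Fin m) K :=
  -(J (Fin m) K * Aᵀ * J (Fin m) K)

/-- the inclusion of the symplectic group in the ring of matrices -/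
def jS (K : Type u) [Field K] (m : ℕ) : Sy K m →* Matrix (Fin m ⊕ Fin m) (Fin m ⊕ Fin m) K where
  toFun g := g.1
  map_one' := rfl
  map_mul' _ _ := rfl

/-- `θ` is conjugation by the semilinear similitude `v ↦ M σ(v)` whose `p`-th power is `1` -/
structure Dsc (p : ℕ) (M : Matrix (Fin m ⊕ Fin m) (Fin m ⊕ Fin m) K) (μ : K) (σ : K ≃+* K)
    (θ : Matrix (Fin m ⊕ Fin m) (Fin m ⊕ Fin m) K ≃+* Matrix (Fin m ⊕ Fin m) (Fin m ⊕ Fin m) K) :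
    Prop where
  ne : μ ≠ 0
  sim : M * J (Fin m) K * Mᵀ = μ • J (Fin m) K
  conj : ∀ A, θ A * M = M * A.map σ
  pow : ∀ v : Fin m ⊕ Fin m → K, (fun v => M *ᵥ (fun i => σ (v i)))^[p] v = v
  ord : (M = 1 ∧ σ = RingEquiv.refl K) ∨ ((σ : RingAut K) ^ p = 1 ∧ σ ≠ RingEquiv.refl K)

end

/-- ON: `NN` for the symplectic groups -/
def StmtON : Prop :=
  ∀ (K : Type u) [Field K] (m p : ℕ) [Fact p.Prime], p ≠ 2 → (p : K) ≠ 0 →
    ∀ (M : Matrix (Fin m ⊕ Fin m) (Fin m ⊕ Fin m) K) (μ : K) (σ : K ≃+* K)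
    (θ : Matrix (Fin m ⊕ Fin m) (Fin m ⊕ Fin m) K ≃+* Matrix (Fin m ⊕ Fin m) (Fin m ⊕ Fin m) K),
    Dsc p M μ σ θ → (∃ a : K, σ a = a ∧ a ≠ 0 ∧ a ≠ 1) → NN p (jS K m) adj θ

/-- the structure needed from `L ≅ PSp_{2m}(K)` -/
structure PSpHomA {K : Type u} [Field K] {G : Type v} [Group G] (m : ℕ) (L : Subgroup G)
    (ε : Sy K m →* G) : Prop where
  range : ε.range = L
  ker : ∀ g : Sy K m, ε g = 1 ↔ ∃ c : K, g.1 = c • (1 : Matrix (Fin m ⊕ Fin m) (Fin m ⊕ Fin m) K)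
  sem : ∀ x ∈ Subgroup.normalizer (L : Set G),
    ∃ (M : Matrix (Fin m ⊕ Fin m) (Fin m ⊕ Fin m) K) (μ : K) (σ : K ≃+* K), μ ≠ 0 ∧
      M * J (Fin m) K * Mᵀ = μ • J (Fin m) K ∧ H715.Acts ε x M σ

/-- OP1: the hypothesis `PSpHomA` holds for every subgroup isomorphic to `PSp_{2m}(K)` -/
def StmtOP1 : Prop :=
  ∀ (K : Type u) [Field K] [Fintype K] (m : ℕ), 2 ≤ m → (2 : K) ≠ 0 →
    ∀ (G : Type v) [Group G] (L : Subgroup G),
    Nonempty ((Sy K m ⧸ Subgroup.center (Sy K m)) ≃* L) → ∃ ε : Sy K m →* G, PSpHomA m L ε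

/-- OP2: the elements of order `p` outside `L ⊔ C(L)` -/
def StmtOP2 : Prop :=
  ∀ (K : Type u) [Field K] [Fintype K] (m p : ℕ) [Fact p.Prime], p ≠ 2 → 1 ≤ m →
    ∀ (G : Type v) [Group G] (L : Subgroup G) (ε : Sy K m →* G), PSpHomA m L ε →
    ∀ y ∈ normalizer (L : Set G), y ^ p = 1 → (y = 1 ∨ y ∉ L ⊔ centralizer (L : Set G)) →
    ∃ (M : Matrix (Fin m ⊕ Fin m) (Fin m ⊕ Fin m) K) (μ : K) (σ : K ≃+* K)
      (θ : Matrix (Fin m ⊕ Fin m) (Fin m ⊕ Fin m) K ≃+*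
        Matrix (Fin m ⊕ Fin m) (Fin m ⊕ Fin m) K), Dsc p M μ σ θ ∧
      ∀ g : Sy K m, ∃ g' : Sy K m, g'.1 = θ g.1 ∧ ε g' = y * ε g * y⁻¹

/-- OP3: the outer part is cyclic -/
def StmtOP3 : Prop :=
  ∀ (K : Type u) [Field K] [Fintype K] (m p : ℕ) [Fact p.Prime], p ≠ 2 → 1 ≤ m →
    ∀ (G : Type v) [Group G] (L : Subgroup G) (ε : Sy K m →* G), PSpHomA m L ε →
    ∀ t ∈ normalizer (L : Set G), ∀ x ∈ normalizer (L : Set G), t ^ p = 1 → x ^ p = 1 →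
      t * x = x * t → t ∉ L ⊔ centralizer (L : Set G) →
      ∃ k : ℕ, x * t ^ k ∈ L ⊔ centralizer (L : Set G)

section
variable {R : Type u} [Ring R] {S : Type v} [Group S] {G : Type w} [Group G]

/-- the data of the abstract theorem -/
structure Dat (p : ℕ) (j : S →* R) (st : R → R) (ε : S →* G) : Prop where
  inj : Function.Injective j
  one : st 1 = 1
  add : ∀ a b, st (a + b) = st a + st b
  mul : ∀ a b, st (a * b) = st b * st a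
  inv : ∀ g, st (j g) = j g⁻¹
  unit : IsUnit (p : R)
  mem : ∀ x : R, x * st x = 1 → st x * x = 1 → x ^ p = 1 → ∃ g : S, j g = x
  ker : ∃ N : ℕ, ¬ p ∣ N ∧ ∀ g : S, ε g = 1 → g ^ N = 1 ∧ ∀ a : R, j g * a = a * j g

end

/-- OA: the abstract theorem -/
def StmtOA : Prop :=
  ∀ (p : ℕ) [Fact p.Prime], p ≠ 2 → ∀ (𝕜 : Type v) [Field 𝕜] (G : Type u) [Group G] [Finite G]
    (R : Type w) [Ring R] (S : Type w) [Group S] [Finite S] (j : S →* R) (st : R → R) (ε : S →* G),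
    Dat p j st ε → p ∣ Nat.card ε.range → ε.range ⊓ centralizer (ε.range : Set G) = ⊥ →
    (∀ t ∈ normalizer (ε.range : Set G), ∀ x ∈ normalizer (ε.range : Set G), t ^ p = 1 →
      x ^ p = 1 → t * x = x * t → t ∉ ε.range ⊔ centralizer (ε.range : Set G) →
      ∃ k : ℕ, x * t ^ k ∈ ε.range ⊔ centralizer (ε.range : Set G)) →
    (∀ y ∈ normalizer (ε.range : Set G), y ^ p = 1 →
      (y = 1 ∨ y ∉ ε.range ⊔ centralizer (ε.range : Set G)) →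
      ∃ θ : R ≃+* R, NN p j st θ ∧ ∀ g : S, ∃ g' : S, j g' = θ (j g) ∧ ε g' = y * ε g * y⁻¹) →
    LocTopF 𝕜 p ε.range

end Vale.Agent.P240.R2.H687.Odd
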