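import Vale.Agent.P240.R2.H687.AutU
import Vale.Agent.P240.R2.H472.FewU
import Vale.Agent.P240.R2.H651.Inj

/-!
`FewAut p (PSU_n(q))`, `q ≥ 3` (odd or even), `n ≥ 3`, `p` prime to `d φ(d)`, `d = gcd(n, q+1)` (P240).
-/

set_option autoImplicit false
set_option linter.unusedSectionVars false

namespace Vale.Agent.P240.R2.H687.U

open Subgroup
open Vale.Agent.P240.R2.AS Vale.Agent.P240.R2.H472
open Vale.Agent.P240.H195 (FewAut OutAut ff_prime)
open Vale.Agent.P240.R2.H63.As (il th_inj th_surj th_psu)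

variable {K : Type} [Field K] [Fintype K] [StarRing K] {n : ℕ}

theorem right_one_mem {p q : ℕ} (hp : p.Prime) (hK : Nat.card K = q ^ 2)
    (hs : ∀ x : K, star x = x ^ q)
    (hn : 0 < n) (hd : ¬ p ∣ Nat.gcd n (q + 1)) {y : PGamU K n} (hy : y ^ p = 1)
    (hr : y.right = 1) : y ∈ PSU' K n := by
  have hy' : il K n y.left = y := H63.As.mem_range_il hr
  obtain ⟨g, hg⟩ := QuotientGroup.mk_surjective y.left
  have h1 : y.left ^ p = 1 := by
    apply H63.As.il_inj
    rw [map_pow, hy', hy, map_one]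
  rw [← hg] at h1
  have h3 : g ^ p ∈ center (GU K n) := by
    rw [← QuotientGroup.eq_one_iff]
    exact h1
  obtain ⟨z, hz⟩ := H401.exists_star_ne hK hs
  have hz0 : z ≠ 0 := by
    rintro rfl
    exact hz (star_zero K)
  have hzs : star z ≠ 0 := by simpa using hz0
  have hm2 : (z / star z) * star (z / star z) = 1 := by
    rw [star_div₀, star_star, div_mul_div_cancel₀ hzs, div_self hz0]
  have hm1 : z / star z ≠ 1 := by
    intro h1
    rw [div_eq_one_iff_eq hzs] at h1
    exact hz h1.symm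
  rw [H296.mem_center_iff hm1 hm2] at h3
  obtain ⟨c, hc⟩ := h3
  have hcc : c * star c = 1 := by
    have h4 : (g ^ p).1 * star (g ^ p).1 = 1 := Matrix.mem_unitaryGroup_iff.1 (g ^ p).2
    have h5 : (c • (1 : Matrix (Fin n) (Fin n) K)) * star (c • (1 : Matrix (Fin n) (Fin n) K)) = 1 := by
      rw [← hc]
      exact h4
    rw [star_smul, star_one, smul_mul_smul_comm, one_mul] at h5
    have h6 := congrFun (congrFun h5 ⟨0, hn⟩) ⟨0, hn⟩
    simpa using h6
  have hdet : g.1.det ^ p = c ^ n := by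
    have h4 := congrArg Matrix.det hc
    rw [Matrix.det_smul, Matrix.det_one, mul_one, Fintype.card_fin] at h4
    rw [← h4, ← Matrix.det_pow]
    rfl
  have hR : Rn n g.1.det := Rn_of_pow hs hp hd (det_norm g) ⟨c, hcc, hdet.symm⟩
  refine ⟨y.left, ?_, hy'⟩
  rw [← hg]
  exact mk_mem_PSU hR

/-- outer automorphisms `f`, `g` with `f ^ p = g ^ p = 1` generate the same subgroup modulo inner
automorphisms -/
theorem same_psu {p q : ℕ} (hp : p.Prime) (hq : 3 ≤ q)
    (hK : Nat.card K = q ^ 2) (hs : ∀ x : K, star x = x ^ q) (hn : 3 ≤ n)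
    (hd : ¬ p ∣ Nat.gcd n (q + 1)) (hd' : ¬ p ∣ (Nat.gcd n (q + 1)).totient)
    (f g : MulAut (PSU K n)) (hf : OutAut p f) (hg : OutAut p g) :
    g ∈ zpowers f ⊔ (MulAut.conj (G := PSU K n)).range := by
  have hinj : Function.Injective (H63.As.th K n) :=
    th_inj (h := H651.inj_all hq hK hs hn)
  have hsurj : Function.Surjective (H63.As.th K n) :=
    th_surj (h := fun α => tr_PSU hq hK hs hn α)
  obtain ⟨y1, rfl⟩ := hsurj f
  obtain ⟨y2, rfl⟩ := hsurj g
  have e1 : y1 ^ p = 1 := hinj (by rw [map_pow, hf.1, map_one])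
  have e2 : y2 ^ p = 1 := hinj (by rw [map_pow, hg.1, map_one])
  have r1 : y1.right ^ p = 1 := by
    have := congrArg (SemidirectProduct.rightHom : PGamU K n →* SA K) e1
    rw [map_pow, map_one] at this
    exact this
  have r2 : y2.right ^ p = 1 := by
    have := congrArg (SemidirectProduct.rightHom : PGamU K n →* SA K) e2
    rw [map_pow, map_one] at this
    exact this
  have n1 : y1.right ≠ 1 := by
    intro h
    apply hf.2
    rw [← th_psu]
    exact ⟨y1, right_one_mem hp hK hs (by omega) hd e1 h, rfl⟩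
  obtain ⟨k, hk⟩ := ff_prime (F := K) hp (σ := y1.right.1) (τ := y2.right.1)
    (congrArg Subtype.val r1) (fun h => n1 (Subtype.ext h)) (congrArg Subtype.val r2)
  set z : PGamU K n := y2 * (y1 ^ k)⁻¹ with hz
  have hzr : z.right = 1 := by
    have h3 : (SemidirectProduct.rightHom : PGamU K n →* SA K) z =
        y2.right * (y1.right ^ k)⁻¹ := by
      rw [hz, map_mul, map_inv, map_pow]
      rfl
    have h4 : y2.right = y1.right ^ k := Subtype.ext hk
    rw [h4, mul_inv_cancel] at h3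
    exact h3
  have hzl : il K n z.left = z := H63.As.mem_range_il hzr
  -- modulo `PSU`
  let π : PGamU K n →* PGamU K n ⧸ PSU' K n := QuotientGroup.mk' _
  have hπ : ∀ x, π x = 1 ↔ x ∈ PSU' K n := fun x => QuotientGroup.eq_one_iff x
  have hcomm : Commute (π y1) (π z) := by
    have h3 : π (y1 * il K n z.left * y1⁻¹ * (il K n z.left)⁻¹) = 1 :=
      (hπ _).2 (comm_mem (by omega) hK hs hp hd' r1 z.left)
    rw [hzl] at h3
    rw [map_mul, map_mul, map_mul, map_inv, map_inv, mul_inv_eq_one, mul_inv_eq_iff_eq_mul] at h3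
    exact h3
  have hzd : (π z) ^ (Nat.gcd n (q + 1)) = 1 := by
    rw [← map_pow, hπ, ← hzl]
    exact il_pow_mem hs z.left
  have hy2 : y2 = z * y1 ^ k := by rw [hz, inv_mul_cancel_right]
  have hzp : (π z) ^ p = 1 := by
    have h3 : (π y2) ^ p = 1 := by rw [← map_pow, e2, map_one]
    rw [hy2, map_mul, map_pow, (hcomm.symm.pow_right k).mul_pow, ← pow_mul, mul_comm k p,
      pow_mul, ← map_pow π y1 p, e1, map_one, one_pow, mul_one] at h3
    exact h3
  have hz1 : π z = 1 := by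
    have h3 : orderOf (π z) ∣ Nat.gcd p (Nat.gcd n (q + 1)) :=
      Nat.dvd_gcd (orderOf_dvd_of_pow_eq_one hzp) (orderOf_dvd_of_pow_eq_one hzd)
    rw [((Nat.Prime.coprime_iff_not_dvd hp).2 hd).gcd_eq_one, Nat.dvd_one] at h3
    exact orderOf_eq_one_iff.1 h3
  have hz2 : z ∈ PSU' K n := (hπ z).1 hz1
  rw [hy2, map_mul, map_pow]
  refine mul_mem (mem_sup_right ?_) (mem_sup_left (npow_mem_zpowers _ _))
  rw [← th_psu]
  exact ⟨z, hz2, rfl⟩

/-- **few outer automorphisms of order `p`** of `PSU_n(q)`, all `q ≥ 3` -/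
theorem fewAut_psu {p q : ℕ} (hp : p.Prime) (hq : 3 ≤ q)
    (hK : Nat.card K = q ^ 2) (hs : ∀ x : K, star x = x ^ q) (hn : 3 ≤ n)
    (hd : ¬ p ∣ Nat.gcd n (q + 1)) (hd' : ¬ p ∣ (Nat.gcd n (q + 1)).totient) :
    FewAut p (PSU K n) :=
  ⟨fun f g _ hf hg _ => Or.inl (same_psu hp hq hK hs hn hd hd' f g hf hg),
    Or.inl (same_psu hp hq hK hs hn hd hd')⟩

/-- `PSU_n(3)` at odd primes -/
theorem fewAut_psu_three {p : ℕ} (hp : p.Prime) (hp2 : p ≠ 2)
    (hK : Nat.card K = 3 ^ 2) (hs : ∀ x : K, star x = x ^ 3) (hn : 3 ≤ n) :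
    FewAut p (PSU K n) := by
  have h4 : Nat.gcd n (3 + 1) ∣ 4 := Nat.gcd_dvd_right _ _
  have hle : Nat.gcd n (3 + 1) ≤ 4 := Nat.le_of_dvd (by norm_num) h4
  have h5 : ∀ d : ℕ, d ∣ 4 → ¬ p ∣ d ∧ ¬ p ∣ d.totient := by
    intro d hd
    have hd4 : d ≤ 4 := Nat.le_of_dvd (by norm_num) hd
    have hp3 : 3 ≤ p := by
      have := hp.two_le
      omega
    have h6 : d = 1 ∨ d = 2 ∨ d = 4 := by
      interval_cases d
      · norm_num at hd
      · exact Or.inl rfl
      · exact Or.inr (Or.inl rfl)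
      · norm_num at hd
      · exact Or.inr (Or.inr rfl)
    have h7 : ∀ m : ℕ, 0 < m → m ≤ 2 → ¬ p ∣ m := fun m h0 h1 h2 => by
      have := Nat.le_of_dvd h0 h2
      omega
    have h8 : ¬ p ∣ 4 := by
      intro h
      have h9 : p ∣ 2 ^ 2 := h
      exact hp2 ((Nat.prime_dvd_prime_iff_eq hp Nat.prime_two).1 (hp.dvd_of_dvd_pow h9))
    have t1 : Nat.totient 1 = 1 := by decide
    have t2 : Nat.totient 2 = 1 := by decide
    have t4 : Nat.totient 4 = 2 := by decide
    rcases h6 with rfl | rfl | rfl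
    · rw [t1]
      exact ⟨h7 1 (by norm_num) (by norm_num), h7 1 (by norm_num) (by norm_num)⟩
    · rw [t2]
      exact ⟨h7 2 (by norm_num) (by norm_num), h7 1 (by norm_num) (by norm_num)⟩
    · rw [t4]
      exact ⟨h8, h7 2 (by norm_num) (by norm_num)⟩
  exact fewAut_psu hp (by norm_num) hK hs hn (h5 _ h4).1 (h5 _ h4).2

/-- `PSU_n(3)`, `n` odd, at the prime `2` -/
theorem fewAut_psu_three_two (hK : Nat.card K = 3 ^ 2) (hs : ∀ x : K, star x = x ^ 3)
    (hn : 3 ≤ n) (hodd : Odd n) : FewAut 2 (PSU K n) := by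
  have h1 : Nat.gcd n (3 + 1) = 1 := by
    have h2 : Nat.Coprime n (2 ^ 2) := Nat.Coprime.pow_right 2 (Nat.coprime_two_right.2 hodd)
    exact h2
  refine fewAut_psu Nat.prime_two (by norm_num) hK hs hn ?_ ?_
  · rw [h1]
    norm_num
  · rw [h1]
    norm_num

end Vale.Agent.P240.R2.H687.U
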