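import Vale.Agent.P240.R2.H687.CntSU
import Vale.Agent.P240.R2.H945.SemiF
import Vale.Agent.P240.R2.AS.Stmts2
import Vale.Agent.P240.R2.H296.Cen
import Vale.Agent.P240.R2.H275.Bridge

/-!
StmtA7: top cycles for `PSU_n(q)` extended by a field automorphism of odd order `p ∣ q + 1`.
-/

set_option autoImplicit false

namespace Vale.Agent.P240.R2.H687

open Matrix Vale.Agent.P240 Vale.Agent.P240.K Vale.Agent.P240.R2.AS Vale.Agent.P240.R2.H986.St

universe u v w

/-- `Comb` along an injective homomorphism -/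
lemma comb_map {G : Type*} {G' : Type*} [Group G] [Group G'] {L : Type*} {p n : ℕ}
    {F : Finset (List L)} {e : List L → G} (h : Comb p n F e) (ι : G →* G')
    (hι : Function.Injective ι) : Comb p n F (fun w => ι (e w)) where
  len := h.len
  nodup := h.nodup
  perm := h.perm
  plane := fun u a b c d v w h1 h2 => congrArg ι (h.plane u a b c d v w h1 h2)
  comm := fun u v w h1 => by
    show ι (e u) * ι (e (u ++ v)) = ι (e (u ++ v)) * ι (e u)
    rw [← map_mul, h.comm u v w h1, map_mul]
  pow := fun u v h1 => by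
    show ι (e u) ^ p = 1
    rw [← map_pow, h.pow u v h1, map_one]
  nil := by
    show ι (e []) = 1
    rw [h.nil, map_one]
  full := fun w hw => by
    show ι (e w) = 1
    rw [h.full w hw, map_one]
  card := fun w hw => by
    have h1 : (Subgroup.closure {y | ∃ u v, w = u ++ v ∧ y = ι (e u)})
        = (Subgroup.closure {y | ∃ u v, w = u ++ v ∧ y = e u}).map ι := by
      rw [MonoidHom.map_closure]
      congr 1
      ext y
      constructor
      · rintro ⟨u, v, h1, rfl⟩
        exact ⟨e u, ⟨u, v, h1, rfl⟩, rfl⟩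
      · rintro ⟨_, ⟨u, v, h1, rfl⟩, rfl⟩
        exact ⟨u, v, h1, rfl⟩
    rw [h1, Subgroup.card_map_of_injective hι]
    exact h.card w hw
  sep := by
    intro A u v B l g h1 h2 hu hv
    have hSS : ∀ w : List L, SS (fun w => ι (e w)) w = (SS e w).map ι := by
      intro w
      unfold SS
      rw [MonoidHom.map_closure]
      congr 1
      ext y
      constructor
      · rintro ⟨x, hx, rfl⟩
        exact ⟨e [x], ⟨x, hx, rfl⟩, rfl⟩
      · rintro ⟨_, ⟨x, hx, rfl⟩, rfl⟩
        exact ⟨x, hx, rfl⟩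
    have h3 := h.sep A u v B l g h1 h2 hu hv
    rw [← h3, hSS]
    have hz : ∀ a : G, Subgroup.zpowers (ι a) = (Subgroup.zpowers a).map ι := fun a =>
      (MonoidHom.map_zpowers ι a).symm
    rw [hz, hz, ← Subgroup.map_sup, ← Subgroup.map_sup]
    exact (Subgroup.map_injective hι).eq_iff

/-- from a top cycle in the lattice of subgroups to the official form -/
lemma official {G : Type u} [Group G] {p m : ℕ} {H : Subgroup G} {F : Subgroup G}
    {α : Ch ℚ (Subgroup G)} {l : List (Subgroup G)} (h : TopCycle ℚ p H F α l) (hl : l.length = m) :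
    ∃ c : List (Ap p H) →₀ ℚ, IsChain m c ∧ bd c = 0 ∧ c ≠ 0 := by
  have hTC : H275.TC ℚ (Ain p H) m :=
    ⟨α, by rw [← hl]; exact h.mem, h.cyc, fun h0 => h.ne (by rw [h0]; rfl)⟩
  have h3 : (fun E : Subgroup H => E.map H.subtype) '' (Ain p (⊤ : Subgroup H)) = Ain p H := by
    rw [H275.Ain_map H.subtype_injective, ← MonoidHom.range_eq_map, Subgroup.range_subtype]
  rw [← h3, H275.TC_image (Subgroup.map_injective H.subtype_injective).injOn
    (fun x _ y _ => map_lt H.subtype_injective)] at hTC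
  have h0 : (Subtype.val '' (Set.univ : Set (Ap p H))) = Ain p (⊤ : Subgroup H) := by
    ext E
    simp [Ain, ApS]
  rw [← h0, H275.TC_image (f := (Subtype.val : Ap p H → Subgroup H))
    Subtype.val_injective.injOn (fun x _ y _ => Iff.rfl)] at hTC
  exact H275.TC_official.2 hTC

section
variable {K : Type u} [Field K] [StarRing K] [Fintype K]

instance finite_GU (n : ℕ) : Finite (GU K n) := by
  have : Finite (Matrix (Fin n) (Fin n) K) := inferInstanceAs (Finite (Fin n → Fin n → K))
  exact Subtype.finite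

instance finite_SA : Finite (SA K) := by
  have h : Function.Injective (fun σ : SA K => fun x : K => σ.1 x) := by
    intro σ τ h
    exact Subtype.ext (RingEquiv.ext fun x => congrFun h x)
  exact Finite.of_injective _ h

instance finite_PGamU (n : ℕ) : Finite (PGamU K n) := by
  have h : Function.Injective (fun x : PGamU K n => (x.left, x.right)) := by
    intro x y h
    simp only [Prod.mk.injEq] at h
    exact SemidirectProduct.ext h.1 h.2
  exact Finite.of_injective _ h

end

theorem stmtA7_of (hM2 : StmtM2.{u}) (hM4c : StmtM4c.{u}) : StmtA7.{u} := by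
  intro K _ _ _ q hq hK hs p hp hp2 hpq h38 n hn ζ hζ hζ1 σ hσ H hPSU hσH hW
  obtain ⟨a, ha4, hqa, hpa, hFa, hFs, k, hk⟩ := fix_data hq hK hs hp.out hp2 hpq h38 σ hσ
  -- the power `σ' = σ ^ k`
  set σ' : SA K := σ ^ k with hσ'
  have hφ : ∀ x, (σ'.1 : K →+* K) x = x ^ (a ^ 2) := hk
  have hφs : ∀ x, (σ'.1 : K →+* K) (star x) = star ((σ'.1 : K →+* K) x) := fun x => SA_star σ' x
  have hcardK : Nat.card K = a ^ (2 * p) := by rw [hK, hqa, ← pow_mul, mul_comm]
  have hne : σ' ≠ 1 := by
    intro h1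
    obtain ⟨g, hg⟩ := IsCyclic.exists_generator (α := Kˣ)
    have ho : orderOf g = Nat.card K - 1 := by
      rw [orderOf_eq_card_of_forall_mem_zpowers hg, Nat.card_units]
    have h2 : (g : K) ^ (a ^ 2) = g := by
      rw [← hφ, h1]
      rfl
    have h3 : g ^ (a ^ 2 - 1) = 1 := by
      have h4 : g ^ (a ^ 2 - 1) * g = 1 * g := by
        rw [← pow_succ, Nat.sub_add_cancel (Nat.one_le_pow _ _ (by omega)), one_mul]
        exact Units.ext h2
      exact mul_right_cancel h4
    have h5 := orderOf_dvd_of_pow_eq_one h3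
    rw [ho, hcardK] at h5
    have h6 : 0 < a ^ 2 - 1 := by
      have : 4 ^ 2 ≤ a ^ 2 := Nat.pow_le_pow_left ha4 2
      omega
    have h7 := Nat.le_of_dvd h6 h5
    have h8 : a ^ 2 < a ^ (2 * p) :=
      Nat.pow_lt_pow_right (by omega) (by have := hp.out.two_le; omega)
    omega
  have hfixpow : ∀ (τ : SA K) (x : K), τ.1 x = x → ∀ m : ℕ, (τ ^ m).1 x = x := by
    intro τ x h m
    induction m with
    | zero => rfl
    | succ m ih =>
      rw [pow_succ]
      show (τ ^ m).1 (τ.1 x) = x
      rw [h, ih]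
  have hcop : k.Coprime (orderOf σ) := by
    rw [hσ]
    refine (Nat.Coprime.symm ((Nat.Prime.coprime_iff_not_dvd hp.out).2 fun hd => hne ?_))
    rw [hσ']
    exact orderOf_dvd_iff_pow_eq_one.1 (hσ ▸ hd)
  have hfix : ∀ x : K, (σ'.1 : K →+* K) x = x → σ.1 x = x := by
    intro x hx
    obtain ⟨m, hm⟩ := exists_pow_eq_self_of_coprime hcop
    have h1 := hfixpow σ' x hx m
    rw [hσ', hm] at h1
    exact h1
  -- roots of unity
  have hζq : ζ ^ (q + 1) = 1 := by
    obtain ⟨r, hr⟩ := hpq
    rw [hr, pow_mul, hζ, one_pow]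
  have hζs : ζ * star ζ = 1 := by rw [hs, mul_comm, ← pow_succ, hζq]
  have hζa : ζ ^ (a + 1) = 1 := by
    obtain ⟨r, hr⟩ := hpa
    rw [hr, pow_mul, hζ, one_pow]
  have hζφ : (σ'.1 : K →+* K) ζ = ζ := by
    rw [hφ]
    have e1 : a ^ 2 = (a + 1) * (a - 1) + 1 := by
      obtain ⟨b, rfl⟩ : ∃ b, a = b + 1 := ⟨a - 1, by omega⟩
      simp only [Nat.add_sub_cancel]
      ring
    rw [e1, pow_add, pow_mul, hζa, one_pow, one_mul, pow_one]
  obtain ⟨ζ₀, hζ₀⟩ := exists_FI σ (hfix ζ hζφ)
  have hζ₀s : ζ₀ * star ζ₀ = 1 := by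
    rw [hFs, mul_comm, ← pow_succ]
    apply (FI σ).injective
    rw [map_pow, hζ₀, hζa, map_one]
  -- the homomorphism and the element
  set e : GU K n →* PGamU K n :=
    (SemidirectProduct.inl).comp (QuotientGroup.mk' (Subgroup.center (GU K n))) with he'
  have he : ∀ g, e g = 1 →
      ∃ c : K, (g : Matrix (Fin n) (Fin n) K) = c • (1 : Matrix (Fin n) (Fin n) K) := by
    intro g hg
    have h1 : (QuotientGroup.mk' (Subgroup.center (GU K n))) g = 1 :=
      SemidirectProduct.inl_injective (hg.trans (map_one _).symm)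
    have h2 : g ∈ Subgroup.center (GU K n) := (QuotientGroup.eq_one_iff g).1 h1
    exact (H296.mem_center_iff hζ1 hζs g).1 h2
  have hx : ∀ g, SemidirectProduct.inr σ' * e g * (SemidirectProduct.inr σ')⁻¹
      = e (uMap n (σ'.1 : K →+* K) hφs g) := by
    intro g
    have h1 := SemidirectProduct.inl_aut (φ := act n) σ'
      ((QuotientGroup.mk' (Subgroup.center (GU K n))) g)
    rw [map_inv] at h1
    exact h1.symm
  have hlt := card_lt hq hK hs hp.out hp2 hn σ ha4 hqa hFa hFs
    (hM2 (FT σ) a (by omega) hFa hFs n hn) (σ'.1 : K →+* K) hφ hφs hfix e he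
    (SemidirectProduct.inr σ') hx
  obtain ⟨Y, Fy, hY, hFy, hcount⟩ := family (σ'.1 : K →+* K) hφs (FI σ) (FI_star σ)
    (fun y => hfixpow σ (FI σ y) (FI_fix σ y) k) e (SemidirectProduct.inr σ') hx hζ₀s
    (SUg K n) hlt
  have hcomb := comb_map (hM4c K q hq hK hs p ζ hζ hζ1 hζs n (by omega))
    (SemidirectProduct.inl : PGU K n →* PGamU K n) SemidirectProduct.inl_injective
  have hright : ∀ y ∈ Y, (SemidirectProduct.rightHom : PGamU K n →* SA K) y = σ' := by
    intro y hy
    obtain ⟨g, _, rfl⟩ := (hY y).1 hy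
    have h1 : (SemidirectProduct.rightHom : PGamU K n →* SA K) (e g) = 1 :=
      SemidirectProduct.rightHom_inl _
    rw [map_mul, map_mul, map_inv, h1, one_mul, inv_one, mul_one]
    exact SemidirectProduct.rightHom_inr _
  have hYH : ∀ y ∈ Y, y ∈ H := by
    intro y hy
    obtain ⟨g, hg, rfl⟩ := (hY y).1 hy
    have h1 : e g ∈ H := by
      refine hPSU ⟨(QuotientGroup.mk' (Subgroup.center (GU K n))) g, ⟨g, ?_, rfl⟩, rfl⟩
      exact mem_SUg.1 hg
    have h2 : (SemidirectProduct.inr σ' : PGamU K n) ∈ H := by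
      rw [hσ', map_pow]
      exact H.pow_mem hσH k
    exact H.mul_mem (H.mul_mem h1 h2) (H.inv_mem h1)
  have hsd : H945.SemiData p (Fr K n) (fun w => (SemidirectProduct.inl (eW ζ w) : PGamU K n))
      (H ⊓ (SemidirectProduct.rightHom : PGamU K n →* SA K).ker) H Y Fy :=
    { memN := fun u v huv => by
        have hO : Orth u := (List.pairwise_append.1 ((mem_Fr K).1 huv).2).1
        exact ⟨hW u hO, SemidirectProduct.rightHom_inl _⟩
      le := inf_le_left
      pow := fun y hy => by
        obtain ⟨g, _, rfl⟩ := (hY y).1 hy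
        rw [conj_pow, ← map_pow, hσ', ← pow_mul, mul_comm, pow_mul, ← hσ, pow_orderOf_eq_one,
          one_pow, map_one, mul_one, mul_inv_cancel]
      memM := hYH
      notN := fun y hy h => hne ((hright y hy).symm.trans h.2)
      coset := fun y hy y' hy' => by
        refine ⟨H.mul_mem (H.inv_mem (hYH y hy)) (hYH y' hy'), ?_⟩
        have h1 : (SemidirectProduct.rightHom : PGamU K n →* SA K) (y⁻¹ * y') = 1 := by
          rw [map_mul, map_inv, hright y hy, hright y' hy', inv_mul_cancel]
        exact h1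
      sub := fun y hy => (hFy y hy).1
      perm := fun y hy => (hFy y hy).2.1
      fix := fun y hy u v huv => by
        have h1 := (hFy y hy).2.2 u v huv
        rw [hζ₀] at h1
        exact h1 }
  obtain ⟨y, _, w, _, α, l, h1, h2⟩ := H945.top_of_semi (p := p) hn hcomb hsd hcount ℚ
  exact official h1 h2

end Vale.Agent.P240.R2.H687
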