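import Vale.Agent.P240.R2.H687.OddTop
import Vale.Agent.P240.R2.H281.OG

/-!
The abstract theorem for odd primes: `StmtOA` (P240).
-/

set_option autoImplicit false

namespace Vale.Agent.P240.R2.H687.Odd

open Finsupp hiding cons
open Subgroup Vale.Agent.P240.K
open Vale.Agent.P240.R2.H487 (LocTopF)
open scoped Classical

universe u v w x

noncomputable section

section
variable {R : Type u} [Ring R] {S : Type v} [Group S] {j : S →* R} {G : Type w} [Group G]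
  {p : ℕ} [hp : Fact p.Prime] {sr : R → R} {ε : S →* G}

/-- lifting elements of order `p` -/
lemma lift_elem (hD : Dat p j sr ε) {B : Subgroup S} {c : G} (hc : c ∈ B.map ε) (hcp : c ^ p = 1) :
    ∃ y ∈ B, y ^ p = 1 ∧ ε y = c := by
  obtain ⟨y₀, hy₀, rfl⟩ := hc
  obtain ⟨N, hN, hker⟩ := hD.ker
  have h1 : ε (y₀ ^ p) = 1 := by rw [map_pow, hcp]
  have h2 := (hker _ h1).1
  have hcop : Nat.Coprime N p := (Nat.coprime_comm.1 ((Nat.Prime.coprime_iff_not_dvd hp.out).2 hN))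
  obtain ⟨u, -, hu⟩ := Nat.exists_mul_mod_eq_one_of_coprime hcop hp.out.one_lt
  refine ⟨y₀ ^ (N * u), pow_mem hy₀ _, ?_, ?_⟩
  · rw [← pow_mul, mul_comm (N * u) p, pow_mul, pow_mul, h2, one_pow]
  · rw [map_pow, pow_eq_pow_mod _ hcp, hu, pow_one]

lemma fix_of_comm (hD : Dat p j sr ε) {θ : R ≃+* R} {y : G}
    (hθ : ∀ g : S, ∃ g' : S, j g' = θ (j g) ∧ ε g' = y * ε g * y⁻¹) {z : S} (hz : z ^ p = 1)
    (hc : y * ε z = ε z * y) : θ (j z) = j z := by
  obtain ⟨g', h1, h2⟩ := hθ z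
  rw [hc, mul_inv_cancel_right] at h2
  have h3 : g' ^ p = 1 := by
    apply hD.inj
    rw [map_pow, h1, ← map_pow, ← map_pow, hz, map_one, map_one]
  rw [← h1, inj_p hD h3 hz h2]

lemma comm_of_fix (hD : Dat p j sr ε) {θ : R ≃+* R} {y : G}
    (hθ : ∀ g : S, ∃ g' : S, j g' = θ (j g) ∧ ε g' = y * ε g * y⁻¹) {g : S}
    (hg : θ (j g) = j g) : y * ε g = ε g * y := by
  obtain ⟨g', h1, h2⟩ := hθ g
  rw [hg] at h1
  rw [hD.inj h1] at h2
  rw [← mul_inv_eq_iff_eq_mul]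
  exact h2.symm

variable [Finite S]

/-- lifting elementary abelian groups -/
lemma lift_ea (hD : Dat p j sr ε) {A : Subgroup G} (hA : A ≤ ε.range)
    (hab : ∀ x ∈ A, ∀ y ∈ A, x * y = y * x) (hpw : ∀ x ∈ A, x ^ p = 1) :
    ∃ E : Subgroup S, EA p E ∧ E.map ε = A := by
  have hcomm : ∀ x y : S, x ^ p = 1 → y ^ p = 1 → ε x ∈ A → ε y ∈ A → x * y = y * x := by
    intro x y hx hy hxA hyA
    have h1 : (y * x * y⁻¹) ^ p = 1 := by rw [conj_pow, hx, mul_one, mul_inv_cancel]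
    have h2 : ε (y * x * y⁻¹) = ε x := by
      rw [map_mul, map_mul, hab _ hyA _ hxA, map_inv, mul_inv_cancel_right]
    have h3 := inj_p hD h1 hx h2
    calc x * y = (y * x * y⁻¹) * y := by rw [h3]
      _ = y * x := by rw [inv_mul_cancel_right]
  refine ⟨{ carrier := {x | x ^ p = 1 ∧ ε x ∈ A}
            mul_mem' := ?_
            one_mem' := ⟨one_pow p, by rw [map_one]; exact one_mem A⟩
            inv_mem' := ?_ }, ⟨?_, ?_⟩, ?_⟩
  · rintro x y ⟨hx, hxA⟩ ⟨hy, hyA⟩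
    refine ⟨?_, by rw [map_mul]; exact mul_mem hxA hyA⟩
    rw [(show Commute x y from hcomm x y hx hy hxA hyA).mul_pow, hx, hy, one_mul]
  · rintro x ⟨hx, hxA⟩
    exact ⟨by rw [inv_pow, hx, inv_one], by rw [map_inv]; exact inv_mem hxA⟩
  · rintro x ⟨hx, hxA⟩ y ⟨hy, hyA⟩
    exact hcomm x y hx hy hxA hyA
  · rintro x ⟨hx, -⟩
    exact hx
  · ext c
    constructor
    · rintro ⟨x, ⟨-, hx⟩, rfl⟩
      exact hx
    · intro hc
      obtain ⟨y, -, hy, rfl⟩ := lift_elem hD (B := ⊤) (c := c) (by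
        rw [← MonoidHom.range_eq_map]
        exact hA hc) (hpw c hc)
      exact ⟨y, ⟨hy, hc⟩, rfl⟩

lemma card_map_ea (hD : Dat p j sr ε) {E : Subgroup S} (hE : EA p E) :
    Nat.card (E.map ε) = Nat.card E := by
  refine (Nat.card_congr (Equiv.ofBijective
    (fun x : E => (⟨ε x, mem_map_of_mem ε x.2⟩ : E.map ε)) ⟨?_, ?_⟩)).symm
  · intro x y h
    exact Subtype.ext (inj_p hD (hE.2 _ x.2) (hE.2 _ y.2) (congrArg Subtype.val h))
  · rintro ⟨_, x, hx, rfl⟩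
    exact ⟨⟨x, hx⟩, rfl⟩

lemma ea_map' {E : Subgroup S} (hE : EA p E) : (∀ x ∈ E.map ε, ∀ y ∈ E.map ε, x * y = y * x) ∧
    ∀ x ∈ E.map ε, x ^ p = 1 := by
  refine ⟨?_, ?_⟩
  · rintro _ ⟨x, hx, rfl⟩ _ ⟨y, hy, rfl⟩
    rw [← map_mul, hE.1 x hx y hy, map_mul]
  · rintro _ ⟨x, hx, rfl⟩
    rw [← map_pow, hE.2 x hx, map_one]

end

section
variable {R : Type w} [Ring R] {S : Type w} [Group S] {j : S →* R} {G : Type u} [Group G]
  {p : ℕ} [hp : Fact p.Prime] {sr : R → R} {ε : S →* G} [Finite S] [Finite G]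

/-- the third kind of cycles -/
theorem top_three (hp2 : p ≠ 2) (𝕜 : Type v) [Field 𝕜] (hD : Dat p j sr ε)
    (hθ : ∀ y ∈ normalizer (ε.range : Set G), y ^ p = 1 →
      (y = 1 ∨ y ∉ ε.range ⊔ centralizer (ε.range : Set G)) →
      ∃ θ : R ≃+* R, NN p j sr θ ∧ ∀ g : S, ∃ g' : S, j g' = θ (j g) ∧ ε g' = y * ε g * y⁻¹)
    {E : Subgroup S} (hE : EA p E) (hne : E ≠ ⊥)
    (hmax : ∀ F : Subgroup S, EA p F → E ≤ F → F = E) {t : G}
    (htN : t ∈ normalizer (ε.range : Set G)) (htp : t ^ p = 1)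
    (htE : ∀ x ∈ E, t * ε x = ε x * t) (ht : t ∉ ε.range ⊔ centralizer (ε.range : Set G)) :
    ∃ (A' : Subgroup G) (t' : G), A' ≤ ε.range ∧ A' ∈ ApS p G ∧ Nat.card A' = Nat.card E ∧
      t' * t⁻¹ ∈ ε.range ∧ t' ^ p = 1 ∧ (∀ a ∈ A', t' * a = a * t') ∧
      ∃ (α : Ch 𝕜 (Subgroup G)) (φ : List (Subgroup G)),
        TopCycle 𝕜 p (ε.range ⊔ zpowers t) (A' ⊔ zpowers t') α φ := by
  obtain ⟨θ, hN, hθt⟩ := hθ t htN htp (Or.inr ht)
  have hEB : E ≤ Blk j θ 1 := by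
    intro x hx
    refine ⟨fix_of_comm hD hθt (hE.2 x hx) (htE x hx), ?_, ?_⟩ <;> rw [sub_self] <;> simp
  have hs0 : sr (1 : R) = 1 := hD.one
  obtain ⟨H, a, hHE, haE, haH, hsup, he1, he2, he3, he4, he5, haB, hHB, hHmax⟩ :=
    split hD (f := 1) (one_mul 1) (map_one θ) hE hne hEB (fun F hF _ hEF => hmax F hF hEF)
  rw [mul_one] at haB
  have hz : av j H * (1 - av j H) = 0 := by rw [mul_sub, mul_one, he1, sub_self]
  have hz' : (1 - av j H) * av j H = 0 := by rw [sub_mul, one_mul, he1, sub_self]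
  have hq : (1 - av j H) * (1 - av j H) = 1 - av j H := by rw [mul_sub, mul_one, hz', sub_zero]
  have hap := hE.2 a haE
  have ha1 : a ≠ 1 := fun h => haH (h ▸ one_mem H)
  have hHea := ea_mono hE hHE
  obtain ⟨α₂, φ₂, hT2⟩ := tops 𝕜 hD hN (Nat.card H) H (1 - av j H) rfl hq (sr_one_sub hD he2)
    (by rw [map_sub, map_one, he3]) hHea hHB hHmax
  -- the group `N₁`
  set N₁ : Subgroup G := (Blk j (RingEquiv.refl R) (av j H)).map ε with hN₁
  have hN₁L : N₁ ≤ ε.range := by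
    rintro _ ⟨g, -, rfl⟩
    exact ⟨g, rfl⟩
  have htN₁ : t ∉ N₁ := fun h => ht (mem_sup_left (hN₁L h))
  have hLN : ε.range ≤ normalizer (ε.range : Set G) := le_normalizer
  have hεa : ε a ≠ 1 := fun h0 => ha1 (inj_p hD hap (one_pow p) (by rw [h0, map_one]))
  have hHid : H ≤ Blk j (RingEquiv.refl R) (1 - av j H) := hHB.trans blk_id
  obtain ⟨y, hyt, hyp, c, hcN, hcp, hc1, hcy, α₁, φ₁, hT1⟩ := H281.OG.stmtOG.{u, v} p hp2 𝕜 G N₁ t
    htp htN₁ (by
      rintro _ ⟨g, hg, rfl⟩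
      obtain ⟨g', h1, h2⟩ := hθt g
      refine ⟨g', ⟨rfl, ?_, ?_⟩, h2⟩
      · rw [h1]
        calc θ (j g) * (1 - av j H) = θ (j g * (1 - av j H)) := by
              rw [map_mul, map_sub, map_one, he3]
          _ = 1 - av j H := by rw [hg.2.1, map_sub, map_one, he3]
      · rw [h1]
        calc (1 - av j H) * θ (j g) = θ ((1 - av j H) * j g) := by
              rw [map_mul, map_sub, map_one, he3]
          _ = 1 - av j H := by rw [hg.2.2, map_sub, map_one, he3])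
    ⟨ε a, mem_map_of_mem ε (blk_id haB), by rw [← map_pow, hap, map_one], hεa,
      (htE a haE).symm⟩
    (by
      intro y hyt hyp c hcN hcp hc1 hcy
      obtain ⟨g₀, hg₀, hg₀'⟩ := hyt
      have hy : y = ε g₀ * t := by rw [hg₀', inv_mul_cancel_right]
      have hyN : y ∈ normalizer (ε.range : Set G) := by
        rw [hy]
        exact mul_mem (hLN ⟨g₀, rfl⟩) htN
      have hyo : y ∉ ε.range ⊔ centralizer (ε.range : Set G) := by
        intro h
        apply ht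
        have h1 : t = (ε g₀)⁻¹ * y := by rw [hy, inv_mul_cancel_left]
        rw [h1]
        exact mul_mem (inv_mem (mem_sup_left ⟨g₀, rfl⟩)) h
      obtain ⟨θ', hN', hθ'⟩ := hθ y hyN hyp (Or.inr hyo)
      have hθ'e : θ' (av j H) = av j H := by
        refine av_map (ea_unit hD.unit hHea) θ' fun x hx => ?_
        refine fix_of_comm hD hθ' (hE.2 x (hHE hx)) ?_
        rw [hy, mul_assoc, htE x (hHE hx), ← mul_assoc, ← map_mul,
          blk_comm hD.inj hz hz' hg₀ (hHid hx), map_mul, mul_assoc]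
      obtain ⟨x, hxB, hxp, rfl⟩ := lift_elem hD hcN hcp
      have hx1 : x ≠ 1 := by
        rintro rfl
        exact hc1 (map_one ε)
      have hxθ : θ' (j x) = j x := fix_of_comm hD hθ' hxp hcy.symm
      obtain ⟨h, hh1, hh2, hh3, hh4⟩ := hN' (av j H) he1 he2 hθ'e x hxp hx1 hxθ hxB.2.1 hxB.2.2
      have hhB : h ∈ Blk j (RingEquiv.refl R) (av j H) := ⟨rfl, hh2, hh3⟩
      have hbp : (h * x * h⁻¹) ^ p = 1 := by rw [conj_pow, hxp, mul_one, mul_inv_cancel]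
      refine ⟨ε (h * x * h⁻¹), mem_map_of_mem ε (mul_mem (mul_mem hhB hxB) (inv_mem hhB)),
        by rw [← map_pow, hbp, map_one], ?_, ?_⟩
      · have c1 : ε h ∈ centralizer ({y} : Set G) := by
          rw [mem_centralizer_singleton_iff]
          exact (comm_of_fix hD hθ' hh1).symm
        have c2 : ε x ∈ centralizer ({y} : Set G) := by
          rw [mem_centralizer_singleton_iff]
          exact hcy
        have c3 : ε (h * x * h⁻¹) ∈ centralizer ({y} : Set G) := by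
          rw [map_mul, map_mul, map_inv]
          exact mul_mem (mul_mem c1 c2) (inv_mem c1)
        rwa [mem_centralizer_singleton_iff] at c3
      · rintro ⟨l, hl⟩
        apply hh4
        have hl : ε x ^ l = ε (h * x * h⁻¹) := hl
        rw [← map_zpow] at hl
        have h1 : (x ^ l) ^ p = 1 := by
          rw [← zpow_natCast, ← zpow_mul, mul_comm, zpow_mul, zpow_natCast, hxp, one_zpow]
        rw [← inj_p hD h1 hbp hl]
        exact zpow_mem (mem_zpowers x) l)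
  -- facts on `y`
  have hyL : y ∉ ε.range := by
    intro h
    apply ht
    have h1 : t = (y * t⁻¹)⁻¹ * y := by group
    rw [h1]
    exact mem_sup_left (mul_mem (inv_mem (hN₁L hyt)) h)
  set M₂ : Subgroup G := (Blk j θ (1 - av j H)).map ε with hM₂
  have hM₂L : M₂ ≤ ε.range := by
    rintro _ ⟨g, -, rfl⟩
    exact ⟨g, rfl⟩
  have hNM : ∀ x ∈ N₁ ⊔ zpowers t, ∀ m ∈ M₂, x * m = m * x := by
    intro x hx m hm
    have h1 : N₁ ⊔ zpowers t ≤ centralizer (M₂ : Set G) := by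
      refine sup_le ?_ (zpowers_le.2 ?_)
      · rintro _ ⟨g, hg, rfl⟩
        rw [mem_centralizer_iff]
        rintro _ ⟨m, hm, rfl⟩
        rw [← map_mul, ← map_mul, blk_comm hD.inj hz hz' hg hm]
      · rw [mem_centralizer_iff]
        rintro _ ⟨m, hm, rfl⟩
        exact (comm_of_fix hD hθt hm.1).symm
    exact ((mem_centralizer_iff.1 (h1 hx)) m hm).symm
  have hinf : ∀ x ∈ N₁, x ^ p = 1 → x ∈ M₂ → x = 1 := by
    rintro x hx hxp ⟨m, hm, hm'⟩
    obtain ⟨x', hx', hxp', rfl⟩ := lift_elem hD hx hxp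
    rw [inf_p hD hz' hx' hxp' hm hm'.symm, map_one]
  have hcz : ∀ x ∈ zpowers c, x ∈ N₁ ∧ x ^ p = 1 := by
    rintro _ ⟨l, rfl⟩
    refine ⟨zpow_mem hcN l, ?_⟩
    show (c ^ l) ^ p = 1
    rw [← zpow_natCast, ← zpow_mul, mul_comm, zpow_mul, zpow_natCast, hcp, one_zpow]
  have hcyz : ∀ x ∈ zpowers c, ∀ z ∈ zpowers y, x * z = z * x := by
    rintro _ ⟨l, rfl⟩ _ ⟨m, rfl⟩
    exact (show Commute c y from hcy).zpow_zpow l m
  have hF : (zpowers c ⊔ zpowers y) ⊓ M₂ = ⊥ := by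
    rw [eq_bot_iff]
    rintro x ⟨hx, hxM⟩
    obtain ⟨c₁, hc₁, y₁, hy₁, rfl⟩ := H487.mem_sup_comm hcyz hx
    have h1 : y₁ ∈ ε.range := by
      have h2 : y₁ = c₁⁻¹ * (c₁ * y₁) := by rw [inv_mul_cancel_left]
      rw [h2]
      exact mul_mem (inv_mem (hN₁L (hcz c₁ hc₁).1)) (hM₂L hxM)
    have h2 : y₁ = 1 := H938.pow_mem_iff hyp hyL hy₁ h1
    rw [h2, mul_one] at hxM ⊢
    rw [mem_bot]
    exact hinf c₁ (hcz c₁ hc₁).1 (hcz c₁ hc₁).2 hxM
  obtain ⟨α, φ, hT⟩ := H487.topCycle_join hT1 hT2 hNM hF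
  have hHM : H.map ε ≤ M₂ := Subgroup.map_mono hHB
  have hcH : ∀ x ∈ H.map ε, x * c = c * x := fun x hx =>
    (hNM c (mem_sup_left hcN) x (hHM hx)).symm
  have hyM : ∀ x ∈ M₂, y * x = x * y := by
    intro x hx
    have h1 : y ∈ N₁ ⊔ zpowers t := by
      have h2 : y = (y * t⁻¹) * t := by rw [inv_mul_cancel_right]
      rw [h2]
      exact mul_mem (mem_sup_left hyt) (mem_sup_right (mem_zpowers t))
    exact hNM y h1 x hx
  have hAea : EA p (H.map ε ⊔ zpowers c) := ea_sup (ea_map' hHea) hcp hcH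
  refine ⟨H.map ε ⊔ zpowers c, y, sup_le (hHM.trans hM₂L) (zpowers_le.2 (hN₁L hcN)),
    ⟨?_, hAea.1, hAea.2⟩, ?_, hN₁L hyt, hyp, ?_, α, φ, ?_⟩
  · intro h
    apply hc1
    have h1 : c ∈ H.map ε ⊔ zpowers c := mem_sup_right (mem_zpowers c)
    rw [h, mem_bot] at h1
    exact h1
  · have h1 : H.map ε ⊓ zpowers c = ⊥ := by
      rw [eq_bot_iff]
      rintro x ⟨hx, hxc⟩
      rw [mem_bot]
      exact hinf x (hcz x hxc).1 (hcz x hxc).2 (hHM hx)
    have h2 : H ⊓ zpowers a = ⊥ := by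
      rw [eq_bot_iff]
      rintro x ⟨hx, hxa⟩
      rw [mem_bot]
      exact blk_inf hD.inj hz' ((zpowers_le.2 haB) hxa) (hHB hx)
    rw [r5_card hcH h1 hc1 hcp, card_map_ea hD hHea, ← hsup,
      r5_card (fun x hx => hE.1 x (hHE hx) a haE) h2 ha1 hap]
  · intro x hx
    have h1 : H.map ε ⊔ zpowers c ≤ centralizer ({y} : Set G) := by
      refine sup_le (fun z hz => ?_) (zpowers_le.2 ?_)
      · rw [mem_centralizer_singleton_iff]
        exact (hyM z (hHM hz)).symm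
      · rw [mem_centralizer_singleton_iff]
        exact hcy
    exact (mem_centralizer_singleton_iff.1 (h1 hx)).symm
  · have h1 : zpowers c ⊔ zpowers y ⊔ H.map ε = H.map ε ⊔ zpowers c ⊔ zpowers y := by
      rw [sup_comm, sup_assoc]
    rw [← h1]
    refine r5_mono (sup_le (sup_le (hN₁L.trans le_sup_left) le_sup_right)
      (hM₂L.trans le_sup_left)) hT

end

/-- **the abstract theorem** -/
theorem stmtOA : StmtOA.{u, v, w} := by
  intro p hp hp2 𝕜 _ G _ _ R _ S _ _ j sr ε hD hdvd hZ hcyc hθ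
  -- elementary abelian subgroups of largest order
  have hfin : ({A : Subgroup G | A ≤ ε.range ∧ A ∈ ApS p G}).Finite := Set.toFinite _
  have hnon : ({A : Subgroup G | A ≤ ε.range ∧ A ∈ ApS p G}).Nonempty := by
    obtain ⟨x, hx⟩ := exists_prime_orderOf_dvd_card' p hdvd
    have h1 : (x : G) ≠ 1 := by
      intro h
      have h2 : x = 1 := Subtype.ext h
      rw [h2, orderOf_one] at hx
      exact hp.out.one_lt.ne hx
    have h2 : (x : G) ^ p = 1 := by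
      rw [← Subgroup.coe_pow, ← hx, pow_orderOf_eq_one]
      rfl
    exact ⟨zpowers (x : G), zpowers_le.2 x.2, zp_ApS h2 h1⟩
  obtain ⟨A₀, ⟨hA₀L, hA₀S⟩, hA₀max⟩ := Set.exists_max_image _
    (fun A : Subgroup G => Nat.card A) hfin hnon
  -- the lifting
  have hlift : ∀ A : Subgroup G, A ≤ ε.range → A ∈ ApS p G → Nat.card A = Nat.card A₀ →
      ∃ E : Subgroup S, EA p E ∧ E ≠ ⊥ ∧ E.map ε = A ∧
        ∀ F : Subgroup S, EA p F → E ≤ F → F = E := by
    intro A hAL hAS hAc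
    obtain ⟨E, hE, hEA⟩ := lift_ea hD hAL hAS.2.1 hAS.2.2
    have hne : E ≠ ⊥ := by
      rintro rfl
      rw [Subgroup.map_bot] at hEA
      exact hAS.1 hEA.symm
    refine ⟨E, hE, hne, hEA, fun F hF hEF => ?_⟩
    have h1 : F.map ε ∈ ApS p G := by
      refine ⟨fun h => hAS.1 ?_, (ea_map' hF).1, (ea_map' hF).2⟩
      rw [eq_bot_iff, ← h, ← hEA]
      exact Subgroup.map_mono hEF
    have h2 := hA₀max (F.map ε) ⟨by rintro _ ⟨g, -, rfl⟩; exact ⟨g, rfl⟩, h1⟩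
    rw [card_map_ea hD hF, ← hAc, ← hEA, card_map_ea hD hE] at h2
    exact (Subgroup.eq_of_le_of_card_ge hEF h2).symm
  refine H938.locTopF_of 𝕜 (L := ε.range)
    (𝒜 := {A : Subgroup G | A ≤ ε.range ∧ A ∈ ApS p G ∧ Nat.card A = Nat.card A₀})
    (N := Nat.card A₀) ⟨A₀, hA₀L, hA₀S, rfl⟩ (fun A h => h) hZ ?_ ?_ ?_ ?_ ?_
  · -- hC
    rintro A ⟨hAL, hAS, hAc⟩ l hl hlp hlA
    have h1 : EA p (A ⊔ zpowers l) := ea_sup hAS.2 hlp (fun x hx => (hlA x hx).symm)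
    have h2 : A ⊔ zpowers l ∈ ApS p G := by
      refine ⟨fun h => hAS.1 ?_, h1.1, h1.2⟩
      rw [eq_bot_iff, ← h]
      exact le_sup_left
    have h3 := hA₀max (A ⊔ zpowers l) ⟨sup_le hAL (zpowers_le.2 hl), h2⟩
    rw [← hAc] at h3
    rw [Subgroup.eq_of_le_of_card_ge le_sup_left h3]
    exact mem_sup_right (mem_zpowers l)
  · -- hF
    rintro A - t ht x hx htp hxp htx - - hto
    exact hcyc t ht x hx htp hxp htx hto
  · -- T1
    obtain ⟨θ, hN, hθ1⟩ := hθ 1 (one_mem _) (one_pow p) (Or.inl rfl)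
    obtain ⟨E, hE, hne, hEA, hEmax⟩ := hlift A₀ hA₀L hA₀S rfl
    have hEB : E ≤ Blk j θ 1 := by
      intro x hx
      refine ⟨fix_of_comm hD hθ1 (hE.2 x hx) (by rw [one_mul, mul_one]), ?_, ?_⟩ <;>
        rw [sub_self] <;> simp
    obtain ⟨α, φ, hT⟩ := tops 𝕜 hD hN (Nat.card E) E 1 rfl (one_mul 1) hD.one (map_one θ) hE hEB
      (fun F hF _ hEF => hEmax F hF hEF)
    rw [hEA] at hT
    exact ⟨A₀, ⟨hA₀L, hA₀S, rfl⟩, α, φ, r5_mono (by rintro _ ⟨g, -, rfl⟩; exact ⟨g, rfl⟩) hT⟩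
  · -- T2
    rintro A ⟨hAL, hAS, hAc⟩ t ht htp htA hto
    obtain ⟨θ, hN, hθ1⟩ := hθ t ht htp (Or.inr hto)
    obtain ⟨E, hE, hne, hEA, hEmax⟩ := hlift A hAL hAS hAc
    have hEB : E ≤ Blk j θ 1 := by
      intro x hx
      refine ⟨fix_of_comm hD hθ1 (hE.2 x hx)
        (htA _ (hEA ▸ mem_map_of_mem ε hx)), ?_, ?_⟩ <;>
        rw [sub_self] <;> simp
    obtain ⟨α, φ, hT⟩ := tops 𝕜 hD hN (Nat.card E) E 1 rfl (one_mul 1) hD.one (map_one θ) hE hEB
      (fun F hF _ hEF => hEmax F hF hEF)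
    rw [hEA] at hT
    refine ⟨A, ⟨hAL, hAS, hAc⟩, htA, α, φ, r5_mono ?_ hT⟩
    rintro _ ⟨g, hg, rfl⟩
    refine mem_inf.2 ⟨⟨g, rfl⟩, ?_⟩
    rw [mem_centralizer_singleton_iff]
    exact (comm_of_fix hD hθ1 hg.1).symm
  · -- T3
    rintro A ⟨hAL, hAS, hAc⟩ t ht htp htA hto
    obtain ⟨E, hE, hne, hEA, hEmax⟩ := hlift A hAL hAS hAc
    obtain ⟨A', t', h1, h2, h3, h4, h5, h6, α, φ, hT⟩ := top_three hp2 𝕜 hD hθ hE hne hEmax ht htp
      (fun x hx => htA _ (hEA ▸ mem_map_of_mem ε hx)) hto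
    refine ⟨A', ⟨h1, h2, ?_⟩, t', h4, h5, h6, α, φ, hT⟩
    rw [h3, ← hAc, ← hEA, card_map_ea hD hE]

end

end Vale.Agent.P240.R2.H687.Odd
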