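import Vale.Agent.P240.R2.H145.EO1

/-!
The groups `PΩ_8^+(q)` at the prime `3`: statements of the auxiliary rows.
-/

set_option autoImplicit false
set_option linter.all false

namespace Vale.Agent.P240.R2.H687.T

open Matrix Vale.Agent.P240.R2.H145.EO

universe u v

/-- (T1) the number of vectors of norm one of the quadratic form `x² - y² + z² - ε w²` -/
def StmtCount : Prop :=
  ∀ (K : Type u) [Field K] [Fintype K] (ε : K), (2 : K) ≠ 0 → ¬ IsSquare ε →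
    Nat.card {v : Fin 4 → K // v 0 ^ 2 - v 1 ^ 2 + v 2 ^ 2 - ε * v 3 ^ 2 = 1} =
      Nat.card K ^ 3 + Nat.card K

/-- (T2) an isometry of order prime to `6` that normalizes an elementary abelian `3`-group of
isometries of a space of dimension less than `10` centralizes it -/
def StmtCen : Prop :=
  ∀ (K : Type u) [Field K] [Finite K] (n : ℕ) (a : Fin n → K), n < 10 → (3 : K) ≠ 0 →
    (∀ i, a i ≠ 0) → ∀ E : Subgroup (GL (Fin n) K), E ≤ OD a → (∀ x ∈ E, x ^ 3 = 1) →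
    (∀ x ∈ E, ∀ y ∈ E, x * y = y * x) → ∀ c ∈ OD a, (∀ x ∈ E, c * x * c⁻¹ ∈ E) →
    ∀ N : ℕ, N.Coprime 6 → c ^ N = 1 → ∀ x ∈ E, c * x = x * c

/-- (T3) the prime number -/
def StmtPrime : Prop :=
  ∀ q : ℕ, Odd q → 5 ≤ q → ¬ 3 ∣ q → ∃ l : ℕ, l.Prime ∧ l ≠ 2 ∧ l ≠ 3 ∧ l ∣ q ^ 2 + 1 ∧
    (∀ j, 0 < j → j < 4 → ¬ l ∣ q ^ j - 1) ∧
    ∀ q0 : ℕ, q = q0 ^ 3 → ∀ j, 0 < j → j < 12 → ¬ l ∣ q0 ^ j - 1

/-- (T4) no semilinear map commutes with an element of order `l` -/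
def StmtSemi : Prop :=
  ∀ (K : Type u) [Field K] [Finite K] (W : Type v) [AddCommGroup W] [Module K W] [Finite W],
    Module.finrank K W = 4 → ∀ σ : K ≃+* K, (∃ k, σ k ≠ k) → (∀ k, σ (σ (σ k)) = k) →
    ∀ g : W → W, (∀ v w, g (v + w) = g v + g w) → (∀ (k : K) v, g (k • v) = σ k • g v) →
    ∀ c : K, c ≠ 0 → (∀ v, g (g (g v)) = c • v) →
    ∀ (s : W →ₗ[K] W) (l : ℕ), l.Prime → (∀ v, (s ^ l) v = v) → (∀ v, s v = v → v = 0) →
    (∀ v, s (g v) = g (s v)) → ¬ l ∣ Nat.card K →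
    (∀ q0 : ℕ, Nat.card K = q0 ^ 3 → ∀ j, 0 < j → j < 12 → ¬ l ∣ q0 ^ j - 1) → False

end Vale.Agent.P240.R2.H687.T
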