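import Vale.Agent.P240.R2.H687.TF
import Vale.Agent.P240.R2.H687.TH
import Vale.Agent.P240.R2.H923.T1
import Vale.Agent.P240.R2.H829.T2
import Vale.Agent.P240.R2.H613.T3
import Vale.Agent.P240.R2.H329.BS

/-!
**`EuFree 3` for the groups `PΩ_8^+(q)`**, `q` prime to `6`.
-/

set_option autoImplicit false
set_option linter.all false

namespace Vale.Agent.P240.R2.H687.T

open Matrix Subgroup Vale.Agent.P240.R2.H145.EO Vale.Agent.P240.K Vale.Agent.P240.H195
open Vale.Agent.P240.R2.H401.D (fd)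
open Vale.Agent.P240.R2.H275.F3

universe u v

lemma stmtBs : StmtBs.{u} := fun K _ _ h2 d hd hsq ε he =>
  Vale.Agent.P240.R2.H329.exists_bs h2 hd hsq he

/-- `|K| ≥ 7` -/
theorem euFree_big (hF : StmtField.{u}) {K : Type u} [Field K] [Fintype K] {d : K}
    (h2 : (2 : K) ≠ 0) (h5 : 5 < Fintype.card K) (hd : d ≠ 0) (hsq : IsSquare d)
    (h3K : (3 : K) ≠ 0) : EuFree 3 ↥(commutator (PO (fd 7 d))) :=
  euFree_of Vale.Agent.P240.R2.H923.T1.stmtCount Vale.Agent.P240.R2.H829.T2.stmtCen hF stmtBs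
    Vale.Agent.P240.R2.H613.T.stmtPrime ⟨h2, h5, le_rfl, by decide, hd⟩ hsq h3K

/-- the case `|K| = 5` -/
def StmtQ5 : Prop :=
  ∀ (K : Type u) [Field K] [Fintype K], Fintype.card K = 5 → ∀ (d ε : K), d ≠ 0 → IsSquare d →
    ∀ y : Fin 8 → Fin 8 → K, Bs (fd 7 d) ε y → ¬ IsSquare ε → ∀ s : GL (Fin 8) K,
    Sd (fd 7 d) y 13 s → ∀ hs : s ∈ SOD (fd 7 d), IsSimpleGroup ↥(commutator (PO (fd 7 d))) →
    ∀ f : MulAut ↥(commutator (PO (fd 7 d))),
    f ^ 3 = 1 → f (cl _ ⟨s, hs⟩) = cl _ ⟨s, hs⟩ →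
    f ∈ (MulAut.conj (G := ↥(commutator (PO (fd 7 d))))).range

/-- `|K| = 5` -/
theorem euFree_five (hQ : StmtQ5.{u}) {K : Type u} [Field K] [Fintype K] {d : K}
    (h5 : Fintype.card K = 5) (hd : d ≠ 0) (hsq : IsSquare d)
    (hsim : IsSimpleGroup ↥(commutator (PO (fd 7 d)))) :
    EuFree 3 ↥(commutator (PO (fd 7 d))) := by
  have hc : Nat.card K = 5 := by rw [Nat.card_eq_fintype_card, h5]
  obtain ⟨r, hrc⟩ := CharP.exists K
  have hrp : r.Prime := CharP.char_is_prime K r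
  have hr5 : r = 5 := by
    obtain ⟨k, hk, hcard⟩ := FiniteField.card K r
    rw [h5] at hcard
    exact ((Nat.prime_dvd_prime_iff_eq hrp (by norm_num)).1 (by
      rw [hcard]
      exact dvd_pow_self r k.2.ne'))
  subst hr5
  have h50 : ((5 : ℕ) : K) = 0 := CharP.cast_eq_zero K 5
  have hne : ∀ j : ℕ, ¬ 5 ∣ j → (j : K) ≠ 0 := fun j hj h =>
    hj ((CharP.cast_eq_zero_iff K 5 j).1 h)
  have h2 : (2 : K) ≠ 0 := by exact_mod_cast hne 2 (by norm_num)
  have h3K : (3 : K) ≠ 0 := by exact_mod_cast hne 3 (by norm_num)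
  obtain ⟨ε, hε⟩ : ∃ t : K, ¬ IsSquare t := by
    apply FiniteField.exists_nonsquare
    intro h
    apply h2
    have := ringChar.spec K 2
    rw [h] at this
    exact_mod_cast this.2 dvd_rfl
  have hε0 : ε ≠ 0 := by
    rintro rfl
    exact hε ⟨0, by ring⟩
  obtain ⟨y, hb, h4, h6⟩ := stmtBs K h2 d hd hsq ε hε0
  obtain ⟨s, hs⟩ := exists_s hb Vale.Agent.P240.R2.H923.T1.stmtCount hε (l := 13) (by norm_num)
    (by rw [hc]; norm_num) (by
      intro j hj hj4
      rw [hc]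
      interval_cases j <;> norm_num)
  have D : Db K d ε y 13 5 s := ⟨h2, hd, hsq, hb, hε, hs, by norm_num, by norm_num, by norm_num,
    h50, by norm_num, by norm_num, by norm_num, h3K, by rw [hc]; norm_num⟩
  refine ⟨cl _ D.c, D.eu Vale.Agent.P240.R2.H923.T1.stmtCount
    Vale.Agent.P240.R2.H829.T2.stmtCen, fun f hf3 hfo hfc => hfo ?_⟩
  refine hQ K h5 d ε hd hsq y hb hε s hs D.s_SOD hsim f hf3 ?_
  obtain ⟨k, hk⟩ := D.s_pow
  have e : (⟨s, D.s_SOD⟩ : SOD (fd 7 d)) = D.c ^ k := Subtype.ext hk.symm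
  rw [e, map_pow, map_pow, hfc]

/-- all `q` prime to `6` -/
theorem euFree_D4' (hF : StmtField.{u}) (hQ : StmtQ5.{u}) {K : Type u} [Field K] [Finite K]
    {d : K} (h2 : (2 : K) ≠ 0) (h3K : (3 : K) ≠ 0) (hd : d ≠ 0) (hsq : IsSquare d)
    (hsim : IsSimpleGroup ↥(commutator (PO (fd 7 d)))) :
    EuFree 3 ↥(commutator (PO (fd 7 d))) := by
  have := Fintype.ofFinite K
  rcases lt_trichotomy (Fintype.card K) 5 with h | h | h
  · exfalso
    obtain ⟨r, hrc⟩ := CharP.exists K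
    have hrp : r.Prime := CharP.char_is_prime K r
    have hr0 : (r : K) = 0 := CharP.cast_eq_zero K r
    obtain ⟨k, hk, hcard⟩ := FiniteField.card K r
    have hle : r ≤ Fintype.card K := by
      rw [hcard]
      exact Nat.le_self_pow k.2.ne' r
    have : r < 5 := lt_of_le_of_lt hle h
    interval_cases r
    · exact absurd hrp (by norm_num)
    · exact absurd hrp (by norm_num)
    · exact h2 (by exact_mod_cast hr0)
    · exact h3K (by exact_mod_cast hr0)
    · exact absurd hrp (by norm_num)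
  · exact euFree_five hQ h hd hsq hsim
  · exact euFree_big hF h2 h hd hsq h3K

end Vale.Agent.P240.R2.H687.T
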