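import Vale.Agent.P240.R2.H687.TE

/-!
The field automorphism of a semilinear similitude is determined by its class.
-/

set_option autoImplicit false
set_option linter.all false

namespace Vale.Agent.P240.R2.H687.T

open Matrix Subgroup Vale.Agent.P240.R2.H145.EO Vale.Agent.P240.K Vale.Agent.P240.H195
open Vale.Agent.P240.R2.H401.D (fd)
open Vale.Agent.P240.R2.H275.F3
open Vale.Agent.P240.R2.H329.Ev (RR cO tw gm tw_SOD tw_tw gm_coe ac_gm tw_mul actL_tw two_sim
  conj_iff tw_inj)

universe u v

theorem stmtField : StmtField.{u} := by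
  intro K _ _ d hK τ h
  obtain ⟨N, lam, hl, hN, hx⟩ := h
  have h2 := hK.h2
  have ha := Vale.Agent.P240.R2.H275.fd_ne (m := 7) hK.hd
  have ha1 := Vale.Agent.P240.R2.H275.fd_one (m := 7) (d := d)
  let γ : (Fin 8 → K) → Fin 8 → K := fun v => ac N (fun i => τ (v i))
  let γ' : (Fin 8 → K) → Fin 8 → K := fun w i => τ.symm (ac N⁻¹ w i)
  have hgg : ∀ w, γ (γ' w) = w := by
    intro w
    have e1 : (fun i => τ (γ' w i)) = ac N⁻¹ w := by
      funext i
      exact τ.apply_symm_apply _
    show ac N (fun i => τ (γ' w i)) = w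
    rw [e1, ac_inv']
  have hB : ∀ v w, B (fd 7 d) (γ v) (γ w) = lam * τ (B (fd 7 d) v w) := hN
  have hinj0 : ∀ z, γ z = 0 → z = 0 := by
    intro z hz
    have e1 : (fun i => τ (z i)) = 0 := by
      rw [← ac_inv N (fun i => τ (z i))]
      show ac N⁻¹ (γ z) = 0
      rw [hz]
      exact mulVec_zero _
    funext i
    have e2 : τ (z i) = 0 := congrFun e1 i
    exact (map_eq_zero τ).1 e2
  have htw : ∀ (g : GL (Fin 8) K) z, ac (tw N τ g) (γ z) = γ (ac g z) := by
    intro g z
    show ac (N * gm τ g * N⁻¹) (ac N (fun i => τ (z i))) = ac N (fun i => τ (ac g z i))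
    rw [ac_mul, ac_inv, ac_mul, ac_gm]
  have hpair : ∀ v w : Fin 8 → K, B (fd 7 d) v v = 1 → B (fd 7 d) w w = 1 → B (fd 7 d) v w = 0 →
      γ v = B (fd 7 d) w (γ v) • w + B (fd 7 d) v (γ v) • v := by
    intro v w hv hw hvw
    have hwv : B (fd 7 d) w v = 0 := by rw [B_comm]; exact hvw
    have hv0 : B (fd 7 d) v v ≠ 0 := by rw [hv]; exact one_ne_zero
    have hw0 : B (fd 7 d) w w ≠ 0 := by rw [hw]; exact one_ne_zero
    have hg : rf (fd 7 d) v hv0 * rf (fd 7 d) w hw0 ∈ SOD (fd 7 d) :=
      SOD_big h2 _ _ _ _ (by rw [hv, hw])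
    set g := rf (fd 7 d) v hv0 * rf (fd 7 d) w hw0 with hgdef
    have hgx : ∀ x, ac g x = x - (2 * B (fd 7 d) w x) • w - (2 * B (fd 7 d) v x) • v := by
      intro x
      rw [hgdef, ac_mul, ac_rf, ac_rf, hv, hw, div_one, div_one, B_sub_right, B_smul_right, hvw,
        mul_zero, sub_zero]
    have e := actL_tw hN hl hx ⟨g, hg⟩
    have e1 := (cl_eq_iff hK _ _).1 e
    obtain ⟨z, hz0, hz1, hz2, hz3, hz4⟩ := exists_v0 (by norm_num) (fd 7 d) v w (γ' v) (γ' w)
    have hz3' : B (fd 7 d) v (γ z) = 0 := by
      conv_lhs => rw [← hgg v]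
      rw [hB, hz3, map_zero, mul_zero]
    have hz4' : B (fd 7 d) w (γ z) = 0 := by
      conv_lhs => rw [← hgg w]
      rw [hB, hz4, map_zero, mul_zero]
    have hgz : ac g z = z := by
      rw [hgx, hz1, hz2]
      simp
    have hgz' : ac g (γ z) = γ z := by
      rw [hgx, hz3', hz4']
      simp
    have e2 : tw N τ g = g := by
      rcases e1 with e1 | e1
      · exact e1
      · exfalso
        have e3 : tw N τ g = -g := e1
        have e4 := htw g z
        rw [e3, hgz] at e4
        have e5 : ac (-g) (γ z) = -ac g (γ z) := by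
          show (-g.1) *ᵥ _ = -(g.1 *ᵥ _)
          rw [neg_mulVec]
        rw [e5, hgz'] at e4
        have e6 : (2 : K) • γ z = 0 := by
          rw [two_smul]
          nth_rewrite 1 [← e4]
          exact neg_add_cancel _
        exact hz0 (hinj0 z ((smul_eq_zero.1 e6).resolve_left h2))
    have e3 := htw g v
    rw [e2] at e3
    have e4 : ac g v = -v := by
      rw [hgx, hwv, hv]
      module
    have e5 : γ (-v) = -γ v := by
      show ac N (fun i => τ ((-v) i)) = -ac N (fun i => τ (v i))
      rw [← ac_neg]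
      congr 1
      funext i
      exact map_neg τ _
    rw [e4, e5, hgx] at e3
    have e6 : (2 : K) • γ v = (2 : K) • (B (fd 7 d) w (γ v) • w + B (fd 7 d) v (γ v) • v) := by
      have e7 : (2 : K) • γ v = γ v - (-γ v) := by module
      rw [e7, ← e3]
      module
    exact smul_right_injective _ h2 e6
  have hline : ∀ v : Fin 8 → K, B (fd 7 d) v v = 1 → γ v = B (fd 7 d) v (γ v) • v := by
    intro v hv
    have hx1 : ON (fd 7 d) (fun _ : Fin 1 => v) := by
      intro i j
      rw [hv, if_pos (Subsingleton.elim i j)]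
    obtain ⟨z, hz1, hz2⟩ := perp1 h2 ha ha1 (k := 1) (by omega) hx1 (one_ne_zero (α := K))
    have hyz : B (fd 7 d) v z = 0 := hz1 0
    have hx2 := hx1.snoc hz1 hz2
    obtain ⟨w, hw1, hw2⟩ := perp1 h2 ha ha1 (k := 2) (by omega) hx2 (one_ne_zero (α := K))
    have hyw : B (fd 7 d) v w = 0 := by
      have := hw1 (Fin.castSucc 0)
      rwa [Fin.snoc_castSucc] at this
    have hzw : B (fd 7 d) z w = 0 := by
      have := hw1 (Fin.last 1)
      rwa [Fin.snoc_last] at this
    have k1 := hpair v z hv hz2 hyz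
    have k2 := hpair v w hv hw2 hyw
    have hzu : B (fd 7 d) z (γ v) = 0 := by
      have e := congrArg (B (fd 7 d) z) k2
      rw [B_add_right, B_smul_right, B_smul_right, hzw, B_comm z v, hyz, mul_zero, mul_zero,
        add_zero] at e
      exact e
    rw [hzu, zero_smul, zero_add] at k1
    exact k1
  have hadd : ∀ v w, γ (v + w) = γ v + γ w := by
    intro v w
    show ac N (fun i => τ ((v + w) i)) = ac N (fun i => τ (v i)) + ac N (fun i => τ (w i))
    rw [← ac_add]
    congr 1
    funext i
    exact map_add τ _ _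
  have hsmul : ∀ (k : K) v, γ (k • v) = τ k • γ v := by
    intro k v
    show ac N (fun i => τ ((k • v) i)) = τ k • ac N (fun i => τ (v i))
    rw [← ac_smul]
    congr 1
    funext i
    exact map_mul τ _ _
  have hself : ∀ i : Fin 8, i.val + 1 < 8 →
      B (fd 7 d) (Pi.single i 1) (Pi.single i 1) = 1 := by
    intro i hi
    rw [B_single, Pi.single_eq_same, ha1 i hi]
    ring
  have hcross : ∀ i j : Fin 8, i ≠ j → B (fd 7 d) (Pi.single i 1) (Pi.single j 1) = 0 := by
    intro i j hij
    rw [B_single, Pi.single_eq_of_ne hij]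
    ring
  have hnorm : ∀ v, B (fd 7 d) v v = 1 → B (fd 7 d) v (γ v) * B (fd 7 d) v (γ v) = lam := by
    intro v hv
    have e := hB v v
    rw [hv, map_one, mul_one] at e
    rw [hline v hv, B_smul_left, B_smul_right, hv, mul_one] at e
    exact e
  have hsq : ∀ α : K, τ α * τ α = α * α := by
    intro α
    by_cases hα : 1 - α ^ 2 = 0
    · have h1 : (1 - α) * (1 + α) = 0 := by linear_combination hα
      rcases mul_eq_zero.1 h1 with h1 | h1
      · have h3 : α = 1 := by linear_combination -h1
        rw [h3, map_one]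
      · have h3 : α = -1 := by linear_combination h1
        rw [h3, map_neg, map_one]
    · obtain ⟨β, δ, hβ⟩ := rep h2 (one_ne_zero (α := K)) (one_ne_zero (α := K)) hα
      set v : Fin 8 → K := α • Pi.single 0 1 + β • Pi.single 1 1 + δ • Pi.single 2 1 with hv
      have hv1 : B (fd 7 d) v v = 1 := by
        rw [hv]
        simp only [B_add_left, B_add_right, B_smul_left, B_smul_right]
        rw [hself 0 (by decide), hself 1 (by decide), hself 2 (by decide),
          hcross 0 1 (by decide), hcross 0 2 (by decide), hcross 1 0 (by decide),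
          hcross 1 2 (by decide), hcross 2 0 (by decide), hcross 2 1 (by decide)]
        linear_combination hβ
      have e1 : γ v = τ α • γ (Pi.single 0 1) + τ β • γ (Pi.single 1 1) +
          τ δ • γ (Pi.single 2 1) := by
        rw [hv, hadd, hadd, hsmul, hsmul, hsmul]
      set c := B (fd 7 d) v (γ v) with hc
      set c0 := B (fd 7 d) (Pi.single 0 1) (γ (Pi.single 0 1)) with hc0
      have e2 : γ v = c • v := hline v hv1
      have e3 : γ (Pi.single 0 1) = c0 • Pi.single 0 1 := hline _ (hself 0 (by decide))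
      have e4 : c * α = τ α * c0 := by
        have f1 := congrFun e1 0
        rw [e2, e3, hline _ (hself 1 (by decide)), hline _ (hself 2 (by decide)), hv] at f1
        simpa using f1
      have e5 : c * c = lam := hnorm v hv1
      have e6 : c0 * c0 = lam := hnorm _ (hself 0 (by decide))
      have e7 : lam * (τ α * τ α - α * α) = 0 := by
        have f2 : (c * α) * (c * α) = (τ α * c0) * (τ α * c0) := by rw [e4]
        linear_combination (-(τ α * τ α)) * e6 + α * α * e5 - f2
      exact sub_eq_zero.1 ((mul_eq_zero.1 e7).resolve_left hl)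
  apply RingEquiv.ext
  intro α
  show τ α = α
  have h1 : (τ α - α) * (τ α + α) = 0 := by linear_combination hsq α
  rcases mul_eq_zero.1 h1 with h1 | h1
  · exact sub_eq_zero.1 h1
  · have h3 := hsq (1 + α)
    rw [map_add, map_one] at h3
    have h4 : τ α = -α := eq_neg_of_add_eq_zero_left h1
    rw [h4] at h3
    have h5 : (2 : K) * 2 * α = 0 := by linear_combination -h3
    have h6 : α = 0 := (mul_eq_zero.1 h5).resolve_left (mul_ne_zero h2 h2)
    rw [h6, map_zero]

end Vale.Agent.P240.R2.H687.T
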