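import Vale.Agent.P240.R2.H687.OddA
import Vale.Agent.P240.R2.H281.OP3
import Vale.Agent.P240.R2.H112.OP1
import Vale.Agent.P240.R2.H112.OP2
import Vale.Agent.P240.R2.H112.S12
import Vale.Agent.P240.R2.H165.OddON
import Vale.Agent.P240.R2.H487.TF

/-!
`LocTopF` at all odd primes `p ∤ q` for the groups isomorphic to `PSp_{2m}(q)`, `q` odd (P240).
-/

set_option autoImplicit false

namespace Vale.Agent.P240.R2.H687.Odd

open Matrix Subgroup Vale.Agent.P240.K
open Vale.Agent.P240.R2.H715 (Sy)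
open Vale.Agent.P240.R2.H487 (LocTopF TopFac)

universe u v w

noncomputable section

section
variable {K : Type u} [Field K] {m : ℕ} {G : Type v} [Group G]

lemma JJ : J (Fin m) K * J (Fin m) K = -1 := J_squared (Fin m) K

lemma adj_mul (A B : Matrix (Fin m ⊕ Fin m) (Fin m ⊕ Fin m) K) :
    adj (A * B) = adj B * adj A := by
  unfold adj
  rw [Matrix.transpose_mul, neg_mul_neg]
  calc -(J (Fin m) K * (Bᵀ * Aᵀ) * J (Fin m) K)
      = J (Fin m) K * Bᵀ * (-1) * Aᵀ * J (Fin m) K := by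
        rw [Matrix.mul_neg, Matrix.mul_one, Matrix.neg_mul, Matrix.neg_mul]
        simp only [Matrix.mul_assoc]
    _ = J (Fin m) K * Bᵀ * (J (Fin m) K * J (Fin m) K) * Aᵀ * J (Fin m) K := by rw [JJ]
    _ = J (Fin m) K * Bᵀ * J (Fin m) K * (J (Fin m) K * Aᵀ * J (Fin m) K) := by
        simp only [Matrix.mul_assoc]

lemma adj_one : adj (1 : Matrix (Fin m ⊕ Fin m) (Fin m ⊕ Fin m) K) = 1 := by
  unfold adj
  rw [Matrix.transpose_one, Matrix.mul_one, JJ, neg_neg]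

lemma adj_add (A B : Matrix (Fin m ⊕ Fin m) (Fin m ⊕ Fin m) K) :
    adj (A + B) = adj A + adj B := by
  unfold adj
  rw [Matrix.transpose_add, Matrix.mul_add, Matrix.add_mul, neg_add]

lemma adj_coe (g : Sy K m) : adj g.1 = (g⁻¹).1 := by
  have h1 : g.1 * J (Fin m) K * (g.1)ᵀ = J (Fin m) K := SymplecticGroup.mem_iff.1 g.2
  have h2 : g.1 * adj g.1 = 1 := by
    unfold adj
    calc g.1 * -(J (Fin m) K * (g.1)ᵀ * J (Fin m) K)
        = -(g.1 * J (Fin m) K * (g.1)ᵀ * J (Fin m) K) := by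
          rw [Matrix.mul_neg]
          simp only [Matrix.mul_assoc]
      _ = 1 := by rw [h1, JJ, neg_neg]
  have h3 : (g⁻¹).1 * g.1 = 1 := congrArg Subtype.val (inv_mul_cancel g)
  calc adj g.1 = (g⁻¹).1 * g.1 * adj g.1 := by rw [h3, Matrix.one_mul]
    _ = (g⁻¹).1 := by rw [Matrix.mul_assoc, h2, Matrix.mul_one]

lemma unit_cast {ι : Type*} [Fintype ι] [DecidableEq ι] {p : ℕ} (hp : (p : K) ≠ 0) :
    IsUnit ((p : ℕ) : Matrix ι ι K) := by
  have h1 : ((p : ℕ) : Matrix ι ι K) = algebraMap K (Matrix ι ι K) (p : K) := by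
    rw [map_natCast]
  rw [h1]
  exact (isUnit_iff_ne_zero.2 hp).map (algebraMap K (Matrix ι ι K))

/-- the data of the abstract theorem for the symplectic groups -/
lemma dat_Sp {p : ℕ} [hp : Fact p.Prime] (hp2 : p ≠ 2) (hpK : (p : K) ≠ 0) (hm : 1 ≤ m)
    {L : Subgroup G} {ε : Sy K m →* G} (hε : PSpHomA m L ε) : Dat p (jS K m) adj ε where
  inj := fun _ _ h => Subtype.ext h
  one := adj_one
  add := adj_add
  mul := adj_mul
  inv := adj_coe
  unit := unit_cast hpK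
  mem := by
    intro x h1 _ _
    refine ⟨⟨x, ?_⟩, rfl⟩
    rw [SymplecticGroup.mem_iff]
    unfold adj at h1
    have h2 : x * J (Fin m) K * xᵀ * J (Fin m) K = -1 := by
      rw [← h1, Matrix.mul_neg, neg_neg]
      simp only [Matrix.mul_assoc]
    calc x * J (Fin m) K * xᵀ
        = -(x * J (Fin m) K * xᵀ * (J (Fin m) K * J (Fin m) K)) := by
          rw [JJ, Matrix.mul_neg, Matrix.mul_one, neg_neg]
      _ = -((x * J (Fin m) K * xᵀ * J (Fin m) K) * J (Fin m) K) := by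
          simp only [Matrix.mul_assoc]
      _ = J (Fin m) K := by rw [h2, Matrix.neg_mul, Matrix.one_mul, neg_neg]
  ker := by
    refine ⟨2, ?_, fun g hg => ?_⟩
    · intro h
      exact hp2 ((Nat.prime_dvd_prime_iff_eq hp.out Nat.prime_two).1 h)
    · obtain ⟨c, hc⟩ := (hε.ker g).1 hg
      have h1 : g.1 * J (Fin m) K * (g.1)ᵀ = J (Fin m) K := SymplecticGroup.mem_iff.1 g.2
      have h2 : c * c = 1 := by
        rw [hc, Matrix.transpose_smul, Matrix.transpose_one, Matrix.smul_mul, Matrix.one_mul,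
          Matrix.smul_mul, Matrix.mul_smul, Matrix.mul_one, smul_smul] at h1
        have h3 := congrArg (fun A => A * J (Fin m) K) h1
        simp only [Matrix.smul_mul] at h3
        rw [JJ] at h3
        have h4 := congrFun (congrFun h3 (Sum.inl ⟨0, hm⟩)) (Sum.inl ⟨0, hm⟩)
        simpa using h4
      refine ⟨?_, fun a => ?_⟩
      · apply Subtype.ext
        show g.1 ^ 2 = 1
        rw [hc, pow_two, smul_mul_smul_comm, h2, one_smul, Matrix.one_mul]
      · show g.1 * a = a * g.1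
        rw [hc, Matrix.smul_mul, Matrix.mul_smul, Matrix.one_mul, Matrix.mul_one]

/-- the centraliser of `L` meets `L` in `1` -/
lemma cent_Sp (hm : 1 ≤ m) {L : Subgroup G} {ε : Sy K m →* G} (hε : PSpHomA m L ε) :
    L ⊓ centralizer (L : Set G) = ⊥ := by
  rw [eq_bot_iff]
  rintro x ⟨hx, hxC⟩
  rw [← hε.range] at hx
  obtain ⟨g, rfl⟩ := hx
  rw [mem_bot, hε.ker]
  refine (H112.stmtS1' K m hm g (RingEquiv.refl K) fun h => ?_).2
  have h1 := (mem_centralizer_iff.1 hxC) (ε h) (by rw [← hε.range]; exact ⟨h, rfl⟩)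
  have h2 : ε (h⁻¹ * g⁻¹ * h * g) = 1 := by
    rw [map_mul, map_mul, map_mul, map_inv, map_inv, mul_assoc, h1]
    group
  obtain ⟨c, hc⟩ := (hε.ker _).1 h2
  have h3 : h * g = g * h * (h⁻¹ * g⁻¹ * h * g) := by group
  have h4 : h.1 * g.1 = c • (g.1 * h.1) := by
    have h5 := congrArg Subtype.val h3
    have h6 : (g * h * (h⁻¹ * g⁻¹ * h * g)).1 = g.1 * h.1 * (h⁻¹ * g⁻¹ * h * g).1 := rfl
    rw [h6, hc, Matrix.mul_smul, Matrix.mul_one] at h5
    exact h5
  have hc0 : c ≠ 0 := by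
    rintro rfl
    rw [zero_smul] at h4
    have h5 : (h * g).1 = 0 := h4
    have h6 : (h * g).1 * ((h * g)⁻¹).1 = 1 := congrArg Subtype.val (mul_inv_cancel (h * g))
    rw [h5, Matrix.zero_mul] at h6
    have h7 := congrFun (congrFun h6 (Sum.inl ⟨0, hm⟩)) (Sum.inl ⟨0, hm⟩)
    simp at h7
  refine ⟨c⁻¹, ?_⟩
  have h5 : h.1.map (RingEquiv.refl K) = h.1 := by
    ext i j
    rfl
  rw [h5, h4, smul_smul, inv_mul_cancel₀ hc0, one_smul]

end

/-- **`LocTopF` at odd primes for `PSp_{2m}(q)`**, `q` odd -/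
theorem locTopF_Sp {K : Type u} [Field K] [Fintype K] {m p : ℕ}
    [hp : Fact p.Prime] (hp2 : p ≠ 2) (h2 : (2 : K) ≠ 0) (hpK : (p : K) ≠ 0) (hm : 1 ≤ m)
    {G : Type v} [Group G] [Finite G] {L : Subgroup G} {ε : Sy K m →* G} (hε : PSpHomA m L ε)
    (hdvd : p ∣ Nat.card L) (𝕜 : Type w) [Field 𝕜] : LocTopF 𝕜 p L := by
  have : Finite (Matrix (Fin m ⊕ Fin m) (Fin m ⊕ Fin m) K) :=
    inferInstanceAs (Finite (Fin m ⊕ Fin m → Fin m ⊕ Fin m → K))
  have : Finite (Sy K m) := Subtype.finite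
  have hC := cent_Sp hm hε
  have hL := hε.range
  have h3 := H281.OP.stmtOP3.{u, v} K m p hp2 hm G L ε hε
  have h4 := H112.stmtOP2.{u, v} K m p hp2 hm G L ε hε
  subst hL
  refine stmtOA.{v, w, u} p hp2 𝕜 G _ _ (jS K m) adj ε (dat_Sp hp2 hpK hm hε) hdvd hC h3
    fun y hy hyp hyo => ?_
  obtain ⟨M, μ, σ, θ, hD, hθ⟩ := h4 y hy hyp hyo
  refine ⟨θ, H165.ON.on K m p hp2 hpK M μ σ θ hD ⟨-1, ?_, ?_, ?_⟩, hθ⟩
  · rw [map_neg, map_one]
  · exact neg_ne_zero.2 one_ne_zero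
  · intro h
    apply h2
    linear_combination -h

/-- every group isomorphic to `PSp_{2m}(q)`, `m ≥ 2`, `q` odd, of order divisible by `p`, is a top
factor at the odd prime `p ∤ q` -/
theorem topFac_Sp {K : Type} [Field K] [Fintype K] {m p : ℕ}
    [hp : Fact p.Prime] (hp2 : p ≠ 2) (h2 : (2 : K) ≠ 0) (hpK : (p : K) ≠ 0) (hm : 2 ≤ m)
    {L : Type v} [Group L] (e : L ≃* (Sy K m ⧸ Subgroup.center (Sy K m)))
    (hdvd : p ∣ Nat.card L) (𝕜 : Type w) [Field 𝕜] : TopFac 𝕜 p L := by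
  rintro G _ _ M ⟨f⟩
  obtain ⟨ε, hε⟩ := H112.stmtOP1.{0, v} K m hm h2 G M ⟨e.symm.trans f⟩
  exact locTopF_Sp hp2 h2 hpK (by omega) hε (by rwa [← Nat.card_congr f.toEquiv]) 𝕜

end

end Vale.Agent.P240.R2.H687.Odd
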