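import Vale.Agent.P240.R2.H687.OddDefs
import Vale.Agent.P240.R2.H38.UDefs

/-!
P240, next level, odd primes: the unitary groups `PSU_n(q)`, `p ∤ q + 1`. Literal statements.
-/

set_option autoImplicit false

namespace Vale.Agent.P240.R2.H687.Odd

open Matrix Subgroup Vale.Agent.P240.K
open Vale.Agent.P240.R2.H38 (mt)
open Vale.Agent.P240.R2.H487 (LocTopF)

universe u v w

section
variable {K : Type u} [Field K] [StarRing K] {n : ℕ}

/-- the inclusion of the special unitary group in the ring of matrices -/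
def jU (K : Type u) [Field K] [StarRing K] (n : ℕ) : H38.SU K n →* Matrix (Fin n) (Fin n) K where
  toFun g := mt g
  map_one' := rfl
  map_mul' _ _ := rfl

/-- `θ` is conjugation by the semilinear isometry `v ↦ M σ(v)` whose `p`-th power is `1` -/
structure DscU (p : ℕ) (M : Matrix (Fin n) (Fin n) K) (σ : K ≃+* K)
    (θ : Matrix (Fin n) (Fin n) K ≃+* Matrix (Fin n) (Fin n) K) : Prop where
  uni : M * star M = 1
  com : ∀ a : K, σ (star a) = star (σ a)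
  conj : ∀ A, θ A * M = M * A.map σ
  pow : ∀ v : Fin n → K, (fun v => M *ᵥ (fun i => σ (v i)))^[p] v = v
  ord : (M = 1 ∧ σ = RingEquiv.refl K) ∨ ((σ : RingAut K) ^ p = 1 ∧ σ ≠ RingEquiv.refl K)

/-- the structure needed from `L ≅ PSU_n(K)` -/
structure PSUHomA {G : Type v} [Group G] (n : ℕ) (L : Subgroup G) (ε : H38.SU K n →* G) :
    Prop where
  range : ε.range = L
  ker : ∀ g : H38.SU K n, ε g = 1 ↔ ∃ c : K, mt g = c • (1 : Matrix (Fin n) (Fin n) K)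
  sem : ∀ x ∈ Subgroup.normalizer (L : Set G), ∃ g σ, H38.Acts ε x g σ

end

/-- UN: `NN` for the special unitary groups, `p ∤ q + 1` -/
def StmtUN : Prop :=
  ∀ (K : Type u) [Field K] [Fintype K] [StarRing K] (q : ℕ), 3 ≤ q → Nat.card K = q ^ 2 →
    (∀ x : K, star x = x ^ q) → ∀ (n p : ℕ) [Fact p.Prime], p ≠ 2 → ¬ p ∣ q + 1 → (p : K) ≠ 0 →
    ∀ (M : Matrix (Fin n) (Fin n) K) (σ : K ≃+* K)
    (θ : Matrix (Fin n) (Fin n) K ≃+* Matrix (Fin n) (Fin n) K), DscU p M σ θ →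
    (∃ a b : K, σ a = a ∧ σ b = b ∧ a ≠ 0 ∧ b ≠ 0 ∧ a ≠ b ∧ star a = -a ∧ star b = -b) →
    NN p (jU K n) star θ

/-- UP2: the elements of order `p` outside `L ⊔ C(L)` -/
def StmtUP2 : Prop :=
  ∀ (K : Type u) [Field K] [Fintype K] [StarRing K] (q : ℕ), 3 ≤ q → Nat.card K = q ^ 2 →
    (∀ x : K, star x = x ^ q) → ∀ (n p : ℕ) [Fact p.Prime], p ≠ 2 → ¬ p ∣ q + 1 → 3 ≤ n →
    ∀ (G : Type v) [Group G] (L : Subgroup G) (ε : H38.SU K n →* G), PSUHomA n L ε →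
    ∀ y ∈ normalizer (L : Set G), y ^ p = 1 → (y = 1 ∨ y ∉ L ⊔ centralizer (L : Set G)) →
    ∃ (M : Matrix (Fin n) (Fin n) K) (σ : K ≃+* K)
      (θ : Matrix (Fin n) (Fin n) K ≃+* Matrix (Fin n) (Fin n) K), DscU p M σ θ ∧
      ∀ g : H38.SU K n, ∃ g' : H38.SU K n, mt g' = θ (mt g) ∧ ε g' = y * ε g * y⁻¹

/-- UP3: the outer part is cyclic -/
def StmtUP3 : Prop :=
  ∀ (K : Type u) [Field K] [Fintype K] [StarRing K] (q : ℕ), 3 ≤ q → Nat.card K = q ^ 2 →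
    (∀ x : K, star x = x ^ q) → ∀ (n p : ℕ) [Fact p.Prime], p ≠ 2 → ¬ p ∣ q + 1 → 3 ≤ n →
    ∀ (G : Type v) [Group G] (L : Subgroup G) (ε : H38.SU K n →* G), PSUHomA n L ε →
    ∀ t ∈ normalizer (L : Set G), ∀ x ∈ normalizer (L : Set G), t ^ p = 1 → x ^ p = 1 →
      t * x = x * t → t ∉ L ⊔ centralizer (L : Set G) →
      ∃ k : ℕ, x * t ^ k ∈ L ⊔ centralizer (L : Set G)

end Vale.Agent.P240.R2.H687.Odd
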