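import Vale.Agent.P240.R2.H472.PH
import Vale.Agent.P240.R2.H432.UPa
import Vale.Agent.P180.R2.H589.Ux.Au7

/-!
Every automorphism of `PSU_n(q)`, `n ≥ 3`, `q ≥ 3` (odd or even), is induced by an element of
`PΓU_n(q)` (P240).
-/

set_option autoImplicit false
set_option linter.unusedSectionVars false

namespace Vale.Agent.P240.R2.H687.U

open Matrix Subgroup Module
open Vale.Agent.P240.R2.AS Vale.Agent.P240.R2.H472
open Vale.Agent.P180.R2.H589.Un
open Vale.Agent.P240.R2.H38 (mt)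

noncomputable section

variable {K : Type} [Field K] [Fintype K] [StarRing K] {n q : ℕ}

theorem toPSU_ker_eq (hn : 3 ≤ n) (hK : Nat.card K = q ^ 2) (hs : ∀ x : K, star x = x ^ q) :
    (toPSU : SUG (hh K n) →* PSU K n).ker = center (SUG (hh K n)) := by
  refine le_antisymm toPSU_ker fun x hx => ?_
  rw [mem_center_iff] at hx
  have h1 : (toSU x).1 * star (toSU x).1 = 1 := Matrix.mem_unitaryGroup_iff.1 (toSU x).2
  have hcomm : ∀ A : GU K n, A ∈ SU K n → A * toSU x = toSU x * A := by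
    intro A hA
    obtain ⟨y, rfl⟩ := exists_SUG A hA
    rw [← map_mul, ← map_mul, hx y]
  obtain ⟨-, d, hd⟩ := H432.Odd.uniq (σ := RingEquiv.refl K) hn hK hs h1 (fun _ => rfl)
    (fun g => ⟨1, by
      have h2 := congrArg Subtype.val (hcomm g.1 g.2)
      have h3 : (mt g).map (RingEquiv.refl K) = mt g := by
        ext i j
        rfl
      have h4 : mt g * (toSU x).1 = (toSU x).1 * mt g := h2
      rw [h3, ← h4, Matrix.mul_assoc, h1, Matrix.mul_one, one_smul]⟩)
  rw [MonoidHom.mem_ker]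
  apply Subtype.ext
  rw [toPSU_val, OneMemClass.coe_one, QuotientGroup.eq_one_iff, mem_center_iff]
  intro y
  apply Subtype.ext
  show y.1 * (toSU x).1 = (toSU x).1 * y.1
  rw [hd, Matrix.mul_smul, Matrix.smul_mul, Matrix.mul_one, Matrix.one_mul]

/-- **Automorphisms of `PSU_n(q)`**, `n ≥ 3`, `q ≥ 3`: every automorphism is induced by an
element of `PΓU_n(q)`. -/
theorem aut_PSU {q : ℕ} (hq : 3 ≤ q) (hK : Nat.card K = q ^ 2) (hs : ∀ x : K, star x = x ^ q)
    (hn : 3 ≤ n) {L : Type*} [Group L] (e : PSU K n ≃* L) (α : MulAut L) :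
    ∃ x : PGamU K n, ∀ y : PSU K n,
      (SemidirectProduct.inl ((e.symm (α (e y)) : PSU K n) : PGU K n) : PGamU K n) =
        x * SemidirectProduct.inl (y : PGU K n) * x⁻¹ := by
  have hiv : Iv (th K) := th_iv (by omega) hK hs
  have hF : 2 < Nat.card (FF (th K)) := by
    have h1 := card_sq hiv
    rw [hK] at h1
    have h3 : q = Nat.card (FF (th K)) := Nat.pow_left_injective (by norm_num : 2 ≠ 0) h1
    omega
  have hd : 2 < finrank K (Fin n → K) := by
    rw [Module.finrank_fin_fun]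
    omega
  obtain ⟨g, σ, κ, hg, hind⟩ := Vale.Agent.P180.R2.H589.Ux.exists_ssim hiv
    (hh_hm (K := K) (n := n)) hF hd
    (π := e.toMonoidHom.comp toPSU) (e.surjective.comp toPSU_surj)
    (by
      rw [← toPSU_ker_eq hn hK hs]
      ext x
      rw [MonoidHom.mem_ker, MonoidHom.mem_ker]
      exact ⟨fun hx => e.injective (hx.trans (map_one e).symm),
        fun hx => (congrArg e hx).trans (map_one e)⟩) α
  obtain ⟨M, τ, c, hc, rfl, hgv⟩ := ssim_unitary hK hs (by omega) hg
  refine ⟨SemidirectProduct.inl (QuotientGroup.mk M) * SemidirectProduct.inr τ, ?_⟩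
  intro y
  obtain ⟨X, rfl⟩ := toPSU_surj y
  have hSU : M * mapGU τ (toSU X) * M⁻¹ ∈ SU K n := by
    have h1 : mapGU τ (toSU X) ∈ SU K n := by
      rw [mem_SU]
      have h3 : (mapGU τ (toSU X)).1 = (toSU X).1.map τ.1 := rfl
      have h4 := RingHom.map_det (τ.1 : K →+* K) (toSU X).1
      rw [mem_SU.1 (toSU_mem X), map_one] at h4
      rw [h3]
      exact h4.symm
    have hnor : (SU K n).Normal := MonoidHom.normal_ker _
    exact hnor.conj_mem _ h1 M
  obtain ⟨Y, hY⟩ := exists_SUG _ hSU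
  have h5 : α (e (toPSU X)) = e (toPSU Y) := by
    refine hind X Y fun v => ?_
    rw [hgv, hgv, ← toSU_mulVec, ← toSU_mulVec, hY, Matrix.mulVec_smul]
    congr 1
    have h6 : (fun i => τ.1 (((toSU X).1 *ᵥ v) i)) =
        ((toSU X).1.map τ.1) *ᵥ (fun i => τ.1 (v i)) := by
      funext i
      simp only [Matrix.mulVec, dotProduct, Matrix.map_apply, map_sum, map_mul]
    have h7 : (M * mapGU τ (toSU X) * M⁻¹).1 = M.1 * (toSU X).1.map τ.1 * star M.1 := rfl
    have h8 : star M.1 * M.1 = 1 := Matrix.mem_unitaryGroup_iff'.1 M.2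
    rw [h6, h7, mulVec_mulVec, mulVec_mulVec, Matrix.mul_assoc _ (star M.1), h8, Matrix.mul_one]
  rw [h5, e.symm_apply_apply, toPSU_val, toPSU_val, hY]
  have h9 : (QuotientGroup.mk (M * mapGU τ (toSU X) * M⁻¹) : PGU K n) =
      QuotientGroup.mk M * act n τ (QuotientGroup.mk (toSU X)) * (QuotientGroup.mk M)⁻¹ := rfl
  rw [h9, map_mul, map_mul, SemidirectProduct.inl_aut, map_inv, map_inv, _root_.mul_inv_rev]
  simp only [mul_assoc]

/-- the form of `StmtTR`, all `q ≥ 3`, `n ≥ 3` -/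
theorem tr_PSU {q : ℕ} (hq : 3 ≤ q) (hK : Nat.card K = q ^ 2)
    (hs : ∀ x : K, star x = x ^ q) (hn : 3 ≤ n) (α : MulAut (PSU K n)) :
    ∃ (s : SA K) (g : GU K n), ∀ y : PSU K n, ((α y : PSU K n) : PGU K n) =
      (QuotientGroup.mk g : PGU K n) * act n s (y : PGU K n) *
        (QuotientGroup.mk g : PGU K n)⁻¹ := by
  obtain ⟨X, hX⟩ := aut_PSU hq hK hs hn (MulEquiv.refl _) α
  obtain ⟨g, hg⟩ := QuotientGroup.mk_surjective X.left
  refine ⟨X.right, g, fun y => ?_⟩
  have h1 := hX y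
  rw [conj_inl] at h1
  have h3 := SemidirectProduct.inl_injective h1
  rw [hg]
  exact h3

end

end Vale.Agent.P240.R2.H687.U
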