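import Vale.Agent.P240.R2.H487.LE2

/-!
Averaging idempotents of elementary abelian groups in a ring, and the decomposition
`E = H ⊔ ⟨a⟩` (P240, odd primes).
-/

set_option autoImplicit false

namespace Vale.Agent.P240.R2.H687.Odd

open Subgroup
open scoped Classical

universe u v w

noncomputable section

section
variable {R : Type u} [Ring R]

/-- the inverse of a natural number in `R` -/
lemma inv_comm {n : ℕ} (hn : IsUnit (n : R)) (a : R) :
    Ring.inverse (n : R) * a = a * Ring.inverse (n : R) := by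
  have h1 := Ring.inverse_mul_cancel (n : R) hn
  have h2 := Ring.mul_inverse_cancel (n : R) hn
  calc Ring.inverse (n : R) * a = Ring.inverse (n : R) * a * ((n : R) * Ring.inverse (n : R)) := by
        rw [h2, mul_one]
    _ = Ring.inverse (n : R) * (a * (n : R)) * Ring.inverse (n : R) := by
        simp only [mul_assoc]
    _ = Ring.inverse (n : R) * ((n : R) * a) * Ring.inverse (n : R) := by
        rw [Nat.cast_comm]
    _ = (Ring.inverse (n : R) * (n : R)) * a * Ring.inverse (n : R) := by
        simp only [mul_assoc]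
    _ = a * Ring.inverse (n : R) := by rw [h1, one_mul]

end

section
variable {R : Type u} [Ring R] {S : Type v} [Group S] [Finite S] (j : S →* R)

/-- the sum of the elements of a subgroup -/
def sm (H : Subgroup S) : R := ∑ h ∈ (Set.toFinite (H : Set S)).toFinset, j h

/-- the average of the elements of a subgroup -/
def av (H : Subgroup S) : R := Ring.inverse ((Nat.card H : ℕ) : R) * sm j H

lemma mul_sm {H : Subgroup S} {x : S} (hx : x ∈ H) : j x * sm j H = sm j H := by
  unfold sm
  rw [Finset.mul_sum]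
  refine Finset.sum_nbij' (fun h => x * h) (fun h => x⁻¹ * h) ?_ ?_ ?_ ?_ ?_
  · intro a ha
    rw [Set.Finite.mem_toFinset] at ha ⊢
    exact H.mul_mem hx ha
  · intro a ha
    rw [Set.Finite.mem_toFinset] at ha ⊢
    exact H.mul_mem (H.inv_mem hx) ha
  · intro a _
    exact inv_mul_cancel_left x a
  · intro a _
    exact mul_inv_cancel_left x a
  · intro a _
    rw [map_mul]

lemma sm_mul {H : Subgroup S} {x : S} (hx : x ∈ H) : sm j H * j x = sm j H := by
  unfold sm
  rw [Finset.sum_mul]
  refine Finset.sum_nbij' (fun h => h * x) (fun h => h * x⁻¹) ?_ ?_ ?_ ?_ ?_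
  · intro a ha
    rw [Set.Finite.mem_toFinset] at ha ⊢
    exact H.mul_mem ha hx
  · intro a ha
    rw [Set.Finite.mem_toFinset] at ha ⊢
    exact H.mul_mem ha (H.inv_mem hx)
  · intro a _
    exact mul_inv_cancel_right a x
  · intro a _
    exact inv_mul_cancel_right a x
  · intro a _
    rw [map_mul]

lemma card_toFinset (H : Subgroup S) :
    (Set.toFinite (H : Set S)).toFinset.card = Nat.card H := by
  rw [← Set.ncard_eq_toFinset_card _ (Set.toFinite (H : Set S)), ← Nat.card_coe_set_eq]
  rfl

/-- `E` is elementary abelian (possibly trivial) -/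
def EA (p : ℕ) (E : Subgroup S) : Prop :=
  (∀ x ∈ E, ∀ y ∈ E, x * y = y * x) ∧ ∀ x ∈ E, x ^ p = 1

variable {j}

lemma av_fix {H : Subgroup S} (hu : IsUnit ((Nat.card H : ℕ) : R)) {y : R}
    (h : ∀ x ∈ H, j x * y = y) : av j H * y = y := by
  unfold av sm
  rw [mul_assoc, Finset.sum_mul, Finset.sum_congr rfl (fun x hx => h x (by
    rw [Set.Finite.mem_toFinset] at hx
    exact hx)), Finset.sum_const, card_toFinset, nsmul_eq_mul, ← mul_assoc,
    Ring.inverse_mul_cancel _ hu, one_mul]

lemma av_fix' {H : Subgroup S} (hu : IsUnit ((Nat.card H : ℕ) : R)) {y : R}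
    (h : ∀ x ∈ H, y * j x = y) : y * av j H = y := by
  unfold av sm
  rw [← mul_assoc, ← inv_comm hu, mul_assoc, Finset.mul_sum, Finset.sum_congr rfl (fun x hx => h x (by
    rw [Set.Finite.mem_toFinset] at hx
    exact hx)), Finset.sum_const, card_toFinset, nsmul_eq_mul, ← mul_assoc,
    Ring.inverse_mul_cancel _ hu, one_mul]

lemma mul_av {H : Subgroup S} (hu : IsUnit ((Nat.card H : ℕ) : R)) {x : S} (hx : x ∈ H) :
    j x * av j H = av j H := by
  unfold av
  rw [← mul_assoc, ← inv_comm hu, mul_assoc, mul_sm j hx]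

lemma av_mul {H : Subgroup S} {x : S} (hx : x ∈ H) : av j H * j x = av j H := by
  unfold av
  rw [mul_assoc, sm_mul j hx]

lemma av_idem {H : Subgroup S} (hu : IsUnit ((Nat.card H : ℕ) : R)) :
    av j H * av j H = av j H := av_fix hu fun _ hx => mul_av hu hx

lemma av_comm {H : Subgroup S} (hu : IsUnit ((Nat.card H : ℕ) : R)) {y : R}
    (h : ∀ x ∈ H, j x * y = y * j x) : av j H * y = y * av j H := by
  have e1 : sm j H * y = y * sm j H := by
    unfold sm
    rw [Finset.sum_mul, Finset.mul_sum]
    refine Finset.sum_congr rfl fun x hx => h x ?_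
    rw [Set.Finite.mem_toFinset] at hx
    exact hx
  unfold av
  rw [mul_assoc, e1, ← mul_assoc, inv_comm hu, mul_assoc]

lemma av_map {H : Subgroup S} (hu : IsUnit ((Nat.card H : ℕ) : R)) (θ : R ≃+* R)
    (h : ∀ x ∈ H, θ (j x) = j x) : θ (av j H) = av j H := by
  unfold av sm
  rw [map_mul, map_sum, Finset.sum_congr rfl (fun x hx => h x (by
    rw [Set.Finite.mem_toFinset] at hx
    exact hx))]
  congr 1
  have h1 : θ (Ring.inverse ((Nat.card H : ℕ) : R)) * ((Nat.card H : ℕ) : R) = 1 := by
    have h2 := congrArg θ (Ring.inverse_mul_cancel _ hu)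
    rwa [map_mul, map_natCast, map_one] at h2
  calc θ (Ring.inverse ((Nat.card H : ℕ) : R))
      = θ (Ring.inverse ((Nat.card H : ℕ) : R)) * (((Nat.card H : ℕ) : R) *
        Ring.inverse ((Nat.card H : ℕ) : R)) := by rw [Ring.mul_inverse_cancel _ hu, mul_one]
    _ = Ring.inverse ((Nat.card H : ℕ) : R) := by rw [← mul_assoc, h1, one_mul]

lemma st_natCast {st : R → R} (h1 : st 1 = 1) (hadd : ∀ a b, st (a + b) = st a + st b) (n : ℕ) :
    st (n : R) = n := by
  induction n with
  | zero =>
    have h := hadd 0 0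
    rw [add_zero] at h
    rw [Nat.cast_zero]
    exact (add_eq_left.1 h.symm)
  | succ n ih =>
    rw [Nat.cast_succ, hadd, ih, h1]

lemma st_sum {st : R → R} (h1 : st 1 = 1) (hadd : ∀ a b, st (a + b) = st a + st b)
    {ι : Type*} (s : Finset ι) (f : ι → R) : st (∑ i ∈ s, f i) = ∑ i ∈ s, st (f i) := by
  classical
  induction s using Finset.induction_on with
  | empty =>
    rw [Finset.sum_empty, Finset.sum_empty]
    have := st_natCast h1 hadd 0
    rwa [Nat.cast_zero] at this
  | insert a s ha ih => rw [Finset.sum_insert ha, Finset.sum_insert ha, hadd, ih]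

lemma av_st {H : Subgroup S} (hu : IsUnit ((Nat.card H : ℕ) : R)) {st : R → R} (h1 : st 1 = 1)
    (hadd : ∀ a b, st (a + b) = st a + st b) (hmul : ∀ a b, st (a * b) = st b * st a)
    (hinv : ∀ g, st (j g) = j g⁻¹) : st (av j H) = av j H := by
  have e1 : st (sm j H) = sm j H := by
    unfold sm
    rw [st_sum h1 hadd]
    refine Finset.sum_nbij' (fun h => h⁻¹) (fun h => h⁻¹) ?_ ?_ ?_ ?_ ?_
    · intro a ha
      rw [Set.Finite.mem_toFinset] at ha ⊢
      exact H.inv_mem ha
    · intro a ha
      rw [Set.Finite.mem_toFinset] at ha ⊢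
      exact H.inv_mem ha
    · intro a _
      exact inv_inv a
    · intro a _
      exact inv_inv a
    · intro a _
      exact hinv a
  have e2 : st (Ring.inverse ((Nat.card H : ℕ) : R)) = Ring.inverse ((Nat.card H : ℕ) : R) := by
    have h2 : ((Nat.card H : ℕ) : R) * st (Ring.inverse ((Nat.card H : ℕ) : R)) = 1 := by
      have h3 := congrArg st (Ring.inverse_mul_cancel _ hu)
      rwa [hmul, st_natCast h1 hadd, h1] at h3
    calc st (Ring.inverse ((Nat.card H : ℕ) : R))
        = Ring.inverse ((Nat.card H : ℕ) : R) * ((Nat.card H : ℕ) : R) *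
          st (Ring.inverse ((Nat.card H : ℕ) : R)) := by
          rw [Ring.inverse_mul_cancel _ hu, one_mul]
      _ = Ring.inverse ((Nat.card H : ℕ) : R) := by rw [mul_assoc, h2, mul_one]
  unfold av
  rw [hmul, e1, e2, inv_comm hu]

end

/-! ### sums over the powers of an element of order `p` -/

section
variable {R : Type u} [Ring R] {S : Type v} [Group S] (j : S →* R) (p : ℕ) [hp : Fact p.Prime]

/-- the sum of the powers -/
def T (u : S) : R := ∑ k : ZMod p, j (u ^ k.val)

variable {j p}

lemma pow_val_mul {u : S} (hu : u ^ p = 1) (i k : ZMod p) :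
    (u ^ i.val) ^ k.val = u ^ (i * k).val := by
  rw [← pow_mul, ZMod.val_mul, ← pow_eq_pow_mod _ hu]

lemma T_mul_left {u : S} (hu : u ^ p = 1) : j u * T j p u = T j p u := by
  unfold T
  rw [Finset.mul_sum]
  refine Fintype.sum_equiv (Equiv.addLeft (1 : ZMod p)) _ _ fun k => ?_
  rw [← map_mul, ← pow_succ', Equiv.coe_addLeft]
  congr 1
  rw [ZMod.val_add, ZMod.val_one, ← pow_eq_pow_mod _ hu, add_comm]

/-- the identity of the `p + 1` subgroups of order `p` -/
lemma T_ident {a b : S} (ha : a ^ p = 1) (hb : b ^ p = 1) (hab : a * b = b * a) :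
    ∑ i : ZMod p, T j p (b * a ^ i.val) + T j p a = (p : R) + T j p b * T j p a := by
  have hc : ∀ i : ℕ, Commute b (a ^ i) := fun i => (show Commute b a from hab.symm).pow_right i
  have h1 : ∑ i : ZMod p, T j p (b * a ^ i.val)
      = ∑ k : ZMod p, j (b ^ k.val) * ∑ i : ZMod p, j (a ^ (i * k).val) := by
    unfold T
    rw [Finset.sum_comm]
    refine Finset.sum_congr rfl fun k _ => ?_
    rw [Finset.mul_sum]
    refine Finset.sum_congr rfl fun i _ => ?_
    rw [(hc i.val).mul_pow, map_mul, pow_val_mul ha]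
  have h2 : ∀ k : ZMod p, k ≠ 0 → ∑ i : ZMod p, j (a ^ (i * k).val) = T j p a := by
    intro k hk
    unfold T
    exact Fintype.sum_equiv (Equiv.mulRight₀ k hk) _ _ fun i => rfl
  have h3 : T j p b = 1 + ∑ k ∈ Finset.univ.erase (0 : ZMod p), j (b ^ k.val) := by
    unfold T
    rw [← Finset.add_sum_erase _ _ (Finset.mem_univ (0 : ZMod p))]
    rw [ZMod.val_zero, pow_zero, map_one]
  have h4 : ∑ k : ZMod p, j (b ^ k.val) * ∑ i : ZMod p, j (a ^ (i * k).val)
      = (p : R) + ∑ k ∈ Finset.univ.erase (0 : ZMod p), j (b ^ k.val) * T j p a := by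
    rw [← Finset.add_sum_erase Finset.univ
      (fun k : ZMod p => j (b ^ k.val) * ∑ i : ZMod p, j (a ^ (i * k).val))
      (Finset.mem_univ (0 : ZMod p))]
    have h5 : ∑ k ∈ Finset.univ.erase (0 : ZMod p), j (b ^ k.val) *
        ∑ i : ZMod p, j (a ^ (i * k).val)
        = ∑ k ∈ Finset.univ.erase (0 : ZMod p), j (b ^ k.val) * T j p a :=
      Finset.sum_congr rfl (fun k hk => by rw [h2 k (Finset.ne_of_mem_erase hk)])
    rw [h5]
    simp only [ZMod.val_zero, pow_zero, map_one, one_mul, mul_zero, Finset.sum_const,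
      Finset.card_univ, ZMod.card, nsmul_eq_mul, mul_one]
  rw [h1, h4, h3]
  rw [add_mul, one_mul, Finset.sum_mul]
  abel

end

section
variable {R : Type u} [Ring R] {S : Type v} [Group S] [Finite S] {j : S →* R} {p : ℕ}
  [hp : Fact p.Prime]

lemma ea_unit (hpu : IsUnit (p : R)) {E : Subgroup S} (hE : EA p E) :
    IsUnit ((Nat.card E : ℕ) : R) := by
  have h1 : IsPGroup p E := by
    intro x
    refine ⟨1, ?_⟩
    rw [pow_one]
    exact Subtype.ext (hE.2 x.1 x.2)
  obtain ⟨n, hn⟩ := IsPGroup.iff_card.1 h1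
  rw [hn, Nat.cast_pow]
  exact hpu.pow n

lemma ea_mono {E F : Subgroup S} (hE : EA p E) (h : F ≤ E) : EA p F :=
  ⟨fun x hx y hy => hE.1 x (h hx) y (h hy), fun x hx => hE.2 x (h hx)⟩

/-- adding a commuting element of order `p` -/
lemma ea_sup {E : Subgroup S} (hE : EA p E) {a : S} (ha : a ^ p = 1) (hc : ∀ x ∈ E, x * a = a * x) :
    EA p (E ⊔ zpowers a) := by
  have hcc : ∀ x ∈ E, ∀ y ∈ zpowers a, x * y = y * x := by
    rintro x hx y ⟨k, rfl⟩
    exact ((show Commute x a from hc x hx).zpow_right k)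
  have hz : ∀ y ∈ zpowers a, ∀ z ∈ zpowers a, y * z = z * y := by
    rintro y ⟨k, rfl⟩ z ⟨l, rfl⟩
    exact zpow_mul_comm a k l
  have hm : ∀ x ∈ E ⊔ zpowers a, ∃ e ∈ E, ∃ y ∈ zpowers a, e * y = x := fun x hx =>
    H487.mem_sup_comm hcc hx
  refine ⟨fun x hx y hy => ?_, fun x hx => ?_⟩
  · obtain ⟨e, he, z, hz', rfl⟩ := hm x hx
    obtain ⟨e', he', z', hz'', rfl⟩ := hm y hy
    calc e * z * (e' * z') = e * (z * e') * z' := by group
      _ = e * (e' * z) * z' := by rw [hcc e' he' z hz']
      _ = (e * e') * (z * z') := by group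
      _ = (e' * e) * (z' * z) := by rw [hE.1 e he e' he', hz z hz' z' hz'']
      _ = e' * (e * z') * z := by group
      _ = e' * (z' * e) * z := by rw [hcc e he z' hz'']
      _ = e' * z' * (e * z) := by group
  · obtain ⟨e, he, z, hz', rfl⟩ := hm x hx
    rw [(show Commute e z from hcc e he z hz').mul_pow, hE.2 e he, one_mul]
    obtain ⟨k, rfl⟩ := hz'
    rw [← zpow_natCast, ← zpow_mul, mul_comm, zpow_mul, zpow_natCast, ha, one_zpow]

/-- the stabiliser of an element of the ring under left multiplication -/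
def stab (j : S →* R) (y : R) : Subgroup S where
  carrier := {x | j x * y = y}
  mul_mem' := by
    intro a b ha hb
    have ha : j a * y = y := ha
    have hb : j b * y = y := hb
    show j (a * b) * y = y
    rw [map_mul, mul_assoc, hb, ha]
  one_mem' := by
    show j 1 * y = y
    rw [map_one, one_mul]
  inv_mem' := by
    intro a ha
    have ha : j a * y = y := ha
    show j a⁻¹ * y = y
    conv_lhs => rw [← ha]
    rw [← mul_assoc, ← map_mul, inv_mul_cancel, map_one, one_mul]

lemma mem_stab {y : R} {x : S} : x ∈ stab j y ↔ j x * y = y := Iff.rfl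

lemma av_sup (hpu : IsUnit (p : R)) {H : Subgroup S} {u : S} (hF : EA p (H ⊔ zpowers u)) :
    (p : R) * av j (H ⊔ zpowers u) = av j H * T j p u := by
  have hu : u ∈ H ⊔ zpowers u := mem_sup_right (mem_zpowers u)
  have hH : EA p H := ea_mono hF le_sup_left
  have hup : u ^ p = 1 := hF.2 u hu
  have c1 := ea_unit hpu hH
  have c2 := ea_unit hpu hF
  have h1 : H ⊔ zpowers u ≤ stab j (av j H * T j p u) := by
    refine sup_le (fun x hx => ?_) (zpowers_le.2 ?_)
    · rw [mem_stab, ← mul_assoc, mul_av c1 hx]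
    · have h2 : av j H * j u = j u * av j H :=
        av_comm c1 fun x hx => by
          rw [← map_mul, hF.1 x (mem_sup_left hx) u hu, map_mul]
      rw [mem_stab, ← mul_assoc, ← h2, mul_assoc, T_mul_left hup]
  have h3 : av j (H ⊔ zpowers u) * (av j H * T j p u) = av j H * T j p u :=
    av_fix c2 fun x hx => h1 hx
  rw [← h3, ← mul_assoc, av_fix' c1 (fun x hx => av_mul (mem_sup_left hx))]
  unfold T
  rw [Finset.mul_sum, Finset.sum_congr rfl (fun k _ => av_mul (j := j) (pow_mem hu _)),
    Finset.sum_const, Finset.card_univ, ZMod.card, nsmul_eq_mul]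

/-- **the hyperplane `H`** -/
theorem dec (hinj : Function.Injective j) (hpu : IsUnit (p : R)) {E : Subgroup S} (hE : EA p E)
    (hne : E ≠ ⊥) :
    ∃ H ≤ E, (∃ a ∈ E, a ∉ H) ∧ (∀ a ∈ E, a ∉ H → H ⊔ zpowers a = E) ∧
      ∀ x ∈ E, j x * av j H = av j H → x ∈ H := by
  have hfin : ({H : Subgroup S | H ≤ E ∧ av j H ≠ av j E}).Finite := Set.toFinite _
  have hbot : (⊥ : Subgroup S) ∈ {H : Subgroup S | H ≤ E ∧ av j H ≠ av j E} := by
    refine ⟨bot_le, fun h => hne ?_⟩
    have h1 : av j (⊥ : Subgroup S) = 1 := by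
      have h2 := av_fix' (j := j) (H := (⊥ : Subgroup S)) (by simp) (y := 1) (fun x hx => by
        rw [mem_bot.1 hx, map_one, one_mul])
      rwa [one_mul] at h2
    rw [eq_bot_iff]
    intro x hx
    have h3 := mul_av (j := j) (ea_unit hpu hE) hx
    rw [← h, h1, mul_one] at h3
    rw [mem_bot]
    exact hinj (h3.trans (map_one j).symm)
  obtain ⟨H, hHmax⟩ := hfin.exists_maximal ⟨_, hbot⟩
  obtain ⟨hHE, hHne⟩ := hHmax.prop
  have hgt : ∀ F : Subgroup S, F ≤ E → H < F → av j F = av j E := by
    intro F hF hlt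
    by_contra h
    exact hlt.not_ge (hHmax.le_of_ge ⟨hF, h⟩ hlt.le)
  have hsup : ∀ a ∈ E, a ∉ H → av j (H ⊔ zpowers a) = av j E := fun a ha haH =>
    hgt _ (sup_le hHE (zpowers_le.2 ha)) (lt_of_le_of_ne le_sup_left (fun h =>
      haH (by rw [h]; exact mem_sup_right (mem_zpowers a))))
  have key : ∀ a ∈ E, a ∉ H → H ⊔ zpowers a = E := by
    intro a ha haH
    by_contra hcon
    have hlt : H ⊔ zpowers a < E := lt_of_le_of_ne (sup_le hHE (zpowers_le.2 ha)) hcon
    obtain ⟨b, hb, hbH⟩ := SetLike.exists_of_lt hlt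
    have hbH' : b ∉ H := fun h => hbH (mem_sup_left h)
    -- the products
    have e1 : (p : R) * av j E = av j H * T j p a := by
      rw [← hsup a ha haH]
      exact av_sup hpu (ea_mono hE (sup_le hHE (zpowers_le.2 ha)))
    have e2 : ∀ i : ZMod p, (p : R) * av j E = av j H * T j p (b * a ^ i.val) := by
      intro i
      have h1 : b * a ^ i.val ∈ E := mul_mem hb (pow_mem ha _)
      have h2 : b * a ^ i.val ∉ H := by
        intro h
        apply hbH
        have h3 : b = (b * a ^ i.val) * (a ^ i.val)⁻¹ := by rw [mul_inv_cancel_right]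
        rw [h3]
        exact mul_mem (mem_sup_left h) (inv_mem (mem_sup_right (pow_mem (mem_zpowers a) _)))
      rw [← hsup _ h1 h2]
      exact av_sup hpu (ea_mono hE (sup_le hHE (zpowers_le.2 h1)))
    have e3 : (p : R) * av j E = av j E * T j p b := by
      have h1 : (H ⊔ zpowers a) ⊔ zpowers b ≤ E :=
        sup_le (sup_le hHE (zpowers_le.2 ha)) (zpowers_le.2 hb)
      have h2 := av_sup (j := j) hpu (ea_mono hE h1)
      rw [hsup a ha haH, hgt _ h1 (lt_of_lt_of_le (lt_of_le_of_ne le_sup_left (fun h =>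
        haH (by rw [h]; exact mem_sup_right (mem_zpowers a)))) le_sup_left)] at h2
      exact h2
    have e4 := congrArg (fun y => av j H * y) (T_ident (j := j) (p := p) (hE.2 a ha) (hE.2 b hb)
      (hE.1 a ha b hb))
    rw [mul_add, Finset.mul_sum, Finset.sum_congr rfl (fun i _ => (e2 i).symm),
      Finset.sum_const, Finset.card_univ, ZMod.card, nsmul_eq_mul, ← e1, mul_add] at e4
    have e5 : av j H * (T j p b * T j p a) = (p : R) * ((p : R) * av j E) := by
      have h1 : T j p b * T j p a = T j p a * T j p b := by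
        have h2 : ∀ i k : ℕ, j (b ^ i) * j (a ^ k) = j (a ^ k) * j (b ^ i) := by
          intro i k
          rw [← map_mul, ← map_mul]
          congr 1
          exact ((show Commute b a from hE.1 b hb a ha).pow_pow i k)
        unfold T
        rw [Finset.sum_mul_sum, Finset.sum_mul_sum, Finset.sum_comm]
        exact Finset.sum_congr rfl fun i _ => Finset.sum_congr rfl fun k _ => h2 _ _
      rw [h1, ← mul_assoc, ← e1, mul_assoc, ← e3]
    rw [e5] at e4
    have e6 : (p : R) * av j E = av j H * (p : R) := by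
      have h1 : (p : R) * ((p : R) * av j E) + (p : R) * av j E
          = (p : R) * ((p : R) * av j E) + av j H * (p : R) := by
        rw [e4]
        abel
      exact add_left_cancel h1
    rw [← Nat.cast_comm] at e6
    exact hHne (hpu.mul_left_cancel e6).symm
  refine ⟨H, hHE, ?_, key, ?_⟩
  · by_contra hcon
    push Not at hcon
    exact hHne (by rw [le_antisymm hHE hcon])
  · intro x hx hxH
    by_contra hcon
    have h1 := av_sup (j := j) hpu (u := x) (H := H)
      (ea_mono hE (sup_le hHE (zpowers_le.2 hx)))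
    rw [hsup x hx hcon] at h1
    have h2 : av j H * T j p x = (p : R) * av j H := by
      have h3 : ∀ k : ℕ, av j H * j (x ^ k) = av j H := by
        intro k
        rw [av_comm (ea_unit hpu (ea_mono hE hHE)) (fun y hy => by
          rw [← map_mul, ← map_mul, hE.1 y (hHE hy) _ (pow_mem hx k)])]
        exact mem_stab.1 (pow_mem (mem_stab.2 hxH) k)
      unfold T
      rw [Finset.mul_sum, Finset.sum_congr rfl (fun k _ => h3 _), Finset.sum_const,
        Finset.card_univ, ZMod.card, nsmul_eq_mul]
    rw [h2] at h1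
    exact hHne (hpu.mul_left_cancel h1).symm

end

end

end Vale.Agent.P240.R2.H687.Odd
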