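import Vale.Agent.P240.R2.H687.OddDec
import Vale.Agent.P240.R2.H687.OddDefs

/-!
The decomposition of a maximal elementary abelian group of a block into blocks (P240, odd primes).
-/

set_option autoImplicit false

namespace Vale.Agent.P240.R2.H687.Odd

open Subgroup
open scoped Classical

universe u v w x

noncomputable section

section
variable {R : Type u} [Ring R] {S : Type v} [Group S] (j : S →* R)

/-- the `θ`-fixed elements that are `1` outside the block `f` -/
def Blk (θ : R ≃+* R) (f : R) : Subgroup S where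
  carrier := {g | θ (j g) = j g ∧ j g * (1 - f) = 1 - f ∧ (1 - f) * j g = 1 - f}
  mul_mem' := by
    rintro a b ⟨ha1, ha2, ha3⟩ ⟨hb1, hb2, hb3⟩
    refine ⟨?_, ?_, ?_⟩
    · rw [map_mul, map_mul, ha1, hb1]
    · rw [map_mul, mul_assoc, hb2, ha2]
    · rw [map_mul, ← mul_assoc, ha3, hb3]
  one_mem' := by
    refine ⟨?_, ?_, ?_⟩
    · rw [map_one, map_one]
    · rw [map_one, one_mul]
    · rw [map_one, mul_one]
  inv_mem' := by
    rintro a ⟨ha1, ha2, ha3⟩
    have e1 : j a * j a⁻¹ = 1 := by rw [← map_mul, mul_inv_cancel, map_one]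
    have e2 : j a⁻¹ * j a = 1 := by rw [← map_mul, inv_mul_cancel, map_one]
    refine ⟨?_, ?_, ?_⟩
    · calc θ (j a⁻¹) = θ (j a⁻¹) * (j a * j a⁻¹) := by rw [e1, mul_one]
        _ = θ (j a⁻¹ * j a) * j a⁻¹ := by rw [map_mul, ha1, mul_assoc]
        _ = j a⁻¹ := by rw [e2, map_one, one_mul]
    · calc j a⁻¹ * (1 - f) = j a⁻¹ * (j a * (1 - f)) := by rw [ha2]
        _ = 1 - f := by rw [← mul_assoc, e2, one_mul]
    · calc (1 - f) * j a⁻¹ = (1 - f) * j a * j a⁻¹ := by rw [ha3]
        _ = 1 - f := by rw [mul_assoc, e1, mul_one]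

variable {j}

lemma mem_Blk {θ : R ≃+* R} {f : R} {g : S} : g ∈ Blk j θ f ↔
    θ (j g) = j g ∧ j g * (1 - f) = 1 - f ∧ (1 - f) * j g = 1 - f := Iff.rfl

lemma sub_mul_self {f y : R} (h : y * (1 - f) = 1 - f) : (y - 1) * f = y - 1 := by
  have h1 : (y - 1) * (1 - f) = 0 := by rw [sub_mul, h, one_mul, sub_self]
  calc (y - 1) * f = (y - 1) - (y - 1) * (1 - f) := by rw [mul_sub, mul_one, sub_sub_cancel]
    _ = y - 1 := by rw [h1, sub_zero]

lemma self_mul_sub {f y : R} (h : (1 - f) * y = 1 - f) : f * (y - 1) = y - 1 := by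
  have h1 : (1 - f) * (y - 1) = 0 := by rw [mul_sub, h, mul_one, sub_self]
  calc f * (y - 1) = (y - 1) - (1 - f) * (y - 1) := by rw [sub_mul, one_mul, sub_sub_cancel]
    _ = y - 1 := by rw [h1, sub_zero]

lemma blk_comm (hinj : Function.Injective j) {θ θ' : R ≃+* R} {f f' : R} (h : f * f' = 0)
    (h' : f' * f = 0) {g g' : S} (hg : g ∈ Blk j θ f) (hg' : g' ∈ Blk j θ' f') :
    g * g' = g' * g := by
  obtain ⟨-, h2, h3⟩ := hg
  obtain ⟨-, h2', h3'⟩ := hg'
  have e1 : (j g - 1) * (j g' - 1) = 0 := by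
    rw [← sub_mul_self h2, ← self_mul_sub h3']
    calc (j g - 1) * f * (f' * (j g' - 1)) = (j g - 1) * (f * f') * (j g' - 1) := by
          simp only [mul_assoc]
      _ = 0 := by rw [h, mul_zero, zero_mul]
  have e2 : (j g' - 1) * (j g - 1) = 0 := by
    rw [← sub_mul_self h2', ← self_mul_sub h3]
    calc (j g' - 1) * f' * (f * (j g - 1)) = (j g' - 1) * (f' * f) * (j g - 1) := by
          simp only [mul_assoc]
      _ = 0 := by rw [h', mul_zero, zero_mul]
  apply hinj
  rw [map_mul, map_mul]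
  have e3 : j g * j g' = (j g - 1) * (j g' - 1) + j g + j g' - 1 := by
    rw [sub_mul, mul_sub, one_mul, mul_one]
    abel
  have e4 : j g' * j g = (j g' - 1) * (j g - 1) + j g + j g' - 1 := by
    rw [sub_mul, mul_sub, one_mul, mul_one]
    abel
  rw [e3, e4, e1, e2]

lemma blk_inf (hinj : Function.Injective j) {θ θ' : R ≃+* R} {f f' : R} (h' : f' * f = 0) {g : S}
    (hg : g ∈ Blk j θ f) (hg' : g ∈ Blk j θ' f') : g = 1 := by
  have e1 := sub_mul_self hg.2.1
  have e2 := sub_mul_self hg'.2.1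
  rw [← e2, mul_assoc, h', mul_zero] at e1
  have e3 : j g - 1 = 0 := by rw [← e2]; exact e1.symm
  apply hinj
  rw [map_one]
  exact sub_eq_zero.1 e3

lemma blk_mono {θ : R ≃+* R} {f f' : R} (h1 : f * f' = f') (h2 : f' * f = f') :
    Blk j θ f' ≤ Blk j θ f := by
  rintro g ⟨hg1, hg2, hg3⟩
  refine ⟨hg1, ?_, ?_⟩
  · have e : (1 : R) - f = (1 - f') * (1 - f) := by
      simp only [sub_mul, mul_sub, one_mul, mul_one, h2]
      abel
    rw [e, ← mul_assoc, hg2]
  · have e : (1 : R) - f = (1 - f) * (1 - f') := by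
      simp only [sub_mul, mul_sub, one_mul, mul_one, h1]
      abel
    rw [e, mul_assoc, hg3]

lemma blk_id {θ : R ≃+* R} {f : R} : Blk j θ f ≤ Blk j (RingEquiv.refl R) f := by
  rintro g ⟨_, hg2, hg3⟩
  exact ⟨rfl, hg2, hg3⟩

variable [Finite S] {G : Type w} [Group G] {p : ℕ} [hp : Fact p.Prime] {st : R → R} {ε : S →* G}

/-- **The decomposition** of a maximal elementary abelian subgroup of a block. -/
theorem split (hD : Dat p j st ε) {θ : R ≃+* R} {f : R} (hf : f * f = f)
    (hfθ : θ f = f) {E : Subgroup S} (hE : EA p E) (hne : E ≠ ⊥) (hEB : E ≤ Blk j θ f)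
    (hmax : ∀ F : Subgroup S, EA p F → F ≤ Blk j θ f → E ≤ F → F = E) :
    ∃ (H : Subgroup S) (a : S), H ≤ E ∧ a ∈ E ∧ a ∉ H ∧ H ⊔ zpowers a = E ∧
      av j H * av j H = av j H ∧ st (av j H) = av j H ∧ θ (av j H) = av j H ∧
      av j H * (1 - f) = 1 - f ∧ (1 - f) * av j H = 1 - f ∧
      a ∈ Blk j θ (av j H * f) ∧ H ≤ Blk j θ (1 - av j H) ∧
      ∀ F : Subgroup S, EA p F → F ≤ Blk j θ (1 - av j H) → H ≤ F → F = H := by
  obtain ⟨H, hHE, ⟨a₀, ha₀, ha₀H⟩, hkey, hfix⟩ := dec hD.inj hD.unit hE hne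
  have cH := ea_unit hD.unit (ea_mono hE hHE)
  set e := av j H with he
  have he1 : e * e = e := av_idem cH
  have he2 : st e = e := av_st cH hD.one hD.add hD.mul hD.inv
  have he3 : θ e = e := av_map cH θ fun x hx => (hEB (hHE hx)).1
  have he4 : e * (1 - f) = 1 - f := av_fix cH fun x hx => (hEB (hHE hx)).2.1
  have he5 : (1 - f) * e = 1 - f := av_fix' cH fun x hx => (hEB (hHE hx)).2.2
  have heE : ∀ x ∈ E, e * j x = j x * e := fun x hx =>
    av_comm cH fun y hy => by rw [← map_mul, ← map_mul, hE.1 y (hHE hy) x hx]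
  have hef : e * f = f * e := by
    have h1 : e - e * f = 1 - f := by rw [← he4, mul_sub, mul_one]
    have h2 : e - f * e = 1 - f := by rw [← he5, sub_mul, one_mul]
    have h3 : e * f = e - (1 - f) := by rw [← h1, sub_sub_cancel]
    have h4 : f * e = e - (1 - f) := by rw [← h2, sub_sub_cancel]
    rw [h3, h4]
  -- the element `a`
  have hi1 : j a₀ * j a₀⁻¹ = 1 := by rw [← map_mul, mul_inv_cancel, map_one]
  have hi2 : j a₀⁻¹ * j a₀ = 1 := by rw [← map_mul, inv_mul_cancel, map_one]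
  have hz : e * (1 - e) = 0 := by rw [mul_sub, mul_one, he1, sub_self]
  have hz' : (1 - e) * e = 0 := by rw [sub_mul, one_mul, he1, sub_self]
  have hq : (1 - e) * (1 - e) = 1 - e := by rw [mul_sub, mul_one, hz', sub_zero]
  have hs0 : st 0 = 0 := by
    have := st_natCast hD.one hD.add 0
    rwa [Nat.cast_zero] at this
  have hst1 : st (1 - e) = 1 - e := by
    have h1 := hD.add (1 - e) e
    rw [sub_add_cancel, hD.one, he2] at h1
    exact eq_sub_of_add_eq h1.symm
  have hstx : st (j a₀ * e + (1 - e)) = j a₀⁻¹ * e + (1 - e) := by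
    rw [hD.add, hD.mul, he2, hD.inv, hst1, heE _ (inv_mem ha₀)]
  have hprod : ∀ x ∈ E, ∀ y ∈ E, (j x * e + (1 - e)) * (j y * e + (1 - e))
      = j (x * y) * e + (1 - e) := by
    intro x hx y hy
    rw [add_mul, mul_add, mul_add, hq]
    have h1 : j x * e * (j y * e) = j (x * y) * e := by
      rw [← heE y hy, map_mul]
      calc j x * e * (e * j y) = j x * (e * e) * j y := by simp only [mul_assoc]
        _ = j x * (e * j y) := by rw [he1, mul_assoc]
        _ = j x * j y * e := by rw [heE y hy, mul_assoc]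
    have h2 : j x * e * (1 - e) = 0 := by rw [mul_assoc, hz, mul_zero]
    have h3 : (1 - e) * (j y * e) = 0 := by rw [← heE y hy, ← mul_assoc, hz', zero_mul]
    rw [h1, h2, h3, add_zero, zero_add]
  have hone : j (1 : S) * e + (1 - e) = 1 := by rw [map_one, one_mul, add_sub_cancel]
  have hpow : ∀ k : ℕ, (j a₀ * e + (1 - e)) ^ k = j (a₀ ^ k) * e + (1 - e) := by
    intro k
    induction k with
    | zero => rw [pow_zero, pow_zero, hone]
    | succ k ih => rw [pow_succ, ih, hprod _ (pow_mem ha₀ k) _ ha₀, pow_succ]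
  obtain ⟨a, ha⟩ := hD.mem (j a₀ * e + (1 - e))
    (by rw [hstx, hprod _ ha₀ _ (inv_mem ha₀), mul_inv_cancel, hone])
    (by rw [hstx, hprod _ (inv_mem ha₀) _ ha₀, inv_mul_cancel, hone])
    (by rw [hpow, hE.2 a₀ ha₀, hone])
  have hap : a ^ p = 1 := by
    apply hD.inj
    rw [map_pow, ha, hpow, hE.2 a₀ ha₀, hone, map_one]
  have hθx : θ (j a) = j a := by
    rw [ha, map_add, map_mul, map_sub, map_one, he3, (hEB ha₀).1]
  have hae : j a * e = j a₀ * e := by
    rw [ha, add_mul, hz', add_zero, mul_assoc, he1]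
  have hae' : e * j a = j a₀ * e := by
    rw [ha, mul_add, hz, add_zero, ← heE a₀ ha₀, ← mul_assoc, he1]
  have ha1e : j a * (1 - e) = 1 - e := by
    rw [ha, add_mul, hq, mul_assoc, hz, mul_zero, zero_add]
  have ha1e' : (1 - e) * j a = 1 - e := by
    rw [ha, mul_add, hq, ← heE a₀ ha₀, ← mul_assoc, hz', zero_mul, zero_add]
  have haf : j a * (1 - f) = 1 - f := by
    rw [← he4, ← mul_assoc, hae, mul_assoc, he4, (hEB ha₀).2.1]
  have haf' : (1 - f) * j a = 1 - f := by
    rw [← he5, mul_assoc, hae', ← mul_assoc, (hEB ha₀).2.2, he5]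
  have haB : a ∈ Blk j θ f := ⟨hθx, haf, haf'⟩
  have haE : a ∈ E := by
    have hc : ∀ x ∈ E, x * a = a * x := by
      intro x hx
      apply hD.inj
      rw [map_mul, map_mul, ha, mul_add, add_mul, ← mul_assoc, ← map_mul, hE.1 x hx a₀ ha₀,
        map_mul, mul_assoc, ← heE x hx, ← mul_assoc, mul_sub, sub_mul, mul_one, one_mul, heE x hx]
    have h1 := hmax (E ⊔ zpowers a) (ea_sup hE hap hc) (sup_le hEB (zpowers_le.2 haB)) le_sup_left
    rw [← h1]
    exact mem_sup_right (mem_zpowers a)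
  have haH : a ∉ H := by
    intro h
    apply ha₀H
    apply hfix a₀ ha₀
    exact hae.symm.trans (mul_av cH h)
  have hsupE := hkey a haE haH
  have haf1 : j a * (1 - e * f) = 1 - e * f := by
    have h1 : (1 : R) - e * f = (1 - e) + (1 - f) := by
      rw [← he4, mul_sub, mul_one]
      abel
    rw [h1, mul_add, ha1e, haf]
  have haf1' : (1 - e * f) * j a = 1 - e * f := by
    have h1 : (1 : R) - e * f = (1 - e) + (1 - f) := by
      rw [← he4, mul_sub, mul_one]
      abel
    rw [h1, add_mul, ha1e', haf']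
  refine ⟨H, a, hHE, haE, haH, hsupE, he1, he2, he3, he4, he5, ⟨hθx, haf1, haf1'⟩, ?_, ?_⟩
  · intro x hx
    refine ⟨(hEB (hHE hx)).1, ?_, ?_⟩
    · rw [sub_sub_cancel]
      exact mul_av cH hx
    · rw [sub_sub_cancel]
      exact av_mul hx
  · intro F hF hFB hHF
    have hort : ∀ x ∈ F, x * a = a * x := by
      intro x hx
      refine blk_comm (f := 1 - e) (f' := e * f) hD.inj ?_ ?_ (hFB hx) ⟨hθx, haf1, haf1'⟩
      · rw [← mul_assoc, hz', zero_mul]
      · rw [hef, mul_assoc, hz, mul_zero]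
    have hFE : F ⊔ zpowers a = E := by
      refine hmax _ (ea_sup hF hap hort) (sup_le ?_ (zpowers_le.2 haB)) ?_
      · refine hFB.trans (blk_mono ?_ ?_)
        · rw [mul_sub, mul_one, ← hef]
          have h1 : e * f = e - (1 - f) := by rw [← he4, mul_sub, mul_one, sub_sub_cancel]
          rw [h1]
          abel
        · rw [sub_mul, one_mul]
          have h1 : e * f = e - (1 - f) := by rw [← he4, mul_sub, mul_one, sub_sub_cancel]
          rw [h1]
          abel
      · rw [← hsupE]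
        exact sup_le_sup_right hHF _
    refine le_antisymm (fun x hx => ?_) hHF
    have hxE : x ∈ E := hFE ▸ mem_sup_left hx
    refine hfix x hxE ?_
    have h1 := (hFB hx).2.1
    rwa [sub_sub_cancel] at h1

end

end

end Vale.Agent.P240.R2.H687.Odd
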