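import Vale.Agent.P240.R2.H687.OddSplit
import Vale.Agent.P240.R2.H487.CE

/-!
The top cycles of the blocks (P240, odd primes).
-/

set_option autoImplicit false

namespace Vale.Agent.P240.R2.H687.Odd

open Finsupp hiding cons
open Subgroup Vale.Agent.P240.K
open scoped Classical

universe u v w x y

noncomputable section

section
variable {𝕜 : Type x} [Field 𝕜] {G : Type w} [Group G] {p : ℕ} [hp : Fact p.Prime]

lemma zp_ApS {a : G} (hap : a ^ p = 1) (ha : a ≠ 1) : zpowers a ∈ ApS p G := by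
  refine ⟨fun h => ha ?_, ?_, ?_⟩
  · have h1 := mem_zpowers a
    rw [h, mem_bot] at h1
    exact h1
  · rintro _ ⟨k, rfl⟩ _ ⟨l, rfl⟩
    exact zpow_mul_comm a k l
  · rintro _ ⟨k, rfl⟩
    show (a ^ k) ^ p = 1
    rw [← zpow_natCast, ← zpow_mul, mul_comm, zpow_mul, zpow_natCast, hap, one_zpow]

lemma card_zp {a : G} (hap : a ^ p = 1) (ha : a ≠ 1) : Nat.card (zpowers a) = p := by
  rw [Nat.card_zpowers]
  exact orderOf_eq_prime hap ha

/-- two subgroups of order `p` give a cycle -/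
lemma top_two {M : Subgroup G} {a b : G} (haM : a ∈ M) (hbM : b ∈ M) (hap : a ^ p = 1)
    (hbp : b ^ p = 1) (ha : a ≠ 1) (hb : b ≠ 1) (hab : b ∉ zpowers a) :
    ∃ (α : Ch 𝕜 (Subgroup G)) (φ : List (Subgroup G)), TopCycle 𝕜 p M (zpowers a) α φ := by
  have hne : zpowers b ≠ zpowers a := fun h => hab (h ▸ mem_zpowers b)
  have h1 : zpowers a ∈ Ain p M := ⟨zp_ApS hap ha, zpowers_le.2 haM⟩
  have h2 : zpowers b ∈ Ain p M := ⟨zp_ApS hbp hb, zpowers_le.2 hbM⟩
  refine ⟨single [zpowers a] 1 - single [zpowers b] 1, [zpowers a], ?_, ?_, ?_, ?_, ?_⟩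
  · refine Submodule.sub_mem _ (single_mem_Sp ⟨⟨by simp, by simpa using h1⟩, rfl⟩ _)
      (single_mem_Sp ⟨⟨by simp, by simpa using h2⟩, rfl⟩ _)
  · rw [map_sub, bd_single_cons, bd_single_cons]
    simp
  · rw [Finsupp.sub_apply, Finsupp.single_eq_same, Finsupp.single_eq_of_ne (by
      intro h
      exact hne (by simpa using h.symm)), sub_zero]
    exact one_ne_zero
  · exact Or.inr ⟨[], rfl⟩
  · rw [card_zp hap ha]
    simp

lemma top_bot (M : Subgroup G) :
    ∃ (α : Ch 𝕜 (Subgroup G)) (φ : List (Subgroup G)), TopCycle 𝕜 p M ⊥ α φ := by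
  refine ⟨single [] 1, [], ?_, ?_, ?_, Or.inl ⟨rfl, rfl⟩, ?_⟩
  · exact single_mem_Sp ⟨⟨by simp, by simp⟩, rfl⟩ _
  · simp
  · rw [Finsupp.single_eq_same]
    exact one_ne_zero
  · simp

end

section
variable {R : Type u} [Ring R] {S : Type v} [Group S] {j : S →* R} {G : Type w} [Group G]
  {p : ℕ} [hp : Fact p.Prime] {sr : R → R} {ε : S →* G}

lemma one_of_coprime {Γ : Type*} [Group Γ] {x : Γ} {N : ℕ} (hN : ¬ p ∣ N) (h1 : x ^ N = 1)
    (h2 : x ^ p = 1) : x = 1 := by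
  have h3 : x ^ (Nat.gcd N p) = 1 := pow_gcd_eq_one.2 ⟨h1, h2⟩
  have h4 : Nat.gcd N p = 1 := by
    rw [Nat.gcd_comm]
    exact (Nat.Prime.coprime_iff_not_dvd hp.out).2 hN
  rwa [h4, pow_one] at h3

/-- `ε` is injective on elements of order `p` -/
lemma inj_p (hD : Dat p j sr ε) {x y : S} (hx : x ^ p = 1) (hy : y ^ p = 1) (h : ε x = ε y) :
    x = y := by
  obtain ⟨N, hN, hker⟩ := hD.ker
  have h1 : ε (x⁻¹ * y) = 1 := by rw [map_mul, map_inv, h, inv_mul_cancel]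
  obtain ⟨h2, h3⟩ := hker _ h1
  have h4 : Commute x (x⁻¹ * y) := by
    apply hD.inj
    rw [map_mul j x (x⁻¹ * y), map_mul j (x⁻¹ * y) x, h3]
  have h5 : y ^ p = x ^ p * (x⁻¹ * y) ^ p := by
    rw [← h4.mul_pow, mul_inv_cancel_left]
  rw [hx, hy, one_mul] at h5
  have h6 := one_of_coprime hN h2 h5.symm
  rw [inv_mul_eq_one] at h6
  exact h6

/-- elements of two orthogonal blocks with the same image -/
lemma inf_p (hD : Dat p j sr ε) {θ θ' : R ≃+* R} {f f' : R} (hff : f' * f = 0) {x m : S}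
    (hx : x ∈ Blk j θ f) (hxp : x ^ p = 1) (hm : m ∈ Blk j θ' f') (h : ε x = ε m) : x = 1 := by
  obtain ⟨N, hN, hker⟩ := hD.ker
  have h1 : ε (x⁻¹ * m) = 1 := by rw [map_mul, map_inv, h, inv_mul_cancel]
  obtain ⟨h2, h3⟩ := hker _ h1
  have h4 : Commute x (x⁻¹ * m) := by
    apply hD.inj
    rw [map_mul j x (x⁻¹ * m), map_mul j (x⁻¹ * m) x, h3]
  have h5 : m ^ N = x ^ N := by
    have h6 : m = x * (x⁻¹ * m) := by rw [mul_inv_cancel_left]
    rw [h6, h4.mul_pow, h2, mul_one]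
  have h7 : x ^ N ∈ Blk j θ' f' := h5 ▸ pow_mem hm N
  exact one_of_coprime hN (blk_inf hD.inj hff (pow_mem hx N) h7) hxp

lemma sr_one_sub (hD : Dat p j sr ε) {e : R} (he : sr e = e) : sr (1 - e) = 1 - e := by
  have h1 := hD.add (1 - e) e
  rw [sub_add_cancel, hD.one, he] at h1
  exact eq_sub_of_add_eq h1.symm

/-- the facts on the two blocks -/
lemma block_facts {e f : R} (he : e * e = e) (h4 : e * (1 - f) = 1 - f) (h5 : (1 - f) * e = 1 - f)
    (hf : f * f = f) :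
    e * f = f * e ∧ (e * f) * (e * f) = e * f ∧ (1 - e) * (1 - e) = 1 - e ∧
    (e * f) * (1 - e) = 0 ∧ (1 - e) * (e * f) = 0 ∧ f * (e * f) = e * f ∧ (e * f) * f = e * f ∧
    f * (1 - e) = 1 - e ∧ (1 - e) * f = 1 - e := by
  have h1 : e * f = e - (1 - f) := by rw [← h4, mul_sub, mul_one, sub_sub_cancel]
  have h2 : f * e = e - (1 - f) := by rw [← h5, sub_mul, one_mul, sub_sub_cancel]
  have hc : e * f = f * e := by rw [h1, h2]
  have hz : e * (1 - e) = 0 := by rw [mul_sub, mul_one, he, sub_self]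
  have hz' : (1 - e) * e = 0 := by rw [sub_mul, one_mul, he, sub_self]
  refine ⟨hc, ?_, ?_, ?_, ?_, ?_, ?_, ?_, ?_⟩
  · calc e * f * (e * f) = e * (f * e) * f := by simp only [mul_assoc]
      _ = e * (e * f) * f := by rw [hc]
      _ = (e * e) * (f * f) := by simp only [mul_assoc]
      _ = e * f := by rw [he, hf]
  · rw [mul_sub, mul_one, hz', sub_zero]
  · rw [hc, mul_assoc, hz, mul_zero]
  · rw [← mul_assoc, hz', zero_mul]
  · rw [hc, ← mul_assoc, hf]
  · rw [mul_assoc, hf]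
  · rw [mul_sub, mul_one, h2]
    abel
  · rw [sub_mul, one_mul, h1]
    abel

variable [Finite S] [Finite G]

/-- **The top cycles of the blocks.** -/
theorem tops (𝕜 : Type x) [Field 𝕜] (hD : Dat p j sr ε) {θ : R ≃+* R} (hN : NN p j sr θ) :
    ∀ (k : ℕ) (E : Subgroup S) (f : R), Nat.card E = k → f * f = f → sr f = f → θ f = f →
      EA p E → E ≤ Blk j θ f →
      (∀ F : Subgroup S, EA p F → F ≤ Blk j θ f → E ≤ F → F = E) →
      ∃ (α : Ch 𝕜 (Subgroup G)) (φ : List (Subgroup G)),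
        TopCycle 𝕜 p ((Blk j θ f).map ε) (E.map ε) α φ := by
  intro k
  induction k using Nat.strong_induction_on with
  | _ k ih =>
    intro E f hk hf hfs hfθ hE hEB hmax
    by_cases hne : E = ⊥
    · subst hne
      rw [Subgroup.map_bot]
      exact top_bot _
    obtain ⟨H, a, hHE, haE, haH, hsup, he1, he2, he3, he4, he5, haB, hHB, hHmax⟩ :=
      split hD hf hfθ hE hne hEB hmax
    obtain ⟨hc, q1, q2, z1, z2, m1, m2, m3, m4⟩ := block_facts he1 he4 he5 hf
    have hap := hE.2 a haE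
    have ha1 : a ≠ 1 := fun h => haH (h ▸ one_mem H)
    have hf1s : sr (av j H * f) = av j H * f := by rw [hD.mul, hfs, he2, hc]
    have hf1θ : θ (av j H * f) = av j H * f := by rw [map_mul, he3, hfθ]
    have hf2s : sr (1 - av j H) = 1 - av j H := sr_one_sub hD he2
    have hf2θ : θ (1 - av j H) = 1 - av j H := by rw [map_sub, map_one, he3]
    -- the first block
    obtain ⟨h, hh1, hh2, hh3, hh4⟩ := hN (av j H * f) q1 hf1s hf1θ a hap ha1 haB.1 haB.2.1 haB.2.2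
    have hhB : h ∈ Blk j θ (av j H * f) := ⟨hh1, hh2, hh3⟩
    have hbB : h * a * h⁻¹ ∈ Blk j θ (av j H * f) := mul_mem (mul_mem hhB haB) (inv_mem hhB)
    have hbp : (h * a * h⁻¹) ^ p = 1 := by rw [conj_pow, hap, mul_one, mul_inv_cancel]
    have hb1 : h * a * h⁻¹ ≠ 1 := fun h0 => hh4 (h0 ▸ one_mem _)
    have hεa : ε a ≠ 1 := fun h0 => ha1 (inj_p hD hap (one_pow p) (by rw [h0, map_one]))
    have hεb : ε (h * a * h⁻¹) ≠ 1 := fun h0 => hb1 (inj_p hD hbp (one_pow p) (by rw [h0, map_one]))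
    have hab : ε (h * a * h⁻¹) ∉ zpowers (ε a) := by
      rintro ⟨l, hl⟩
      apply hh4
      have hl : ε a ^ l = ε (h * a * h⁻¹) := hl
      rw [← map_zpow] at hl
      have h1 : (a ^ l) ^ p = 1 := by
        rw [← zpow_natCast, ← zpow_mul, mul_comm, zpow_mul, zpow_natCast, hap, one_zpow]
      rw [← inj_p hD h1 hbp hl]
      exact zpow_mem (mem_zpowers a) l
    obtain ⟨α₁, φ₁, hT1⟩ := top_two (𝕜 := 𝕜) (p := p) (M := (Blk j θ (av j H * f)).map ε)
      (mem_map_of_mem ε haB) (mem_map_of_mem ε hbB) (by rw [← map_pow, hap, map_one])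
      (by rw [← map_pow, hbp, map_one]) hεa hεb hab
    -- the second block
    have hlt : Nat.card H < k := by
      rw [← hk]
      have h1 : H < E := lt_of_le_of_ne hHE (fun h0 => haH (h0 ▸ haE))
      exact Set.ncard_lt_ncard h1 (Set.toFinite _)
    obtain ⟨α₂, φ₂, hT2⟩ := ih (Nat.card H) hlt H (1 - av j H) rfl q2 hf2s hf2θ
      (ea_mono hE hHE) hHB hHmax
    obtain ⟨α, φ, hT⟩ := H487.topCycle_join hT1 hT2 (by
      rintro _ ⟨x, hx, rfl⟩ _ ⟨y, hy, rfl⟩
      rw [← map_mul, ← map_mul, blk_comm hD.inj z1 z2 hx hy]) (by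
      rw [eq_bot_iff]
      rintro _ ⟨⟨l, rfl⟩, ⟨m, hm, hm'⟩⟩
      rw [mem_bot]
      show ε a ^ l = 1
      have hm' : ε m = ε a ^ l := hm'
      rw [← map_zpow] at hm' ⊢
      have h1 : (a ^ l) ^ p = 1 := by
        rw [← zpow_natCast, ← zpow_mul, mul_comm, zpow_mul, zpow_natCast, hap, one_zpow]
      rw [inf_p hD z2 (zpow_mem haB l) h1 hm hm'.symm, map_one])
    refine ⟨α, φ, ?_⟩
    have hE' : E.map ε = zpowers (ε a) ⊔ H.map ε := by
      rw [← hsup, Subgroup.map_sup, MonoidHom.map_zpowers, sup_comm]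
    rw [hE']
    exact r5_mono (sup_le (Subgroup.map_mono (blk_mono m1 m2)) (Subgroup.map_mono (blk_mono m3 m4)))
      hT

end

end

end Vale.Agent.P240.R2.H687.Odd
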