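import Vale.Agent.P240.R2.H687.TDefs
import Vale.Agent.P240.R2.H275.F3c
import Mathlib.GroupTheory.Perm.Cycle.Type
import Mathlib.FieldTheory.Finiteness

/-!
A decomposition of the space of dimension `8` into two spaces of dimension `4` of minus type.
-/

set_option autoImplicit false
set_option linter.all false

namespace Vale.Agent.P240.R2.H687.T

open Matrix Vale.Agent.P240.R2.H145.EO
open Vale.Agent.P240.R2.H401.D (fd)

universe u v

/-- the norms of the basis -/
def nn {K : Type u} [Field K] (ε : K) : Fin 8 → K := ![1, -1, 1, -ε, 1, -1, 1, -ε]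

section

variable {K : Type u} [Field K] {a : Fin 8 → K} {ε : K} {y : Fin 8 → Fin 8 → K}

/-- an orthogonal basis with norms `nn ε` -/
structure Bs (a : Fin 8 → K) (ε : K) (y : Fin 8 → Fin 8 → K) : Prop where
  orth : ∀ i j, B a (y i) (y j) = if i = j then nn ε i else 0
  h2 : (2 : K) ≠ 0
  ne : ε ≠ 0

lemma nn_ne (h : ε ≠ 0) (i : Fin 8) : nn ε i ≠ 0 := by
  fin_cases i <;> simp [nn, h]

lemma Bs.expand (h : Bs a ε y) (v : Fin 8 → K) : v = ∑ i, (B a (y i) v / nn ε i) • y i := by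
  let Y : Matrix (Fin 8) (Fin 8) K := Matrix.of fun s i => y i s
  let Z : Matrix (Fin 8) (Fin 8) K := Matrix.of fun i s => (nn ε i)⁻¹ * (a s * y i s)
  have h1 : Z * Y = 1 := by
    ext i j
    rw [Matrix.mul_apply, Matrix.one_apply]
    have e1 : ∑ s, Z i s * Y s j = (nn ε i)⁻¹ * B a (y i) (y j) := by
      unfold B
      rw [Finset.mul_sum]
      refine Finset.sum_congr rfl fun s _ => ?_
      show (nn ε i)⁻¹ * (a s * y i s) * y j s = _
      ring
    rw [e1, h.orth]
    split_ifs with hij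
    · exact inv_mul_cancel₀ (nn_ne h.ne i)
    · rw [mul_zero]
  have h3 : Y * Z = 1 := _root_.mul_eq_one_comm.1 h1
  have h4 : (Y * Z) *ᵥ v = v := by rw [h3, one_mulVec]
  rw [← mulVec_mulVec] at h4
  conv_lhs => rw [← h4]
  funext s
  rw [Finset.sum_apply]
  show ∑ i, Y s i * (Z *ᵥ v) i = _
  refine Finset.sum_congr rfl fun i _ => ?_
  show y i s * (∑ t, (nn ε i)⁻¹ * (a t * y i t) * v t) = (B a (y i) v / nn ε i) * y i s
  have e1 : ∑ t, (nn ε i)⁻¹ * (a t * y i t) * v t = B a (y i) v / nn ε i := by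
    unfold B
    rw [div_eq_inv_mul, Finset.mul_sum]
    exact Finset.sum_congr rfl fun t _ => by ring
  rw [e1]
  ring

/-- two vectors are equal if they have the same products with the basis -/
lemma Bs.ext (h : Bs a ε y) {v w : Fin 8 → K} (H : ∀ i, B a (y i) v = B a (y i) w) : v = w := by
  rw [h.expand v, h.expand w]
  exact Finset.sum_congr rfl fun i _ => by rw [H i]

/-- the space spanned by the first four vectors -/
def V4 (a : Fin 8 → K) (y : Fin 8 → Fin 8 → K) : Submodule K (Fin 8 → K) where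
  carrier := {v | B a (y 4) v = 0 ∧ B a (y 5) v = 0 ∧ B a (y 6) v = 0 ∧ B a (y 7) v = 0}
  add_mem' := by
    rintro v w ⟨h1, h2, h3, h4⟩ ⟨g1, g2, g3, g4⟩
    refine ⟨?_, ?_, ?_, ?_⟩ <;> rw [B_add_right] <;> simp only [*, add_zero]
  zero_mem' := by
    have h0 : ∀ w, B a w 0 = 0 := fun w => by
      have := B_smul_right (a := a) 0 w 0
      rwa [zero_smul, zero_mul] at this
    exact ⟨h0 _, h0 _, h0 _, h0 _⟩
  smul_mem' := by
    rintro t v ⟨h1, h2, h3, h4⟩
    refine ⟨?_, ?_, ?_, ?_⟩ <;> rw [B_smul_right] <;> simp only [*, mul_zero]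

lemma mem_V4 {v : Fin 8 → K} : v ∈ V4 a y ↔
    B a (y 4) v = 0 ∧ B a (y 5) v = 0 ∧ B a (y 6) v = 0 ∧ B a (y 7) v = 0 := Iff.rfl

/-- the map from `K ^ 4` -/
def ph (y : Fin 8 → Fin 8 → K) (v : Fin 4 → K) : Fin 8 → K :=
  v 0 • y 0 + v 1 • y 1 + v 2 • y 2 + v 3 • y 3

lemma Bs.B_ph (h : Bs a ε y) (i : Fin 8) (v : Fin 4 → K) : B a (y i) (ph y v) =
    v 0 * (if i = 0 then nn ε i else 0) + v 1 * (if i = 1 then nn ε i else 0) +
      v 2 * (if i = 2 then nn ε i else 0) + v 3 * (if i = 3 then nn ε i else 0) := by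
  unfold ph
  simp only [B_add_right, B_smul_right, h.orth]

lemma Bs.ph_mem (h : Bs a ε y) (v : Fin 4 → K) : ph y v ∈ V4 a y := by
  rw [mem_V4]
  refine ⟨?_, ?_, ?_, ?_⟩ <;> rw [h.B_ph] <;> simp

lemma Bs.ph_self (h : Bs a ε y) (v : Fin 4 → K) :
    B a (ph y v) (ph y v) = v 0 ^ 2 - v 1 ^ 2 + v 2 ^ 2 - ε * v 3 ^ 2 := by
  have e1 : B a (ph y v) (ph y v) = v 0 * B a (y 0) (ph y v) + v 1 * B a (y 1) (ph y v) +
      v 2 * B a (y 2) (ph y v) + v 3 * B a (y 3) (ph y v) := by
    conv_lhs => rw [show ph y v = v 0 • y 0 + v 1 • y 1 + v 2 • y 2 + v 3 • y 3 from rfl,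
      B_add_left, B_add_left, B_add_left, B_smul_left, B_smul_left, B_smul_left, B_smul_left]
    rfl
  rw [e1, h.B_ph, h.B_ph, h.B_ph, h.B_ph]
  simp [nn]
  ring

lemma Bs.eq_ph (h : Bs a ε y) {v : Fin 8 → K} (hv : v ∈ V4 a y) :
    v = ph y ![B a (y 0) v, -B a (y 1) v, B a (y 2) v, -(B a (y 3) v / ε)] := by
  obtain ⟨h4, h5, h6, h7⟩ := hv
  have hε := h.ne
  apply h.ext
  intro i
  rw [h.B_ph]
  fin_cases i
  · simp [nn]
  · simp [nn]
  · simp [nn]
  · simp [nn]
    field_simp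
  · simp [h4]
  · simp [h5]
  · simp [h6]
  · simp [h7]

/-- `K ^ 4` and `V4` -/
noncomputable def Bs.eqv (h : Bs a ε y) : (Fin 4 → K) ≃ₗ[K] V4 a y :=
  LinearEquiv.ofBijective
    { toFun := fun v => (⟨ph y v, h.ph_mem v⟩ : V4 a y)
      map_add' := fun v w => Subtype.ext (by
        show ph y (v + w) = ph y v + ph y w
        unfold ph
        simp only [Pi.add_apply]
        module)
      map_smul' := fun t v => Subtype.ext (by
        show ph y (t • v) = t • ph y v
        unfold ph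
        simp only [Pi.smul_apply, smul_eq_mul]
        module) }
    ⟨fun v w hvw => by
      have e : ph y v = ph y w := congrArg Subtype.val hvw
      have hε := h.ne
      funext i
      fin_cases i
      · have := congrArg (B a (y 0)) e
        rw [h.B_ph, h.B_ph] at this
        simpa [nn] using this
      · have := congrArg (B a (y 1)) e
        rw [h.B_ph, h.B_ph] at this
        simpa [nn] using this
      · have := congrArg (B a (y 2)) e
        rw [h.B_ph, h.B_ph] at this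
        simpa [nn] using this
      · have := congrArg (B a (y 3)) e
        rw [h.B_ph, h.B_ph] at this
        simpa [nn, hε] using this,
    fun v => ⟨_, Subtype.ext (h.eq_ph v.2).symm⟩⟩

lemma Bs.finrank (h : Bs a ε y) : Module.finrank K (V4 a y) = 4 := by
  rw [← h.eqv.finrank_eq, Module.finrank_fin_fun]

/-- the vectors of norm one in `V4` -/
def X1 (a : Fin 8 → K) (y : Fin 8 → Fin 8 → K) : Type u := {v : Fin 8 → K // v ∈ V4 a y ∧ B a v v = 1}

theorem Bs.card_X1 [Fintype K] (h : Bs a ε y) (hC : StmtCount.{u}) (hε : ¬ IsSquare ε) :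
    Nat.card (X1 a y) = Nat.card K ^ 3 + Nat.card K := by
  rw [← hC K ε h.h2 hε]
  refine Nat.card_congr (Equiv.symm (Equiv.ofBijective (fun v => ⟨ph y v.1, h.ph_mem v.1, by
    rw [h.ph_self]; exact v.2⟩) ⟨fun v w hvw => ?_, fun v => ?_⟩))
  · have e : ph y v.1 = ph y w.1 := congrArg Subtype.val hvw
    apply Subtype.ext
    apply h.eqv.injective
    exact Subtype.ext e
  · have e := h.eq_ph v.2.1
    refine ⟨⟨![B a (y 0) v.1, -B a (y 1) v.1, B a (y 2) v.1, -(B a (y 3) v.1 / ε)], ?_⟩,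
      Subtype.ext e.symm⟩
    rw [← h.ph_self, ← e]
    exact v.2.2

end

end Vale.Agent.P240.R2.H687.T
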