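import Vale.Agent.P240.R2.H687.TA

/-!
An isometry of prime order that acts irreducibly on a space of dimension `4`.
-/

set_option autoImplicit false
set_option linter.all false

namespace Vale.Agent.P240.R2.H687.T

open Matrix Subgroup Vale.Agent.P240.R2.H145.EO
open Vale.Agent.P240.R2.H401.D (fd)

universe u v

section

variable {K : Type u} [Field K] {a : Fin 8 → K} {ε : K} {y : Fin 8 → Fin 8 → K}

/-- the isometries that are trivial on the second space -/
def G8 (a : Fin 8 → K) (y : Fin 8 → Fin 8 → K) : Subgroup (GL (Fin 8) K) where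
  carrier := {g | g ∈ OD a ∧ ac g (y 4) = y 4 ∧ ac g (y 5) = y 5 ∧ ac g (y 6) = y 6 ∧
    ac g (y 7) = y 7}
  mul_mem' := by
    rintro g h ⟨h0, h4, h5, h6, h7⟩ ⟨g0, g4, g5, g6, g7⟩
    exact ⟨mul_mem h0 g0, by rw [ac_mul, g4, h4], by rw [ac_mul, g5, h5], by rw [ac_mul, g6, h6],
      by rw [ac_mul, g7, h7]⟩
  one_mem' := ⟨one_mem _, ac_one _, ac_one _, ac_one _, ac_one _⟩
  inv_mem' := by
    rintro g ⟨h0, h4, h5, h6, h7⟩
    refine ⟨inv_mem h0, ?_, ?_, ?_, ?_⟩
    · conv_lhs => rw [← h4]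
      exact ac_inv _ _
    · conv_lhs => rw [← h5]
      exact ac_inv _ _
    · conv_lhs => rw [← h6]
      exact ac_inv _ _
    · conv_lhs => rw [← h7]
      exact ac_inv _ _

lemma G8_V4 {g : GL (Fin 8) K} (hg : g ∈ G8 a y) {v : Fin 8 → K} (hv : v ∈ V4 a y) :
    ac g v ∈ V4 a y := by
  obtain ⟨h0, h4, h5, h6, h7⟩ := hg
  obtain ⟨v4, v5, v6, v7⟩ := hv
  refine ⟨?_, ?_, ?_, ?_⟩
  · rw [← h4, OD_B h0, v4]
  · rw [← h5, OD_B h0, v5]
  · rw [← h6, OD_B h0, v6]
  · rw [← h7, OD_B h0, v7]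

lemma rf_G8 {w : Fin 8 → K} (hw : w ∈ V4 a y) (h : B a w w ≠ 0) : rf a w h ∈ G8 a y := by
  obtain ⟨h4, h5, h6, h7⟩ := hw
  exact ⟨rf_mem h, rf_fix h (by rw [B_comm]; exact h4), rf_fix h (by rw [B_comm]; exact h5),
    rf_fix h (by rw [B_comm]; exact h6), rf_fix h (by rw [B_comm]; exact h7)⟩

noncomputable instance : MulAction (G8 a y) (X1 a y) where
  smul g v := ⟨ac g.1 v.1, G8_V4 g.2 v.2.1, by rw [OD_B g.2.1]; exact v.2.2⟩
  one_smul v := Subtype.ext (ac_one _)
  mul_smul g h v := Subtype.ext (ac_mul _ _ _)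

lemma smul_coe (g : G8 a y) (v : X1 a y) : (g • v).1 = ac g.1 v.1 := rfl

lemma trans_G8 (h2 : (2 : K) ≠ 0) : MulAction.IsPretransitive (G8 a y) (X1 a y) := by
  constructor
  intro u v
  have hu0 : B a u.1 u.1 ≠ 0 := by rw [u.2.2]; exact one_ne_zero
  have hv0 : B a v.1 v.1 ≠ 0 := by rw [v.2.2]; exact one_ne_zero
  have huv : B a u.1 u.1 = B a v.1 v.1 := by rw [u.2.2, v.2.2]
  rcases exists_pm h2 hu0 huv with h | h
  · exact ⟨⟨rf a _ h, rf_G8 (sub_mem u.2.1 v.2.1) h⟩, Subtype.ext (rf_sub huv h)⟩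
  · refine ⟨⟨rf a _ hv0 * rf a _ h, mul_mem (rf_G8 v.2.1 hv0) (rf_G8 (add_mem u.2.1 v.2.1) h)⟩,
      Subtype.ext ?_⟩
    show ac (rf a _ hv0 * rf a _ h) u.1 = v.1
    rw [ac_mul, rf_add huv h, ac_rf, B_neg_right, v.2.2]
    module

/-- the element of order `l` -/
structure Sd (a : Fin 8 → K) (y : Fin 8 → Fin 8 → K) (l : ℕ) (s : GL (Fin 8) K) : Prop where
  mem : s ∈ G8 a y
  prime : l.Prime
  pw : s ^ l = 1
  ne : s ≠ 1
  hq : ¬ l ∣ Nat.card K
  h4 : ∀ j, 0 < j → j < 4 → ¬ l ∣ Nat.card K ^ j - 1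

theorem exists_s [Fintype K] (h : Bs a ε y) (hC : StmtCount.{u}) (hε : ¬ IsSquare ε) {l : ℕ}
    (hl : l.Prime) (hl2 : l ∣ Nat.card K ^ 2 + 1)
    (h4 : ∀ j, 0 < j → j < 4 → ¬ l ∣ Nat.card K ^ j - 1) : ∃ s, Sd a y l s := by
  have := trans_G8 (a := a) (y := y) h.h2
  have : Fact l.Prime := ⟨hl⟩
  have x0 : X1 a y := ⟨y 0, by
    rw [mem_V4, h.orth, h.orth, h.orth, h.orth]
    simp, by rw [h.orth]; simp [nn]⟩
  have h1 : l ∣ Nat.card (G8 a y) := by
    refine dvd_trans ?_ (MulAction.stabilizer (G8 a y) x0).index_dvd_card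
    rw [MulAction.index_stabilizer_of_transitive, h.card_X1 hC hε]
    obtain ⟨k, hk⟩ := hl2
    exact ⟨k * Nat.card K, by rw [← mul_assoc, ← hk]; ring⟩
  obtain ⟨s, hs⟩ := exists_prime_orderOf_dvd_card' l h1
  refine ⟨s.1, s.2, hl, ?_, ?_, ?_, h4⟩
  · have := pow_orderOf_eq_one s
    rw [hs] at this
    exact congrArg Subtype.val this
  · intro h0
    have : s = 1 := Subtype.ext h0
    rw [this, orderOf_one] at hs
    exact hl.one_lt.ne hs
  · intro h0
    have h3 : l ∣ Nat.card K ^ 2 := dvd_pow h0 two_ne_zero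
    have h5 := (Nat.dvd_add_right h3).1 hl2
    exact hl.one_lt.ne' (Nat.dvd_one.1 h5)

/-- fixed points modulo `l` -/
lemma card_fix [Finite K] {g : GL (Fin 8) K} {l : ℕ} (hl : l.Prime) (hg : g ^ l = 1)
    {U W : Submodule K (Fin 8 → K)} (hU : ∀ v ∈ U, ac g v ∈ U)
    (hW : ∀ v, v ∈ W ↔ v ∈ U ∧ ac g v = v) : Nat.card U ≡ Nat.card W [MOD l] := by
  classical
  have : Fact l.Prime := ⟨hl⟩
  have : Fintype U := Fintype.ofFinite _
  let f : Function.End U := fun v => ⟨ac g v.1, hU _ v.2⟩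
  have hpow : ∀ (k : ℕ) (v : U), ((f ^ k) v).1 = ac (g ^ k) v.1 := by
    intro k
    induction k with
    | zero => intro v; exact (ac_one _).symm
    | succ k ih =>
      intro v
      rw [pow_succ', pow_succ', ac_mul, ← ih]
      rfl
  have hf : f ^ l ^ 1 = 1 := by
    funext v
    apply Subtype.ext
    rw [pow_one, hpow, hg]
    exact ac_one _
  have h1 := Equiv.Perm.card_fixedPoints_modEq hf
  rw [← Nat.card_eq_fintype_card, ← Nat.card_eq_fintype_card] at h1
  have e : Nat.card ↑(Function.fixedPoints f) = Nat.card W := by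
    refine Nat.card_congr
      { toFun := fun v => ⟨v.1.1, (hW _).2 ⟨v.1.2, congrArg Subtype.val v.2⟩⟩
        invFun := fun v => ⟨⟨v.1, ((hW _).1 v.2).1⟩, Subtype.ext ((hW _).1 v.2).2⟩
        left_inv := fun v => rfl
        right_inv := fun v => rfl }
  rwa [e] at h1

/-- the fixed vectors of `g` in `U` -/
def Fx (g : GL (Fin 8) K) (U : Submodule K (Fin 8 → K)) : Submodule K (Fin 8 → K) where
  carrier := {v | v ∈ U ∧ ac g v = v}
  add_mem' := by
    rintro v w ⟨h1, h2⟩ ⟨g1, g2⟩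
    exact ⟨add_mem h1 g1, by rw [ac_add, h2, g2]⟩
  zero_mem' := ⟨zero_mem _, mulVec_zero _⟩
  smul_mem' := by
    rintro t v ⟨h1, h2⟩
    exact ⟨U.smul_mem t h1, by rw [ac_smul, h2]⟩

lemma mem_Fx {g : GL (Fin 8) K} {U : Submodule K (Fin 8 → K)} {v : Fin 8 → K} :
    v ∈ Fx g U ↔ v ∈ U ∧ ac g v = v := Iff.rfl

lemma Sd.rank [Finite K] {l : ℕ} {s : GL (Fin 8) K} (h : Sd a y l s)
    {U : Submodule K (Fin 8 → K)} (hU : ∀ v ∈ U, ac s v ∈ U) :
    Module.finrank K U ≤ Module.finrank K (Fx s U) ∨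
      Module.finrank K (Fx s U) + 4 ≤ Module.finrank K U := by
  by_contra hcon
  push Not at hcon
  obtain ⟨h1, h2⟩ := hcon
  have h3 := card_fix h.prime h.pw hU (W := Fx s U) (fun v => mem_Fx)
  rw [Module.natCard_eq_pow_finrank (K := K) (V := U),
    Module.natCard_eq_pow_finrank (K := K) (V := Fx s U)] at h3
  obtain ⟨j, hj⟩ := Nat.exists_eq_add_of_lt h1
  have hq1 : 1 < Nat.card K := Finite.one_lt_card
  have hle : Nat.card K ^ Module.finrank K (Fx s U) ≤ Nat.card K ^ Module.finrank K U :=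
    Nat.pow_le_pow_right (by omega) (by omega)
  have h4 := (Nat.modEq_iff_dvd' hle).1 h3.symm
  have h5 : Nat.card K ^ Module.finrank K U - Nat.card K ^ Module.finrank K (Fx s U) =
      Nat.card K ^ Module.finrank K (Fx s U) * (Nat.card K ^ (j + 1) - 1) := by
    rw [Nat.mul_sub, mul_one, ← pow_add, hj]
    rfl
  rw [h5] at h4
  rcases (h.prime.dvd_mul).1 h4 with h6 | h6
  · exact h.hq (h.prime.dvd_of_dvd_pow h6)
  · exact h.h4 (j + 1) (by omega) (by omega) h6

/-- vectors fixed by `s` in `V4` -/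
lemma Sd.fix0 [Finite K] {l : ℕ} {s : GL (Fin 8) K} (h : Sd a y l s) (hb : Bs a ε y)
    {v : Fin 8 → K} (hv : v ∈ V4 a y) (hs : ac s v = v) : v = 0 := by
  have hU : ∀ v ∈ V4 a y, ac s v ∈ V4 a y := fun v hv => G8_V4 h.mem hv
  have h0 : Fx s (V4 a y) = ⊥ ∨ Fx s (V4 a y) = V4 a y := by
    have hle : Fx s (V4 a y) ≤ V4 a y := fun v hv => hv.1
    rcases h.rank hU with h1 | h1
    · right
      exact Submodule.eq_of_le_of_finrank_eq hle (le_antisymm (Submodule.finrank_mono hle) h1)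
    · left
      rw [hb.finrank] at h1
      exact Submodule.finrank_eq_zero.1 (by omega)
  rcases h0 with h0 | h0
  · have h1 : v ∈ Fx s (V4 a y) := ⟨hv, hs⟩
    rw [h0] at h1
    exact (Submodule.mem_bot K).1 h1
  · exfalso
    apply h.ne
    have hall : ∀ i, ac s (y i) = y i := by
      have hlo : ∀ i : Fin 8, y i ∈ V4 a y → ac s (y i) = y i := by
        intro i hi
        rw [← h0] at hi
        exact hi.2
      intro i
      obtain ⟨-, h4, h5, h6, h7⟩ := h.mem
      fin_cases i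
      · exact hlo 0 (by rw [mem_V4, hb.orth, hb.orth, hb.orth, hb.orth]; simp)
      · exact hlo 1 (by rw [mem_V4, hb.orth, hb.orth, hb.orth, hb.orth]; simp)
      · exact hlo 2 (by rw [mem_V4, hb.orth, hb.orth, hb.orth, hb.orth]; simp)
      · exact hlo 3 (by rw [mem_V4, hb.orth, hb.orth, hb.orth, hb.orth]; simp)
      · exact h4
      · exact h5
      · exact h6
      · exact h7
    apply gl_ext
    intro x
    rw [ac_one]
    apply hb.ext
    intro i
    conv_lhs => rw [← hall i]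
    exact OD_B h.mem.1 _ _

/-- `s` acts irreducibly on `V4` -/
lemma Sd.irr [Finite K] {l : ℕ} {s : GL (Fin 8) K} (h : Sd a y l s) (hb : Bs a ε y)
    {U : Submodule K (Fin 8 → K)} (hle : U ≤ V4 a y) (hU : ∀ v ∈ U, ac s v ∈ U) {v : Fin 8 → K}
    (hv : v ∈ U) (hv0 : v ≠ 0) : U = V4 a y := by
  have h0 : Fx s U = ⊥ := by
    rw [Submodule.eq_bot_iff]
    rintro w ⟨hw1, hw2⟩
    exact h.fix0 hb (hle hw1) hw2
  have h1 := h.rank hU
  rw [h0, finrank_bot] at h1
  have h2 : Module.finrank K U ≠ 0 := by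
    intro h3
    have := Submodule.finrank_eq_zero.1 h3
    rw [this] at hv
    exact hv0 ((Submodule.mem_bot K).1 hv)
  refine Submodule.eq_of_le_of_finrank_eq hle ?_
  have h3 := Submodule.finrank_mono hle
  rw [hb.finrank] at h3 ⊢
  omega

/-- the components of a vector -/
lemma Bs.split (hb : Bs a ε y) (v : Fin 8 → K) : ∃ v1 ∈ V4 a y, ∃ c4 c5 c6 c7 : K,
    v = v1 + (c4 • y 4 + c5 • y 5 + c6 • y 6 + c7 • y 7) := by
  refine ⟨ph y ![B a (y 0) v, -B a (y 1) v, B a (y 2) v, -(B a (y 3) v / ε)], hb.ph_mem _,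
    B a (y 4) v, -B a (y 5) v, B a (y 6) v, -(B a (y 7) v / ε), ?_⟩
  have hε := hb.ne
  apply hb.ext
  intro i
  rw [B_add_right, B_add_right, B_add_right, B_add_right, B_smul_right, B_smul_right,
    B_smul_right, B_smul_right, hb.B_ph, hb.orth, hb.orth, hb.orth, hb.orth]
  fin_cases i
  · simp [nn]
  · simp [nn]
  · simp [nn]
  · simp [nn]
    field_simp
  · simp [nn]
  · simp [nn]
  · simp [nn]
  · simp [nn]
    field_simp

/-- `V4` is the orthogonal complement of the fixed vectors of `s` -/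
lemma Sd.mem_V4_iff [Finite K] {l : ℕ} {s : GL (Fin 8) K} (h : Sd a y l s) (hb : Bs a ε y)
    (v : Fin 8 → K) : v ∈ V4 a y ↔ ∀ w, ac s w = w → B a w v = 0 := by
  obtain ⟨-, h4, h5, h6, h7⟩ := h.mem
  constructor
  · rintro hv w hw
    obtain ⟨w1, hw1, c4, c5, c6, c7, rfl⟩ := hb.split w
    have h8 : ac s (c4 • y 4 + c5 • y 5 + c6 • y 6 + c7 • y 7) =
        c4 • y 4 + c5 • y 5 + c6 • y 6 + c7 • y 7 := by
      rw [ac_add, ac_add, ac_add, ac_smul, ac_smul, ac_smul, ac_smul, h4, h5, h6, h7]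
    rw [ac_add, h8, add_left_inj] at hw
    have h9 := h.fix0 hb hw1 hw
    obtain ⟨v4, v5, v6, v7⟩ := hv
    rw [h9, zero_add, B_add_left, B_add_left, B_add_left, B_smul_left, B_smul_left, B_smul_left,
      B_smul_left, v4, v5, v6, v7]
    ring
  · intro H
    exact ⟨H _ h4, H _ h5, H _ h6, H _ h7⟩

/-- maps that commute with `s` and preserve orthogonality preserve `V4` -/
lemma Sd.pres [Finite K] {l : ℕ} {s : GL (Fin 8) K} (h : Sd a y l s) (hb : Bs a ε y)
    {g g' : (Fin 8 → K) → Fin 8 → K} (hgg : ∀ w, g (g' w) = w)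
    (hg : ∀ v, ac s (g v) = g (ac s v)) (hinj : Function.Injective g)
    (ho : ∀ v w, B a v w = 0 → B a (g v) (g w) = 0) {v : Fin 8 → K} (hv : v ∈ V4 a y) :
    g v ∈ V4 a y := by
  rw [h.mem_V4_iff hb] at hv ⊢
  intro w hw
  have h1 : ac s (g' w) = g' w := by
    apply hinj
    rw [← hg, hgg, hw]
  have h2 := ho _ _ (hv _ h1)
  rwa [hgg] at h2

lemma Sd.presO [Finite K] {l : ℕ} {s : GL (Fin 8) K} (h : Sd a y l s) (hb : Bs a ε y)
    {x : GL (Fin 8) K} (hx : x ∈ OD a) (hc : s * x = x * s) {v : Fin 8 → K} (hv : v ∈ V4 a y) :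
    ac x v ∈ V4 a y := by
  refine h.pres hb (g := ac x) (g' := ac x⁻¹) (fun w => ac_inv' _ _) (fun v => ?_) (fun v w hvw => ?_)
    (fun v w hvw => ?_) hv
  · rw [← ac_mul, hc, ac_mul]
  · rw [← ac_inv x v, hvw, ac_inv]
  · rw [OD_B hx]
    exact hvw

/-- an element commuting with `s` that fixes a vector of `V4` -/
lemma Sd.triv [Finite K] {l : ℕ} {s : GL (Fin 8) K} (h : Sd a y l s) (hb : Bs a ε y)
    {x : GL (Fin 8) K} (hc : s * x = x * s) {v : Fin 8 → K} (hv : v ∈ V4 a y) (hv0 : v ≠ 0)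
    (hxv : ac x v = v) {w : Fin 8 → K} (hw : w ∈ V4 a y) : ac x w = w := by
  have h1 : Fx x (V4 a y) = V4 a y := by
    refine h.irr hb (fun v hv => hv.1) (fun v hv => ⟨G8_V4 h.mem hv.1, ?_⟩) (v := v) ⟨hv, hxv⟩ hv0
    rw [← ac_mul, ← hc, ac_mul, hv.2]
  rw [← h1] at hw
  exact hw.2

/-- elements of order `3` that commute with `s` are trivial on `V4` -/
theorem Sd.three [Fintype K] {l : ℕ} {s : GL (Fin 8) K} (h : Sd a y l s) (hb : Bs a ε y)
    (hC : StmtCount.{u}) (hε : ¬ IsSquare ε) (h3 : ¬ 3 ∣ Nat.card K) {x : GL (Fin 8) K}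
    (hx : x ∈ OD a) (hc : s * x = x * s) (hx3 : x ^ 3 = 1) {w : Fin 8 → K} (hw : w ∈ V4 a y) :
    ac x w = w := by
  classical
  have : Fact (Nat.Prime 3) := ⟨Nat.prime_three⟩
  have : Finite (X1 a y) := Subtype.finite
  have : Fintype (X1 a y) := Fintype.ofFinite _
  let f : Function.End (X1 a y) := fun v => ⟨ac x v.1, h.presO hb hx hc v.2.1, by
    rw [OD_B hx]; exact v.2.2⟩
  have hpow : ∀ (k : ℕ) (v : X1 a y), ((f ^ k) v).1 = ac (x ^ k) v.1 := by
    intro k
    induction k with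
    | zero => intro v; exact (ac_one _).symm
    | succ k ih =>
      intro v
      rw [pow_succ', pow_succ', ac_mul, ← ih]
      rfl
  have hf : f ^ 3 ^ 1 = 1 := by
    funext v
    apply Subtype.ext
    rw [pow_one, hpow, hx3]
    exact ac_one _
  have h1 := Equiv.Perm.card_fixedPoints_modEq hf
  rw [← Nat.card_eq_fintype_card, ← Nat.card_eq_fintype_card, hb.card_X1 hC hε] at h1
  have h4 : Nat.card ↑(Function.fixedPoints f) ≠ 0 := by
    intro h0
    rw [h0] at h1
    have h5 := (Nat.modEq_zero_iff_dvd).1 h1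
    have h6 : Nat.card K ^ 3 + Nat.card K = Nat.card K * (Nat.card K ^ 2 + 1) := by ring
    rw [h6] at h5
    rcases (Nat.prime_three.dvd_mul).1 h5 with h7 | h7
    · exact h3 h7
    · have h8 : (Nat.card K ^ 2 + 1) % 3 = 0 := Nat.mod_eq_zero_of_dvd h7
      have h9 : Nat.card K % 3 = 0 ∨ Nat.card K % 3 = 1 ∨ Nat.card K % 3 = 2 := by omega
      generalize Nat.card K = q at h8 h9
      rcases h9 with h9 | h9 | h9 <;> simp [Nat.add_mod, Nat.pow_mod, h9] at h8
  obtain ⟨v⟩ := (Nat.card_ne_zero.1 h4).1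
  have hv : ac x v.1.1 = v.1.1 := congrArg Subtype.val v.2
  have hv0 : v.1.1 ≠ 0 := by
    intro h0
    have h5 := v.1.2.2
    rw [h0] at h5
    have h6 : B a (0 : Fin 8 → K) 0 = 0 := by
      have := B_smul_right (a := a) 0 (0 : Fin 8 → K) 0
      rwa [zero_smul, zero_mul] at this
    rw [h6] at h5
    exact zero_ne_one h5
  exact h.triv hb hc v.1.2.1 hv0 hv hw

/-- no complex structure commutes with `s` -/
theorem Sd.noJ [Fintype K] {l : ℕ} {s : GL (Fin 8) K} (h : Sd a y l s) (hb : Bs a ε y)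
    (hC : StmtCount.{u}) (hε : ¬ IsSquare ε) {x : GL (Fin 8) K}
    (hx : x ∈ OD a) (hc : s * x = x * s) (hx2 : x * x = -1) : False := by
  classical
  have h2 := hb.h2
  have : Finite (X1 a y) := Subtype.finite
  let A : Subgroup (GL (Fin 8) K) := zpowers x
  have hA : ∀ g ∈ A, g ∈ OD a ∧ s * g = g * s := by
    rintro _ ⟨k, rfl⟩
    exact ⟨zpow_mem hx k, (Commute.zpow_right (show Commute s x from hc) k)⟩
  let i : MulAction A (X1 a y) :=
    { smul := fun g v => ⟨ac g.1 v.1, h.presO hb (hA _ g.2).1 (hA _ g.2).2 v.2.1, by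
        rw [OD_B (hA _ g.2).1]; exact v.2.2⟩
      one_smul := fun v => Subtype.ext (ac_one _)
      mul_smul := fun g h v => Subtype.ext (ac_mul _ _ _) }
  have hneg : ∀ v : Fin 8 → K, ac (-1 : GL (Fin 8) K) v = -v := by
    intro v
    show (-(1 : Matrix (Fin 8) (Fin 8) K)) *ᵥ v = -v
    rw [neg_mulVec, one_mulVec]
  have hfree : ∀ v : X1 a y, MulAction.stabilizer A v = ⊥ := by
    intro v
    rw [eq_bot_iff]
    rintro ⟨_, k, rfl⟩ hk
    have hk0 : (⟨x ^ k, ⟨k, rfl⟩⟩ : A) • v = v := hk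
    have hk' : ac (x ^ k) v.1 = v.1 := congrArg Subtype.val hk0
    have hv0 : v.1 ≠ 0 := by
      intro h0
      have h5 := v.2.2
      rw [h0] at h5
      have h6 : B a (0 : Fin 8 → K) 0 = 0 := by
        have := B_smul_right (a := a) 0 (0 : Fin 8 → K) 0
        rwa [zero_smul, zero_mul] at this
      rw [h6] at h5
      exact zero_ne_one h5
    have hvn : -v.1 ≠ v.1 := by
      intro h0
      apply hv0
      have h5 : (2 : K) • v.1 = 0 := by
        rw [two_smul]
        nth_rewrite 1 [← h0]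
        exact neg_add_cancel _
      exact (smul_eq_zero.1 h5).resolve_left h2
    have hxx : x ^ (2 : ℤ) = -1 := by
      rw [show (2 : ℤ) = ((2 : ℕ) : ℤ) from rfl, zpow_natCast, pow_two, hx2]
    rcases Int.even_or_odd' k with ⟨j, rfl | rfl⟩
    · rw [_root_.zpow_mul, hxx] at hk'
      rcases Int.even_or_odd' j with ⟨i, rfl | rfl⟩
      · rw [Subgroup.mem_bot]
        apply Subtype.ext
        show x ^ (2 * (2 * i)) = 1
        rw [_root_.zpow_mul, hxx, _root_.zpow_mul]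
        norm_num
      · exfalso
        rw [_root_.zpow_add, _root_.zpow_mul] at hk'
        norm_num at hk'
        rw [hneg] at hk'
        exact hvn hk'
    · exfalso
      -- an odd power: its square is -1
      have h5 : ac (x ^ (2 * j + 1)) (ac (x ^ (2 * j + 1)) v.1) = v.1 := by rw [hk', hk']
      rw [← ac_mul, ← _root_.zpow_add, show (2 * j + 1 + (2 * j + 1) : ℤ) = 2 * (2 * j) + 2 by ring,
        _root_.zpow_add, _root_.zpow_mul, hxx, _root_.zpow_mul] at h5
      norm_num at h5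
      rw [hneg] at h5
      exact hvn h5
  have e := MulAction.selfEquivOrbitsQuotientProd hfree
  have hcard := Nat.card_congr e
  rw [Nat.card_prod, hb.card_X1 hC hε] at hcard
  have hA4 : Nat.card A = 4 := by
    show Nat.card (zpowers x) = 4
    rw [Nat.card_zpowers]
    have h5 : x ^ (2 ^ 2) = 1 := by
      show x ^ 4 = 1
      rw [show (4 : ℕ) = 2 * 2 from rfl, pow_mul, pow_two x, hx2]
      norm_num
    have h6 : ¬ x ^ (2 ^ 1) = 1 := by
      rw [pow_one, pow_two, hx2]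
      intro h0
      have h7 := congrArg (fun g => ac g (y 0)) h0
      simp only [hneg, ac_one] at h7
      have h8 : (2 : K) • y 0 = 0 := by
        rw [two_smul]
        nth_rewrite 1 [← h7]
        exact neg_add_cancel _
      have h9 := (smul_eq_zero.1 h8).resolve_left h2
      have h10 := hb.orth 0 0
      rw [h9] at h10
      have h11 : B a (0 : Fin 8 → K) 0 = 0 := by
        have := B_smul_right (a := a) 0 (0 : Fin 8 → K) 0
        rwa [zero_smul, zero_mul] at this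
      rw [h11] at h10
      simp [nn] at h10
    exact orderOf_eq_prime_pow h6 h5
  rw [hA4] at hcard
  have hodd : Nat.card K % 2 = 1 := by
    have := FiniteField.odd_card_of_char_ne_two (F := K) (by
      intro h
      apply h2
      have := ringChar.Nat.cast_ringChar (R := K)
      rw [h] at this
      exact_mod_cast this)
    rw [Nat.card_eq_fintype_card]
    exact this
  have h4 : (Nat.card K ^ 3 + Nat.card K) % 4 = 0 := by
    rw [hcard]
    exact Nat.mul_mod_left _ _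
  have h5 : Nat.card K % 4 = 1 ∨ Nat.card K % 4 = 3 := by omega
  generalize Nat.card K = q at h4 h5
  rcases h5 with h5 | h5 <;> simp [Nat.add_mod, Nat.pow_mod, h5] at h4

end

end Vale.Agent.P240.R2.H687.T
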