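import Vale.Agent.P240.R2.H687.TB

/-!
A unipotent element, and the element `c`.
-/

set_option autoImplicit false
set_option linter.all false

namespace Vale.Agent.P240.R2.H687.T

open Matrix Subgroup Vale.Agent.P240.R2.H145.EO
open Vale.Agent.P240.R2.H401.D (fd)

universe u v

section

variable {K : Type u} [Field K] {a : Fin 8 → K} {ε : K} {y : Fin 8 → Fin 8 → K}

lemma B_zero_right (w : Fin 8 → K) : B a w 0 = 0 := by
  have := B_smul_right (a := a) 0 w 0
  rwa [zero_smul, zero_mul] at this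

lemma Bs.b66 (h : Bs a ε y) : B a (y 6) (y 6) = 1 := by rw [h.orth]; simp [nn]

lemma Bs.bvv (h : Bs a ε y) : B a (y 4 + y 5) (y 4 + y 5) = 0 := by
  rw [B_add_left, B_add_right, B_add_right, h.orth, h.orth, h.orth, h.orth]
  simp [nn]

lemma Bs.b6v (h : Bs a ε y) : B a (y 6) (y 4 + y 5) = 0 := by
  rw [B_add_right, h.orth, h.orth]
  simp

lemma Bs.bv6 (h : Bs a ε y) : B a (y 4 + y 5) (y 6) = 0 := by
  rw [B_comm, h.b6v]

lemma Bs.b66v (h : Bs a ε y) :
    B a (y 6 + (y 4 + y 5)) (y 6 + (y 4 + y 5)) = 1 := by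
  rw [B_add_left, B_add_right (y 6), B_add_right (y 4 + y 5), h.b66, h.b6v, h.bv6, h.bvv]
  ring

/-- the unipotent element -/
noncomputable def uu (h : Bs a ε y) : GL (Fin 8) K :=
  rf a (y 6) (by rw [h.b66]; exact one_ne_zero) *
    rf a (y 6 + (y 4 + y 5)) (by rw [h.b66v]; exact one_ne_zero)

lemma ac_uu (h : Bs a ε y) (x : Fin 8 → K) : ac (uu h) x = x +
    (2 * B a (y 4 + y 5) x) • y 6 - (2 * B a (y 6) x) • (y 4 + y 5) -
      (2 * B a (y 4 + y 5) x) • (y 4 + y 5) := by
  unfold uu
  rw [ac_mul, ac_rf, ac_rf, h.b66, h.b66v, div_one, div_one]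
  have e1 : B a (y 6) (x - (2 * B a (y 6 + (y 4 + y 5)) x) • (y 6 + (y 4 + y 5))) =
      B a (y 6) x - 2 * B a (y 6 + (y 4 + y 5)) x := by
    rw [B_sub_right, B_smul_right, B_add_right, h.b66, h.b6v]
    ring
  rw [e1, B_add_left (y 6)]
  module

lemma uu_mem (h : Bs a ε y) : uu h ∈ OD a := mul_mem (rf_mem _) (rf_mem _)

lemma uu_SOD (h : Bs a ε y) : uu h ∈ SOD a := SOD_big h.h2 _ _ _ _ (by rw [h.b66, h.b66v])

lemma ac_uu_pow (h : Bs a ε y) (k : ℕ) (x : Fin 8 → K) : ac (uu h ^ k) x = x +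
    (2 * k * B a (y 4 + y 5) x) • y 6 - (2 * k * B a (y 6) x) • (y 4 + y 5) -
      (2 * k ^ 2 * B a (y 4 + y 5) x) • (y 4 + y 5) := by
  induction k with
  | zero =>
    rw [pow_zero, ac_one]
    simp
  | succ k ih =>
    rw [pow_succ', ac_mul, ih, ac_uu]
    have e1 : B a (y 4 + y 5) (x + (2 * k * B a (y 4 + y 5) x) • y 6 -
        (2 * k * B a (y 6) x) • (y 4 + y 5) - (2 * k ^ 2 * B a (y 4 + y 5) x) • (y 4 + y 5)) =
        B a (y 4 + y 5) x := by
      rw [B_sub_right, B_sub_right, B_add_right, B_smul_right, B_smul_right, B_smul_right, h.bv6,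
        h.bvv]
      ring
    have e2 : B a (y 6) (x + (2 * k * B a (y 4 + y 5) x) • y 6 -
        (2 * k * B a (y 6) x) • (y 4 + y 5) - (2 * k ^ 2 * B a (y 4 + y 5) x) • (y 4 + y 5)) =
        B a (y 6) x + 2 * k * B a (y 4 + y 5) x := by
      rw [B_sub_right, B_sub_right, B_add_right, B_smul_right, B_smul_right, B_smul_right, h.b66,
        h.b6v]
      ring
    rw [e1, e2]
    push_cast
    module

lemma uu_pow (h : Bs a ε y) {r : ℕ} (hr : (r : K) = 0) : uu h ^ r = 1 := by
  apply gl_ext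
  intro x
  rw [ac_uu_pow, hr, ac_one]
  simp

lemma Sd.comm_uu {l : ℕ} {s : GL (Fin 8) K} (h : Sd a y l s) (hb : Bs a ε y) :
    s * uu hb = uu hb * s := by
  obtain ⟨h0, h4, h5, h6, h7⟩ := h.mem
  apply gl_ext
  intro x
  have hv : ac s (y 4 + y 5) = y 4 + y 5 := by rw [ac_add, h4, h5]
  have e1 : B a (y 4 + y 5) (ac s x) = B a (y 4 + y 5) x := by
    conv_lhs => rw [← hv]
    exact OD_B h0 _ _
  have e2 : B a (y 6) (ac s x) = B a (y 6) x := by
    conv_lhs => rw [← h6]
    exact OD_B h0 _ _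
  rw [ac_mul, ac_mul, ac_uu, ac_uu, e1, e2]
  have e3 : ∀ v w : Fin 8 → K, ac s (v - w) = ac s v - ac s w := by
    intro v w
    rw [sub_eq_add_neg, ac_add, ac_neg, ← sub_eq_add_neg]
  rw [e3, e3, ac_add, ac_smul, ac_smul, ac_smul, h6, hv]

lemma Bs.eq_one (h : Bs a ε y) {x : GL (Fin 8) K} (hx : x ∈ OD a) (H : ∀ i, ac x (y i) = y i) :
    x = 1 := by
  apply gl_ext
  intro v
  rw [ac_one]
  apply h.ext
  intro i
  conv_lhs => rw [← H i]
  exact OD_B hx _ _

lemma Bs.lo_mem (hb : Bs a ε y) : y 0 ∈ V4 a y ∧ y 1 ∈ V4 a y ∧ y 2 ∈ V4 a y ∧ y 3 ∈ V4 a y := by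
  refine ⟨?_, ?_, ?_, ?_⟩ <;> rw [mem_V4, hb.orth, hb.orth, hb.orth, hb.orth] <;> simp

/-- elements of order `3` that commute with `s` and `u` are trivial -/
theorem cent [Fintype K] (hb : Bs a ε y) {l : ℕ} {s : GL (Fin 8) K} (h : Sd a y l s)
    (hC : StmtCount.{u}) (hε : ¬ IsSquare ε) (h3 : ¬ 3 ∣ Nat.card K) (h3K : (3 : K) ≠ 0)
    {x : GL (Fin 8) K} (hx : x ∈ OD a) (hx3 : x ^ 3 = 1) (hs : s * x = x * s)
    (hu : uu hb * x = x * uu hb) : x = 1 := by
  have h2 := hb.h2
  have hε0 := hb.ne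
  have hV : ∀ w ∈ V4 a y, ac x w = w := fun w hw => h.three hb hC hε h3 hx hs hx3 hw
  obtain ⟨m0, m1, m2, m3⟩ := hb.lo_mem
  have x0 := hV _ m0
  have x1 := hV _ m1
  have x2 := hV _ m2
  have x3 := hV _ m3
  have hpow3 : ∀ v, ac x (ac x (ac x v)) = v := by
    intro v
    rw [← ac_mul, ← ac_mul, ← pow_two, ← pow_succ, hx3, ac_one]
  have e3 : ∀ v w : Fin 8 → K, ac x (v - w) = ac x v - ac x w := by
    intro v w
    rw [sub_eq_add_neg, ac_add, ac_neg, ← sub_eq_add_neg]
  have hcomm : ∀ v, ac (uu hb) (ac x v) = ac x (ac (uu hb) v) := by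
    intro v
    rw [← ac_mul, hu, ac_mul]
  have b44 : B a (y 4) (y 4) = 1 := by rw [hb.orth]; simp [nn]
  have b55 : B a (y 5) (y 5) = -1 := by rw [hb.orth]; simp [nn]
  have b77 : B a (y 7) (y 7) = -ε := by rw [hb.orth]; simp [nn]
  have bv4 : B a (y 4 + y 5) (y 4) = 1 := by
    rw [B_add_left, hb.orth, hb.orth]; simp [nn]
  have bv7 : B a (y 4 + y 5) (y 7) = 0 := by
    rw [B_add_left, hb.orth, hb.orth]; simp
  have b64 : B a (y 6) (y 4) = 0 := by rw [hb.orth]; simp
  have b67 : B a (y 6) (y 7) = 0 := by rw [hb.orth]; simp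
  set V := y 4 + y 5 with hVdef
  have hV0 : V ≠ 0 := by
    intro h0
    rw [h0, B_comm, B_zero_right] at bv4
    exact zero_ne_one bv4
  -- the image of y 6
  have k1 : (2 : K) • ac x (y 6) - (2 : K) • ac x V =
      (2 * B a V (ac x (y 4))) • y 6 - (2 * B a (y 6) (ac x (y 4))) • V -
        (2 * B a V (ac x (y 4))) • V := by
    have e := hcomm (y 4)
    rw [ac_uu, ac_uu, ← hVdef, bv4, b64, e3, e3, ac_add, ac_smul, ac_smul, ac_smul] at e
    have e' := congrArg (fun z => z - ac x (y 4)) e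
    have e1 : (2 : K) • ac x (y 6) - (2 : K) • ac x V =
        ac x (y 4) + (2 * 1 : K) • ac x (y 6) - (2 * 0 : K) • ac x V - (2 * 1 : K) • ac x V -
          ac x (y 4) := by module
    rw [e1, ← e']
    module
  have k2 : (2 : K) • ac x V = (2 * B a (y 6) (ac x (y 6))) • V +
      (2 * B a V (ac x (y 6))) • V - (2 * B a V (ac x (y 6))) • y 6 := by
    have e := hcomm (y 6)
    rw [ac_uu, ac_uu, ← hVdef, hb.bv6, hb.b66, e3, e3, ac_add, ac_smul, ac_smul, ac_smul] at e
    have e' := congrArg (fun z => ac x (y 6) - z) e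
    have e1 : (2 : K) • ac x V = ac x (y 6) - (ac x (y 6) + (2 * 0 : K) • ac x (y 6) -
      (2 * 1 : K) • ac x V - (2 * 0 : K) • ac x V) := by module
    rw [e1, ← e']
    module
  -- the value B V (x y6)
  have k3 : B a V (ac x (y 6)) = 0 := by
    have e := congrArg (B a V) k1
    have e' := congrArg (B a V) k2
    rw [B_sub_right, B_smul_right, B_smul_right, B_sub_right, B_sub_right, B_smul_right,
      B_smul_right, B_smul_right, hb.bv6, hb.bvv] at e
    rw [B_smul_right, B_sub_right, B_add_right, B_smul_right, B_smul_right, B_smul_right, hb.bv6,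
      hb.bvv] at e'
    have e2 : (2 : K) * B a V (ac x (y 6)) = 0 := by linear_combination e + e'
    exact (mul_eq_zero.1 e2).resolve_left h2
  rw [k3, mul_zero, zero_smul, zero_smul, add_zero, sub_zero] at k2
  set t := B a (y 6) (ac x (y 6)) with ht
  have k4 : ac x V = t • V := by
    have e : (2 : K) • ac x V = (2 : K) • (t • V) := by rw [k2]; module
    exact smul_right_injective _ h2 e
  have bxv4 : B a (ac x V) (ac x (y 4)) = 1 := by rw [OD_B hx]; exact bv4
  rw [k4, B_smul_left] at bxv4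
  have k5 : t ^ 3 = 1 := by
    have e := hpow3 V
    rw [k4, ac_smul, k4, ac_smul, ac_smul, k4, smul_smul, smul_smul] at e
    have e1 : (t ^ 3 - 1) • V = 0 := by
      rw [sub_smul, one_smul]
      have : (t ^ 3) • V = V := by
        conv_rhs => rw [← e]
        congr 1
        ring
      rw [this, sub_self]
    exact sub_eq_zero.1 ((smul_eq_zero.1 e1).resolve_right hV0)
  -- B V (x y4) = t from k1
  have k6 : B a V (ac x (y 4)) = t := by
    have e := congrArg (B a (y 6)) k1
    rw [k4, B_sub_right, B_smul_right, B_smul_right, B_smul_right, B_sub_right, B_sub_right,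
      B_smul_right, B_smul_right, B_smul_right, hb.b6v, hb.b66, ← ht] at e
    have e2 : (2 : K) * (B a V (ac x (y 4)) - t) = 0 := by linear_combination -e
    exact sub_eq_zero.1 ((mul_eq_zero.1 e2).resolve_left h2)
  rw [k6] at bxv4
  have t1 : t = 1 := by
    have : t = t ^ 3 * t - t ^ 3 * t + t := by ring
    have e : t ^ 3 = t * (t * t) := by ring
    rw [bxv4, mul_one] at e
    rw [← e, k5]
  rw [t1] at k4 k6
  rw [one_smul] at k4
  -- y 6 is fixed
  have k7 : ac x (y 6) = y 6 - B a (y 6) (ac x (y 4)) • V := by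
    rw [k4, k6] at k1
    have e : (2 : K) • ac x (y 6) = (2 : K) • (y 6 - B a (y 6) (ac x (y 4)) • V) := by
      have e1 : (2 : K) • ac x (y 6) = (2 : K) • ac x (y 6) - (2 : K) • V + (2 : K) • V := by module
      rw [e1, k1]
      module
    exact smul_right_injective _ h2 e
  have k8 : B a (y 6) (ac x (y 4)) = 0 := by
    have e := hpow3 (y 6)
    set μ := B a (y 6) (ac x (y 4)) with hμ
    rw [k7, e3, ac_smul, k7, k4, e3, e3, ac_smul, k7, k4] at e
    have e1 : ((3 : K) * μ) • V = 0 := by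
      have : y 6 - (y 6 - μ • V - μ • V - μ • V) = (0 : Fin 8 → K) := by rw [e, sub_self]
      rw [← this]
      module
    have e2 := (smul_eq_zero.1 e1).resolve_right hV0
    exact (mul_eq_zero.1 e2).resolve_left h3K
  rw [k8, zero_smul, sub_zero] at k7
  have hlo : ∀ w z, ac x w = w → B a w (ac x z) = B a w z := by
    intro w z hw
    conv_lhs => rw [← hw]
    exact OD_B hx _ _
  have b45 : B a (y 4) (y 5) = 0 := by rw [hb.orth]; simp
  have b54 : B a (y 5) (y 4) = 0 := by rw [hb.orth]; simp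
  have b4V : B a (y 4) V = 1 := by rw [B_comm]; exact bv4
  have b5V : B a (y 5) V = -1 := by rw [hVdef, B_add_right, b54, b55]; ring
  have bVV : B a V V = 0 := hb.bvv
  -- y 7 is fixed
  have f7 : ac x (y 7) = y 7 := by
    set z := ac x (y 7) with hz
    have z0 : B a (y 0) z = 0 := by rw [hz, hlo _ _ x0, hb.orth]; simp
    have z1 : B a (y 1) z = 0 := by rw [hz, hlo _ _ x1, hb.orth]; simp
    have z2 : B a (y 2) z = 0 := by rw [hz, hlo _ _ x2, hb.orth]; simp
    have z3 : B a (y 3) z = 0 := by rw [hz, hlo _ _ x3, hb.orth]; simp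
    have z6 : B a (y 6) z = 0 := by rw [hz, hlo _ _ k7, hb.orth]; simp
    have zV : B a V z = 0 := by rw [hz, hlo _ _ k4, bv7]
    have zV' : B a (y 4) z + B a (y 5) z = 0 := by rw [← B_add_left]; exact zV
    have hzz : B a z z = -ε := by rw [hz, OD_B hx, b77]
    obtain ⟨p, hp⟩ : ∃ p, p = B a (y 4) z := ⟨_, rfl⟩
    obtain ⟨β, hβ⟩ : ∃ β, β = -(B a (y 7) z / ε) := ⟨_, rfl⟩
    have hzz' : z = p • V + β • y 7 := by
      apply hb.ext
      intro i
      rw [B_add_right, B_smul_right, B_smul_right]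
      fin_cases i
      · show B a (y 0) z = p * B a (y 0) V + β * B a (y 0) (y 7)
        rw [z0, hVdef, B_add_right, hb.orth, hb.orth, hb.orth]; simp
      · show B a (y 1) z = p * B a (y 1) V + β * B a (y 1) (y 7)
        rw [z1, hVdef, B_add_right, hb.orth, hb.orth, hb.orth]; simp
      · show B a (y 2) z = p * B a (y 2) V + β * B a (y 2) (y 7)
        rw [z2, hVdef, B_add_right, hb.orth, hb.orth, hb.orth]; simp
      · show B a (y 3) z = p * B a (y 3) V + β * B a (y 3) (y 7)
        rw [z3, hVdef, B_add_right, hb.orth, hb.orth, hb.orth]; simp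
      · show B a (y 4) z = p * B a (y 4) V + β * B a (y 4) (y 7)
        rw [b4V, hb.orth, hp]; simp
      · show B a (y 5) z = p * B a (y 5) V + β * B a (y 5) (y 7)
        rw [b5V, hb.orth, hp]
        simp
        linear_combination zV'
      · show B a (y 6) z = p * B a (y 6) V + β * B a (y 6) (y 7)
        rw [z6, hVdef, B_add_right, hb.orth, hb.orth, hb.orth]; simp
      · show B a (y 7) z = p * B a (y 7) V + β * B a (y 7) (y 7)
        rw [B_comm (y 7) V, bv7, b77, hβ]
        field_simp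
        ring
    have q1 : β ^ 2 = 1 := by
      have e := hzz
      rw [hzz', B_add_left, B_add_right, B_add_right, B_smul_left, B_smul_left, B_smul_left,
        B_smul_left, B_smul_right, B_smul_right, B_smul_right, B_smul_right, bVV, b77, bv7,
        B_comm (y 7) V, bv7] at e
      have e1 : ε * (β ^ 2 - 1) = 0 := by linear_combination -e
      exact sub_eq_zero.1 ((mul_eq_zero.1 e1).resolve_left hε0)
    have q2 := hpow3 (y 7)
    have q3 : ac x z = p • V + β • z := by
      conv_lhs => rw [hzz']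
      rw [ac_add, ac_smul, ac_smul, k4]
    rw [← hz, q3, ac_add, ac_smul, ac_smul, k4, q3] at q2
    have q4 : β ^ 3 = 1 := by
      have e := congrArg (B a (y 7)) q2
      rw [hzz', B_add_right (y 7) (p • V), B_smul_right, B_smul_right, B_add_right (y 7) (p • V),
        B_smul_right, B_smul_right, B_add_right (y 7) (p • V), B_smul_right, B_smul_right,
        B_comm (y 7) V, bv7, b77] at e
      have e1 : ε * (β ^ 3 - 1) = 0 := by linear_combination -e
      exact sub_eq_zero.1 ((mul_eq_zero.1 e1).resolve_left hε0)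
    have q5 : β = 1 := by
      have e : β ^ 3 = β * β ^ 2 := by ring
      rw [q1, mul_one] at e
      rw [← e, q4]
    have q6 : p = 0 := by
      rw [hzz', q5] at q2
      have e1 : ((3 : K) * p) • V = 0 := by
        have : (p • V + (1 : K) • (p • V + (1 : K) • (p • V + (1 : K) • y 7))) - y 7 =
            (0 : Fin 8 → K) := by rw [q2, sub_self]
        rw [← this]
        module
      have e2 := (smul_eq_zero.1 e1).resolve_right hV0
      exact (mul_eq_zero.1 e2).resolve_left h3K
    rw [hzz', q5, q6, zero_smul, zero_add, one_smul]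
  -- y 4 is fixed
  have f4 : ac x (y 4) = y 4 := by
    set z := ac x (y 4) with hz
    have z0 : B a (y 0) z = 0 := by rw [hz, hlo _ _ x0, hb.orth]; simp
    have z1 : B a (y 1) z = 0 := by rw [hz, hlo _ _ x1, hb.orth]; simp
    have z2 : B a (y 2) z = 0 := by rw [hz, hlo _ _ x2, hb.orth]; simp
    have z3 : B a (y 3) z = 0 := by rw [hz, hlo _ _ x3, hb.orth]; simp
    have z7 : B a (y 7) z = 0 := by rw [hz, hlo _ _ f7, hb.orth]; simp
    have zV' : B a (y 4) z + B a (y 5) z = 1 := by rw [← B_add_left]; exact k6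
    have hzz : B a z z = 1 := by rw [hz, OD_B hx, b44]
    obtain ⟨p, hp⟩ : ∃ p, p = B a (y 4) z := ⟨_, rfl⟩
    have hzz' : z = p • y 4 + (p - 1) • y 5 := by
      apply hb.ext
      intro i
      rw [B_add_right, B_smul_right, B_smul_right]
      fin_cases i
      · show B a (y 0) z = p * B a (y 0) (y 4) + (p - 1) * B a (y 0) (y 5)
        rw [z0, hb.orth, hb.orth]; simp
      · show B a (y 1) z = p * B a (y 1) (y 4) + (p - 1) * B a (y 1) (y 5)
        rw [z1, hb.orth, hb.orth]; simp
      · show B a (y 2) z = p * B a (y 2) (y 4) + (p - 1) * B a (y 2) (y 5)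
        rw [z2, hb.orth, hb.orth]; simp
      · show B a (y 3) z = p * B a (y 3) (y 4) + (p - 1) * B a (y 3) (y 5)
        rw [z3, hb.orth, hb.orth]; simp
      · show B a (y 4) z = p * B a (y 4) (y 4) + (p - 1) * B a (y 4) (y 5)
        rw [b44, b45, hp]; ring
      · show B a (y 5) z = p * B a (y 5) (y 4) + (p - 1) * B a (y 5) (y 5)
        rw [b54, b55, hp]
        linear_combination zV'
      · show B a (y 6) z = p * B a (y 6) (y 4) + (p - 1) * B a (y 6) (y 5)
        rw [k8, hb.orth, hb.orth]; simp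
      · show B a (y 7) z = p * B a (y 7) (y 4) + (p - 1) * B a (y 7) (y 5)
        rw [z7, hb.orth, hb.orth]; simp
    have q1 : p = 1 := by
      have e := hzz
      rw [hzz', B_add_left, B_add_right, B_add_right, B_smul_left, B_smul_left, B_smul_left,
        B_smul_left, B_smul_right, B_smul_right, B_smul_right, B_smul_right, b44, b45, b54,
        b55] at e
      have e1 : (2 : K) * (p - 1) = 0 := by linear_combination e
      exact sub_eq_zero.1 ((mul_eq_zero.1 e1).resolve_left h2)
    rw [hzz', q1, sub_self, zero_smul, add_zero, one_smul]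
  have f5 : ac x (y 5) = y 5 := by
    have e : y 5 = V - y 4 := by rw [hVdef]; abel
    rw [e, e3, k4, f4]
  apply hb.eq_one hx
  intro i
  fin_cases i
  · exact x0
  · exact x1
  · exact x2
  · exact x3
  · exact f4
  · exact f5
  · exact k7
  · exact f7

end

end Vale.Agent.P240.R2.H687.T
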