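import Vale.Agent.P240.R2.H687.TC
import Vale.Agent.P240.R2.H275.F3i
import Vale.Agent.P240.H195.SO6

/-!
No elementary abelian `3`-subgroup of `PΩ_8^+(q)` is normalized by the element `c`.
-/

set_option autoImplicit false
set_option linter.all false

namespace Vale.Agent.P240.R2.H687.T

open Matrix Subgroup Vale.Agent.P240.R2.H145.EO Vale.Agent.P240.K Vale.Agent.P240.H195
open Vale.Agent.P240.R2.H401.D (fd)
open Vale.Agent.P240.R2.H275.F3

universe u v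

section

variable {K : Type u} [Field K] [Fintype K] {d ε : K} {y : Fin 8 → Fin 8 → K}

/-- elements of odd order lie in `SOD` -/
lemma odd_SOD (hK : FNum K 7 d) {g : GL (Fin 8) K} (hg : g ∈ OD (fd 7 d)) {l : ℕ} (hl : Odd l)
    (h : g ^ l = 1) : g ∈ SOD (fd 7 d) := by
  have h2 := hK.h2
  obtain ⟨t, ht⟩ : ∃ t : K, ¬ IsSquare t := by
    apply FiniteField.exists_nonsquare
    intro h
    apply h2
    have := ringChar.spec K 2
    rw [h] at this
    exact_mod_cast this.2 dvd_rfl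
  have ht0 : t ≠ 0 := by
    rintro rfl
    exact ht ⟨0, by ring⟩
  have ha := Vale.Agent.P240.R2.H275.fd_ne (m := 7) hK.hd
  have ha1 := Vale.Agent.P240.R2.H275.fd_one (m := 7) (d := d)
  have hx0 : ON (fd 7 d) (fun i : Fin 0 => (0 : Fin 8 → K)) := fun i => i.elim0
  obtain ⟨v, -, hv⟩ := perp1 h2 ha ha1 (k := 0) (by omega) hx0 (one_ne_zero (α := K))
  obtain ⟨w, -, hw⟩ := perp1 h2 ha ha1 (k := 0) (by omega) hx0 ht0
  have hv0 : B (fd 7 d) v v ≠ 0 := by rw [hv]; exact one_ne_zero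
  have hw0 : B (fd 7 d) w w ≠ 0 := by rw [hw]; exact ht0
  have hsq : abO (fd 7 d) ⟨g, hg⟩ * abO (fd 7 d) ⟨g, hg⟩ = 1 := by
    rcases abO_cases h2 (by omega) ha ha1 hv0 hw0 (by rw [hv]; exact ⟨1, by ring⟩)
      (by rw [hw]; exact ht) ⟨g, hg⟩ with h | h | h | h
    · rw [h, one_mul]
    · rw [h]; exact abO_rf_sq hv0
    · rw [h]; exact abO_rf_sq hw0
    · rw [h, mul_mul_mul_comm, abO_rf_sq hv0, abO_rf_sq hw0, one_mul]
  have h3 : (⟨g, hg⟩ : OD (fd 7 d)) ^ l = 1 := Subtype.ext h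
  have h4 : abO (fd 7 d) ⟨g, hg⟩ ^ l = 1 := by rw [← map_pow, h3, map_one]
  obtain ⟨k, rfl⟩ := hl
  rw [pow_add, pow_mul, pow_two, hsq, one_pow, one_mul, pow_one] at h4
  exact (abO_eq_one _).1 h4

/-- all data -/
structure Da (K : Type u) [Field K] [Fintype K] (d ε : K) (y : Fin 8 → Fin 8 → K) (l r : ℕ)
    (s : GL (Fin 8) K) : Prop where
  hK : FNum K 7 d
  hb : Bs (fd 7 d) ε y
  hε : ¬ IsSquare ε
  sd : Sd (fd 7 d) y l s
  l2 : l ≠ 2
  l3 : l ≠ 3
  rp : r.Prime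
  r0 : (r : K) = 0
  r2 : r ≠ 2
  r3 : r ≠ 3
  lr : l ≠ r
  h3K : (3 : K) ≠ 0
  h3 : ¬ 3 ∣ Nat.card K

variable {l r : ℕ} {s : GL (Fin 8) K}

lemma Da.cop (D : Da K d ε y l r s) : (l * r).Coprime 6 := by
  have h6 : (6 : ℕ) = 2 * 3 := rfl
  rw [h6]
  have e1 := (Nat.coprime_primes D.sd.prime Nat.prime_two).2 D.l2
  have e2 := (Nat.coprime_primes D.sd.prime Nat.prime_three).2 D.l3
  have e3 := (Nat.coprime_primes D.rp Nat.prime_two).2 D.r2
  have e4 := (Nat.coprime_primes D.rp Nat.prime_three).2 D.r3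
  exact Nat.Coprime.mul_left (Nat.Coprime.mul_right e1 e2) (Nat.Coprime.mul_right e3 e4)

lemma Da.s_SOD (D : Da K d ε y l r s) : s ∈ SOD (fd 7 d) :=
  odd_SOD D.hK D.sd.mem.1 (D.sd.prime.odd_of_ne_two D.l2) D.sd.pw

/-- the element `c` -/
noncomputable def Da.c (D : Da K d ε y l r s) : SOD (fd 7 d) :=
  ⟨s * uu D.hb, mul_mem D.s_SOD (uu_SOD D.hb)⟩

lemma Da.c_pow (D : Da K d ε y l r s) (k : ℕ) : (s * uu D.hb) ^ k = s ^ k * uu D.hb ^ k :=
  Commute.mul_pow (show Commute s (uu D.hb) from D.sd.comm_uu D.hb) k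

lemma Da.c_one (D : Da K d ε y l r s) : (s * uu D.hb) ^ (l * r) = 1 := by
  rw [D.c_pow, pow_mul, D.sd.pw, one_pow, mul_comm l r, pow_mul, uu_pow D.hb D.r0, one_pow, one_mul]

lemma Da.s_pow (D : Da K d ε y l r s) : ∃ k : ℕ, (s * uu D.hb) ^ k = s := by
  obtain ⟨k, hk1, hk2⟩ := Nat.chineseRemainder ((Nat.coprime_primes D.sd.prime D.rp).2 D.lr) 1 0
  refine ⟨k, ?_⟩
  rw [D.c_pow]
  have e1 : s ^ k = s := by
    have h1 : k ≡ 1 [MOD orderOf s] := hk1.of_dvd (orderOf_dvd_of_pow_eq_one D.sd.pw)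
    have h3 := pow_eq_pow_iff_modEq.2 h1
    rw [h3, pow_one]
  have e2 : uu D.hb ^ k = 1 := by
    obtain ⟨j, hj⟩ := (Nat.modEq_zero_iff_dvd).1 hk2
    rw [hj, pow_mul, uu_pow D.hb D.r0, one_pow]
  rw [e1, e2, mul_one]

lemma Da.u_pow (D : Da K d ε y l r s) : ∃ k : ℕ, (s * uu D.hb) ^ k = uu D.hb := by
  obtain ⟨k, hk1, hk2⟩ := Nat.chineseRemainder ((Nat.coprime_primes D.sd.prime D.rp).2 D.lr) 0 1
  refine ⟨k, ?_⟩
  rw [D.c_pow]
  have e1 : s ^ k = 1 := by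
    obtain ⟨j, hj⟩ := (Nat.modEq_zero_iff_dvd).1 hk1
    rw [hj, pow_mul, D.sd.pw, one_pow]
  have e2 : uu D.hb ^ k = uu D.hb := by
    have h1 : k ≡ 1 [MOD orderOf (uu D.hb)] :=
      hk2.of_dvd (orderOf_dvd_of_pow_eq_one (uu_pow D.hb D.r0))
    have h3 := pow_eq_pow_iff_modEq.2 h1
    rw [h3, pow_one]
  rw [e1, e2, one_mul]

/-- the lifts of order dividing `3` -/
def Lf (hK : FNum K 7 d) (E : Subgroup ↥(commutator (PO (fd 7 d))))
    (hc : ∀ x ∈ E, ∀ y ∈ E, x * y = y * x) : Subgroup (GL (Fin 8) K) where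
  carrier := {g | ∃ h : g ∈ SOD (fd 7 d), cl _ ⟨g, h⟩ ∈ E ∧ g ^ 3 = 1}
  one_mem' := ⟨one_mem _, one_mem E, one_pow _⟩
  inv_mem' := by
    rintro g ⟨h, h1, h2⟩
    exact ⟨inv_mem h, inv_mem h1, by rw [inv_pow, h2, inv_one]⟩
  mul_mem' := by
    rintro g k ⟨h, h1, h2⟩ ⟨h', h1', h2'⟩
    refine ⟨mul_mem h h', mul_mem h1 h1', ?_⟩
    have e := hc _ h1 _ h1'
    have e1 : cl (fd 7 d) (⟨g, h⟩ * ⟨k, h'⟩) = cl (fd 7 d) (⟨k, h'⟩ * ⟨g, h⟩) := by
      rw [map_mul, map_mul]; exact e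
    rcases (cl_eq_iff hK _ _).1 e1.symm with e2 | e2
    · have e3 : g * k = k * g := e2
      rw [(show Commute g k from e3).mul_pow, h2, h2', one_mul]
    · exfalso
      have e3 : g * k = -(k * g) := e2
      have e4 : g * k * g⁻¹ = -k := by rw [e3, neg_mul, _root_.mul_assoc, mul_inv_cancel, mul_one]
      have e5 : (g * k * g⁻¹) ^ 3 = 1 := by rw [conj_pow, h2', mul_one, mul_inv_cancel]
      rw [e4, Odd.neg_pow (by decide), h2'] at e5
      have e6 := congrArg (fun g : GL (Fin 8) K => g.1 0 0) e5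
      have e7 : (-1 : K) = 1 := by
        have : ((-1 : GL (Fin 8) K)).1 0 0 = -1 := by
          show (-(1 : Matrix (Fin 8) (Fin 8) K)) 0 0 = -1
          simp
        have h8 : ((1 : GL (Fin 8) K)).1 0 0 = (1 : K) := by
          show (1 : Matrix (Fin 8) (Fin 8) K) 0 0 = 1
          simp
        rw [← this, ← h8]
        exact e6
      apply hK.h2
      linear_combination -e7

theorem Da.noE (D : Da K d ε y l r s) (hC : StmtCount.{u}) (hT : StmtCen.{u})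
    {E : Subgroup ↥(commutator (PO (fd 7 d)))} (hE : ElemAb 3 E)
    (hn : cl _ D.c ∈ normalizer (E : Set ↥(commutator (PO (fd 7 d))))) : False := by
  obtain ⟨hE1, hE2, hE3⟩ := hE
  have hK := D.hK
  have hcO : s * uu D.hb ∈ OD (fd 7 d) := SOD_le D.c.2
  have h1 : ∀ x ∈ Lf hK E hE2, (s * uu D.hb) * x = x * (s * uu D.hb) := by
    refine hT K 8 (fd 7 d) (by norm_num) D.h3K (Vale.Agent.P240.R2.H275.fd_ne hK.hd) (Lf hK E hE2)
      (fun x hx => SOD_le hx.1) (fun x hx => hx.2.2) ?_ _ hcO ?_ (l * r) D.cop D.c_one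
    · rintro x ⟨hx1, hx2, hx3⟩ z ⟨hz1, hz2, hz3⟩
      have e1 : cl (fd 7 d) (⟨x, hx1⟩ * ⟨z, hz1⟩) = cl (fd 7 d) (⟨z, hz1⟩ * ⟨x, hx1⟩) := by
        rw [map_mul, map_mul]; exact hE2 _ hx2 _ hz2
      rcases (cl_eq_iff hK _ _).1 e1.symm with e2 | e2
      · exact e2
      · exfalso
        have e3 : x * z = -(z * x) := e2
        have h4 := ((Lf hK E hE2).mul_mem ⟨hx1, hx2, hx3⟩ ⟨hz1, hz2, hz3⟩).2.2
        have e4 : x * z * x⁻¹ = -z := by rw [e3, neg_mul, _root_.mul_assoc, mul_inv_cancel, mul_one]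
        have e5 : (x * z * x⁻¹) ^ 3 = 1 := by rw [conj_pow, hz3, mul_one, mul_inv_cancel]
        rw [e4, Odd.neg_pow (by decide), hz3] at e5
        have e6 := congrArg (fun g : GL (Fin 8) K => g.1 0 0) e5
        have e7 : (-1 : K) = 1 := by
          have : ((-1 : GL (Fin 8) K)).1 0 0 = -1 := by
            show (-(1 : Matrix (Fin 8) (Fin 8) K)) 0 0 = -1
            simp
          have h8 : ((1 : GL (Fin 8) K)).1 0 0 = (1 : K) := by
            show (1 : Matrix (Fin 8) (Fin 8) K) 0 0 = 1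
            simp
          rw [← this, ← h8]
          exact e6
        apply hK.h2
        linear_combination -e7
    · rintro x ⟨hx1, hx2, hx3⟩
      refine ⟨mul_mem (mul_mem D.c.2 hx1) (inv_mem D.c.2), ?_, ?_⟩
      · have e := (mem_normalizer_iff.1 hn _).1 hx2
        rw [← map_inv, ← map_mul, ← map_mul] at e
        exact e
      · rw [conj_pow, hx3, mul_one, mul_inv_cancel]
  have h2 : ∀ x ∈ Lf hK E hE2, x = 1 := by
    intro x hx
    have h3 : Commute (s * uu D.hb) x := h1 x hx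
    obtain ⟨k, hk⟩ := D.s_pow
    obtain ⟨k', hk'⟩ := D.u_pow
    have e1 := h3.pow_left k
    have e2 := h3.pow_left k'
    rw [hk] at e1
    rw [hk'] at e2
    exact cent D.hb D.sd hC D.hε D.h3 D.h3K (SOD_le hx.1) hx.2.2 e1 e2
  apply hE1
  rw [eq_bot_iff]
  intro e he
  rw [mem_bot]
  obtain ⟨g, rfl⟩ := cl_surj e
  have h3 : cl _ (g * g * g) = cl (fd 7 d) 1 := by
    rw [map_mul, map_mul, map_one, ← pow_two, ← pow_succ]
    exact hE3 _ he
  rcases (cl_eq_iff hK _ _).1 h3.symm with h4 | h4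
  · have h5 : g.1 ^ 3 = 1 := by rw [pow_succ, pow_two]; exact h4
    have h6 := h2 g.1 ⟨g.2, he, h5⟩
    have h7 : g = 1 := Subtype.ext h6
    rw [h7, map_one]
  · have hneg : ∃ z : SOD (fd 7 d), z.1 = -g.1 ∧ cl _ z = cl _ g := by
      have hm : (-1 : GL (Fin 8) K) ∈ SOD (fd 7 d) := by
        have h5 : (g * g * g).1 = -1 := h4
        rw [← h5]
        exact (g * g * g).2
      refine ⟨⟨-1, hm⟩ * g, ?_, ?_⟩
      · show -1 * g.1 = -g.1
        rw [neg_mul, one_mul]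
      · rw [cl_eq_iff hK]
        right
        show g.1 = -(-1 * g.1)
        rw [neg_mul, one_mul, neg_neg]
    obtain ⟨z, hz, hzg⟩ := hneg
    have h5 : z.1 ^ 3 = 1 := by
      rw [hz, Odd.neg_pow (by decide), pow_succ, pow_two]
      have : g.1 * g.1 * g.1 = -1 := h4
      rw [this, neg_neg]
    have h6 := h2 z.1 ⟨z.2, by
      have : cl (fd 7 d) ⟨z.1, z.2⟩ = cl _ g := hzg
      rw [this]
      exact he, h5⟩
    have h7 : z = 1 := Subtype.ext h6
    rw [← hzg, h7, map_one]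

theorem Da.eu (D : Da K d ε y l r s) (hC : StmtCount.{u}) (hT : StmtCen.{u}) :
    eulerFix 3 (⊤ : Subgroup ↥(commutator (PO (fd 7 d)))) (cl _ D.c) ≠ 0 := by
  classical
  have h0 : {E | E ∈ Ain 3 (⊤ : Subgroup ↥(commutator (PO (fd 7 d)))) ∧
      cl _ D.c ∈ normalizer (E : Set ↥(commutator (PO (fd 7 d))))} = ∅ := by
    ext E
    simp only [Set.mem_ofPred_eq, Set.mem_empty_iff_false, iff_false]
    rintro ⟨⟨h1, -⟩, h3⟩
    exact D.noE hC hT h1 h3
  rw [eulerFix_eq, Vale.Agent.P240.K.lam, h0, eu_empty]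
  exact one_ne_zero

end

end Vale.Agent.P240.R2.H687.T
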