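import Vale.Agent.P240.R2.H687.TDefs

/-!
No semilinear map commutes with an element of order `l` (after 938).
-/

set_option autoImplicit false
set_option linter.all false

namespace Vale.Agent.P240.R2.H687.T


universe u v

/-- an endomorphism of prime order without nonzero fixed vectors of a finite group -/
lemma dvd_card_sub_one {U : Type*} [AddCommGroup U] [Finite U] {l : ℕ} (hl : l.Prime) (f : U → U)
    (hf : ∀ v, f^[l] v = v) (h0 : f 0 = 0) (h : ∀ v, f v = v → v = 0) : l ∣ Nat.card U - 1 := by
  classical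
  haveI := Fintype.ofFinite U
  haveI : Fact l.Prime := ⟨hl⟩
  let f' : Function.End U := f
  have e1 : ∀ (n : ℕ) (v : U), (f' ^ n) v = f^[n] v := by
    intro n
    induction n with
    | zero => intro v; rfl
    | succ n ih =>
      intro v
      rw [pow_succ, Function.iterate_succ_apply, ← ih]
      rfl
  have h1 := Equiv.Perm.card_fixedPoints_modEq (f := f') (p := l) (n := 1) (by
    funext v
    rw [pow_one]
    exact (e1 l v).trans (hf v))
  have h2 : Fintype.card (Function.fixedPoints f') = 1 := by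
    rw [Fintype.card_eq_one_iff]
    exact ⟨⟨0, h0⟩, fun ⟨v, hv⟩ => Subtype.ext (h v hv)⟩
  rw [h2] at h1
  rw [Nat.card_eq_fintype_card]
  exact (Nat.modEq_iff_dvd' Fintype.card_pos).1 h1.symm

/-- the theorem of 938, without the hypothesis on the cube of `g` -/
theorem semi' (K : Type u) [Field K] [Finite K] (W : Type v) [AddCommGroup W] [Module K W]
    [Finite W] (hW : Module.finrank K W = 4) (σ : K ≃+* K) (hσ : ∃ k, σ k ≠ k)
    (hσ3 : ∀ k, σ (σ (σ k)) = k) (g : W → W) (ginj : Function.Injective g)
    (gadd : ∀ v w, g (v + w) = g v + g w)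
    (gsm : ∀ (k : K) v, g (k • v) = σ k • g v) (s : W →ₗ[K] W) (l : ℕ) (hl : l.Prime)
    (hsl : ∀ v, (s ^ l) v = v) (hfix : ∀ v, s v = v → v = 0) (hcomm : ∀ v, s (g v) = g (s v))
    (hq : ∀ q0 : ℕ, Nat.card K = q0 ^ 3 → ∀ j, 0 < j → j < 12 → ¬ l ∣ q0 ^ j - 1) : False := by
  classical
  obtain ⟨k0, hk0⟩ := hσ
  set τ : RingAut K := σ with hτ
  have hτ1 : τ ≠ 1 := by
    intro h
    apply hk0
    have h1 : τ k0 = (1 : RingAut K) k0 := by rw [h]
    exact h1
  have hτ3 : τ ^ 3 = 1 := by
    apply RingEquiv.ext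
    intro x
    rw [pow_succ, pow_two]
    exact hσ3 x
  haveI : Fact (Nat.Prime 3) := ⟨Nat.prime_three⟩
  have ho : orderOf τ = 3 := orderOf_eq_prime hτ3 hτ1
  have hfo : IsOfFinOrder τ := orderOf_pos_iff.1 (by rw [ho]; norm_num)
  have hfin : Finite (Subgroup.zpowers τ) := finite_zpowers.2 hfo
  let _ : Fintype (Subgroup.zpowers τ) := Fintype.ofFinite _
  have : FaithfulSMul (Subgroup.zpowers τ) K := ⟨fun {a b} h => Subtype.ext (RingEquiv.ext h)⟩
  set F := FixedPoints.subfield (Subgroup.zpowers τ) K with hF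
  have hmem : ∀ x : F, σ (x : K) = x := fun x => x.2 ⟨τ, Subgroup.mem_zpowers τ⟩
  have h3 : Module.finrank F K = 3 := by
    rw [FixedPoints.finrank_eq_card, ← Nat.card_eq_fintype_card, Nat.card_zpowers, ho]
  have hcK : Nat.card K = Nat.card F ^ 3 := by
    rw [Module.natCard_eq_pow_finrank (K := F), h3]
  have hWF : Module.finrank F W = 12 := by
    rw [← Module.finrank_mul_finrank F K W, h3, hW]
  haveI : Module.Finite F W := Module.Finite.of_finite
  -- a nonzero vector
  have hne : ∃ v : W, v ≠ 0 := by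
    haveI : Nontrivial W := Module.nontrivial_of_finrank_pos (R := K) (by rw [hW]; norm_num)
    exact exists_ne 0
  obtain ⟨v, hv⟩ := hne
  let U : Submodule F W := Submodule.span F (Set.range fun i : ℕ => (s ^ i) v)
  have hsU : ∀ w ∈ U, s w ∈ U := by
    intro w hw
    refine Submodule.span_induction ?_ ?_ ?_ ?_ hw
    · rintro _ ⟨i, rfl⟩
      refine Submodule.subset_span ⟨i + 1, ?_⟩
      show (s ^ (i + 1)) v = s ((s ^ i) v)
      rw [pow_succ']
      rfl
    · rw [map_zero]; exact U.zero_mem
    · intro x y _ _ hx hy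
      rw [map_add]; exact U.add_mem hx hy
    · intro a x _ hx
      have h1 : s (a • x) = a • s x := map_smul s (a : K) x
      rw [h1]; exact U.smul_mem a hx
  have hvU : v ∈ U := Submodule.subset_span ⟨0, rfl⟩
  let f : U → U := fun w => ⟨s w, hsU w w.2⟩
  have hfi : ∀ (i : ℕ) (w : U), ((f^[i] w : U) : W) = (s ^ i) (w : W) := by
    intro i
    induction i with
    | zero => intro w; rfl
    | succ i ih =>
      intro w
      rw [Function.iterate_succ_apply', pow_succ']
      show s ((f^[i] w : U) : W) = s ((s ^ i) (w : W))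
      rw [ih]
  have hd : l ∣ Nat.card U - 1 := by
    refine dvd_card_sub_one hl f (fun w => Subtype.ext ?_) (Subtype.ext (map_zero s)) fun w hw => ?_
    · rw [hfi, hsl]
    · exact Subtype.ext (hfix _ (congrArg Subtype.val hw))
  have hcU : Nat.card U = Nat.card F ^ Module.finrank F U := Module.natCard_eq_pow_finrank
  have hpos : 0 < Module.finrank F U := by
    haveI : Nontrivial U := ⟨⟨⟨v, hvU⟩, 0, fun h => hv (congrArg Subtype.val h)⟩⟩
    exact Module.finrank_pos
  have hle : Module.finrank F U ≤ 12 := by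
    rw [← hWF]; exact Submodule.finrank_le U
  have h12 : Module.finrank F U = 12 := by
    by_contra hlt
    refine hq _ hcK (Module.finrank F U) hpos (by omega) ?_
    rw [← hcU]
    exact hd
  have hU : U = ⊤ := Submodule.eq_top_of_finrank_eq (by rw [h12, hWF])
  -- `g` is a polynomial in `s`
  have hgv : g v ∈ U := by rw [hU]; trivial
  obtain ⟨a, ha⟩ := (Finsupp.mem_span_range_iff_exists_finsupp).1 hgv
  let P : W →ₗ[K] W := a.sum fun i x => (x : K) • s ^ i
  have hP : ∀ w, P w = a.sum fun i x => (x : K) • (s ^ i) w := by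
    intro w
    show (a.sum fun i x => (x : K) • s ^ i) w = _
    rw [Finsupp.sum, LinearMap.sum_apply]
    rfl
  have hPs : ∀ w, P (s w) = s (P w) := by
    intro w
    rw [hP, hP, Finsupp.sum, Finsupp.sum, map_sum]
    refine Finset.sum_congr rfl fun i _ => ?_
    rw [map_smul]
    congr 1
    show (s ^ i * s) w = (s * s ^ i) w
    rw [← pow_succ, ← pow_succ']
  have hsi : ∀ (i : ℕ), g ((s ^ i) v) = P ((s ^ i) v) := by
    intro i
    induction i with
    | zero =>
      show g v = P v
      rw [hP, ← ha]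
      rfl
    | succ i ih =>
      have e1 : (s ^ (i + 1)) v = s ((s ^ i) v) := by
        rw [pow_succ']; rfl
      rw [e1, ← hcomm, ih, hPs]
  have g0 : g 0 = 0 := by
    have h1 := gadd 0 0
    rw [add_zero] at h1
    exact left_eq_add.1 h1
  have hall : ∀ w, g w = P w := by
    intro w
    have hw : w ∈ U := by rw [hU]; trivial
    refine Submodule.span_induction ?_ ?_ ?_ ?_ hw
    · rintro _ ⟨i, rfl⟩
      exact hsi i
    · rw [g0, map_zero]
    · intro x y _ _ hx hy
      rw [gadd, hx, hy, map_add]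
    · intro b x _ hx
      have h1 : P (b • x) = b • P x := map_smul P (b : K) x
      have h2 : g (b • x) = σ (b : K) • g x := gsm b x
      rw [h1, h2, hmem, hx]
      rfl
  have hzero : ∀ w, g w = 0 := by
    intro w
    have h1 := gsm k0 w
    rw [hall, map_smul, ← hall] at h1
    have h2 : (k0 - σ k0) • g w = 0 := by rw [sub_smul, h1, sub_self]
    exact (smul_eq_zero.1 h2).resolve_left fun h => hk0 (sub_eq_zero.1 h).symm
  exact hv (ginj ((hzero v).trans g0.symm))

end Vale.Agent.P240.R2.H687.T
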