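import Vale.Agent.P240.R2.H687.TD
import Vale.Agent.P240.R2.H687.TS
import Vale.Agent.P240.R2.H329.Ev3

/-!
Automorphisms of `PΩ_8^+(q)` of order `3` that fix the element `c` are inner.
-/

set_option autoImplicit false
set_option linter.all false

namespace Vale.Agent.P240.R2.H687.T

open Matrix Subgroup Vale.Agent.P240.R2.H145.EO Vale.Agent.P240.K Vale.Agent.P240.H195
open Vale.Agent.P240.R2.H401.D (fd)
open Vale.Agent.P240.R2.H275.F3
open Vale.Agent.P240.R2.H329 (sg)
open Vale.Agent.P240.R2.H329.Ev (RR cO tw gm tw_SOD tw_tw gm_coe ac_gm tw_mul actL_tw two_sim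
  conj_iff tw_inj)

universe u v

section

variable {K : Type u} [Field K] [Fintype K] {d ε : K} {y : Fin 8 → Fin 8 → K}
variable {l r : ℕ} {s : GL (Fin 8) K}

/-- (U) the field automorphism is determined by the automorphism -/
def StmtField : Prop :=
  ∀ (K : Type u) [Field K] [Fintype K] (d : K), FNum K 7 d → ∀ τ : RingAut K,
    ((1 : MulAut ↥(commutator (PO (fd 7 d)))), τ) ∈ RR (fd 7 d) → τ = 1

/-- the class of `s` -/
noncomputable def Da.cs (D : Da K d ε y l r s) : SOD (fd 7 d) := ⟨s, D.s_SOD⟩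

lemma Da.f_s (D : Da K d ε y l r s) {f : MulAut ↥(commutator (PO (fd 7 d)))}
    (hf : f (cl _ D.c) = cl _ D.c) : f (cl _ D.cs) = cl _ D.cs := by
  obtain ⟨k, hk⟩ := D.s_pow
  have e : D.cs = D.c ^ k := Subtype.ext hk.symm
  rw [e, map_pow, map_pow, hf]

/-- an element that agrees with `s` up to sign and has odd order -/
lemma Da.sign (D : Da K d ε y l r s) {g : GL (Fin 8) K} (hg : g ^ l = 1)
    (h : s = g ∨ s = -g) : g = s := by
  rcases h with h | h
  · exact h.symm
  · exfalso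
    have e := D.sd.pw
    rw [h, Odd.neg_pow (D.sd.prime.odd_of_ne_two D.l2), hg] at e
    have e6 := congrArg (fun g : GL (Fin 8) K => g.1 0 0) e
    have e7 : (-1 : K) = 1 := by
      have : ((-1 : GL (Fin 8) K)).1 0 0 = -1 := by
        show (-(1 : Matrix (Fin 8) (Fin 8) K)) 0 0 = -1
        simp
      have h8 : ((1 : GL (Fin 8) K)).1 0 0 = (1 : K) := by
        show (1 : Matrix (Fin 8) (Fin 8) K) 0 0 = 1
        simp
      rw [← this, ← h8]
      exact e6
    apply D.hK.h2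
    linear_combination -e7

lemma Da.comm_lift (D : Da K d ε y l r s) {g : SOD (fd 7 d)}
    (h : cl _ g * cl _ D.cs = cl _ D.cs * cl _ g) : s * g.1 = g.1 * s := by
  have e : cl (fd 7 d) (g * D.cs * g⁻¹) = cl _ D.cs := by
    rw [map_mul, map_mul, map_inv, h]
    group
  have e1 : (g.1 * s * g.1⁻¹) ^ l = 1 := by
    rw [conj_pow, D.sd.pw, mul_one, mul_inv_cancel]
  have e2 : g.1 * s * g.1⁻¹ = s := D.sign e1 ((cl_eq_iff D.hK _ _).1 e)
  rw [mul_inv_eq_iff_eq_mul] at e2
  exact e2.symm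

/-- the sign matrix commutes with `s` -/
lemma Da.comm_t (D : Da K d ε y l r s) (h4 : y 4 = Pi.single 1 1) (h6 : y 6 = Pi.single 3 1) :
    s * (Dg D.hK (sg (1 : Fin 7) * sg (3 : Fin 7))).1 =
      (Dg D.hK (sg (1 : Fin 7) * sg (3 : Fin 7))).1 * s := by
  have hb := D.hb
  obtain ⟨hO, s4, -, s6, -⟩ := D.sd.mem
  have key : ∀ x : Fin 8 → K, ac (Dg D.hK (sg (1 : Fin 7) * sg (3 : Fin 7))).1 x =
      x - (2 * B (fd 7 d) (y 4) x) • y 4 - (2 * B (fd 7 d) (y 6) x) • y 6 := by
    intro x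
    have e0 : (Dg D.hK (sg (1 : Fin 7) * sg (3 : Fin 7))).1.1 =
        diagonal (fun k => if k = 1 ∨ k = 3 then (-1 : K) else 1) := by
      have := D.hK
      show (DG K (sg (1 : Fin 7) * sg (3 : Fin 7))).1 = _
      rw [DG_coe]
      congr 1
      funext k
      have e1 : es (sg (1 : Fin 7) * sg (3 : Fin 7)) k = if k = 1 ∨ k = 3 then -1 else 1 := by
        revert k
        decide
      rw [e1]
      split_ifs <;> simp
    rw [show ac (Dg D.hK (sg (1 : Fin 7) * sg (3 : Fin 7))).1 x =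
      (Dg D.hK (sg (1 : Fin 7) * sg (3 : Fin 7))).1.1 *ᵥ x from rfl, e0, h4, h6, B_single, B_single]
    funext k
    rw [mulVec_diagonal]
    have f1 : fd 7 d 1 = 1 := Vale.Agent.P240.R2.H275.fd_one 1 (by decide)
    have f3 : fd 7 d 3 = 1 := Vale.Agent.P240.R2.H275.fd_one 3 (by decide)
    rw [f1, f3]
    simp only [Pi.sub_apply, Pi.smul_apply, smul_eq_mul, Pi.single_apply]
    by_cases k1 : k = 1
    · subst k1
      simp
      ring
    · by_cases k3 : k = 3
      · subst k3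
        simp
        ring
      · simp [k1, k3]
  apply gl_ext
  intro x
  have e3 : ∀ v w : Fin 8 → K, ac s (v - w) = ac s v - ac s w := by
    intro v w
    rw [sub_eq_add_neg, ac_add, ac_neg, ← sub_eq_add_neg]
  have e4 : B (fd 7 d) (y 4) (ac s x) = B (fd 7 d) (y 4) x := by
    conv_lhs => rw [← s4]
    exact OD_B hO _ _
  have e6 : B (fd 7 d) (y 6) (ac s x) = B (fd 7 d) (y 6) x := by
    conv_lhs => rw [← s6]
    exact OD_B hO _ _
  rw [ac_mul, ac_mul, key, key, e4, e6, e3, e3, ac_smul, ac_smul, s4, s6]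

/-- the automorphism is a semilinear similitude -/
theorem Da.good (D : Da K d ε y l r s) (hC : StmtCount.{u}) (h4 : y 4 = Pi.single 1 1)
    (h6 : y 6 = Pi.single 3 1) {f : MulAut ↥(commutator (PO (fd 7 d)))}
    (hf : f (cl _ D.c) = cl _ D.c) : Good f D.hK := by
  obtain ⟨g, hg⟩ := cl_surj (f (cl _ (Dg D.hK (sg (1 : Fin 7) * sg (3 : Fin 7)))))
  have hfs := D.f_s hf
  have hc : s * g.1 = g.1 * s := by
    apply D.comm_lift
    rw [hg, ← hfs, ← map_mul, ← map_mul, ← map_mul, ← map_mul]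
    congr 2
    exact Subtype.ext (D.comm_t h4 h6).symm
  refine good_of_pair f D.hK (i := 1) (j := 3) (by decide) hg fun h => ?_
  exact D.sd.noJ D.hb hC D.hε (SOD_le g.2) hc h

end

end Vale.Agent.P240.R2.H687.T
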