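import Vale.Agent.P240.R2.H687.TE

/-!
Automorphisms of `PΩ_8^+(q)` of order `3` that fix the element `c` are inner; `EuFree 3`.
-/

set_option autoImplicit false
set_option linter.all false

namespace Vale.Agent.P240.R2.H687.T

open Matrix Subgroup Vale.Agent.P240.R2.H145.EO Vale.Agent.P240.K Vale.Agent.P240.H195
open Vale.Agent.P240.R2.H401.D (fd)
open Vale.Agent.P240.R2.H275.F3
open Vale.Agent.P240.R2.H329 (sg)
open Vale.Agent.P240.R2.H329.Ev (RR cO tw gm tw_SOD tw_tw gm_coe ac_gm tw_mul actL_tw two_sim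
  conj_iff tw_inj)

universe u v

section

variable {K : Type u} [Field K] [Fintype K] {d ε : K} {y : Fin 8 → Fin 8 → K}
variable {l r : ℕ} {s : GL (Fin 8) K}

/-- automorphisms of order `3` given by similitudes are inner -/
lemma Da.sim_inner (D : Da K d ε y l r s) {f : MulAut ↥(commutator (PO (fd 7 d)))}
    (hf3 : f ^ 3 = 1) (hf : (f, (1 : RingAut K)) ∈ RR (fd 7 d)) :
    f ∈ (MulAut.conj (G := ↥(commutator (PO (fd 7 d))))).range := by
  have h2 := D.hK.h2
  have h1 : f * f ∈ (cO (fd 7 d)).range := by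
    by_cases h : f ∈ (cO (fd 7 d)).range
    · exact mul_mem h h
    · exact two_sim h2 hf hf h h
  obtain ⟨M, hM⟩ := h1
  have h3 : f = cO (fd 7 d) (M * M) := by
    rw [map_mul, hM]
    have : f * f * (f * f) = f ^ 3 * f := by simp only [pow_succ, pow_zero, one_mul, _root_.mul_assoc]
    rw [this, hf3, one_mul]
  rw [conj_iff]
  refine ⟨M * M, ?_, h3⟩
  rw [← abO_eq_one, map_mul]
  obtain ⟨t, ht⟩ : ∃ t : K, ¬ IsSquare t := by
    apply FiniteField.exists_nonsquare
    intro h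
    apply h2
    have := ringChar.spec K 2
    rw [h] at this
    exact_mod_cast this.2 dvd_rfl
  have ht0 : t ≠ 0 := by
    rintro rfl
    exact ht ⟨0, by ring⟩
  have ha := Vale.Agent.P240.R2.H275.fd_ne (m := 7) D.hK.hd
  have ha1 := Vale.Agent.P240.R2.H275.fd_one (m := 7) (d := d)
  have hx0 : ON (fd 7 d) (fun i : Fin 0 => (0 : Fin 8 → K)) := fun i => i.elim0
  obtain ⟨v, -, hv⟩ := perp1 h2 ha ha1 (k := 0) (by omega) hx0 (one_ne_zero (α := K))
  obtain ⟨w, -, hw⟩ := perp1 h2 ha ha1 (k := 0) (by omega) hx0 ht0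
  have hv0 : B (fd 7 d) v v ≠ 0 := by rw [hv]; exact one_ne_zero
  have hw0 : B (fd 7 d) w w ≠ 0 := by rw [hw]; exact ht0
  rcases abO_cases h2 (by omega) ha ha1 hv0 hw0 (by rw [hv]; exact ⟨1, by ring⟩)
    (by rw [hw]; exact ht) M with h | h | h | h
  · rw [h, one_mul]
  · rw [h]; exact abO_rf_sq hv0
  · rw [h]; exact abO_rf_sq hw0
  · rw [h, mul_mul_mul_comm, abO_rf_sq hv0, abO_rf_sq hw0, one_mul]

/-- no field automorphism -/
theorem Da.field (D : Da K d ε y l r s)
    (hq : ∀ q0 : ℕ, Nat.card K = q0 ^ 3 → ∀ j, 0 < j → j < 12 → ¬ l ∣ q0 ^ j - 1)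
    {f : MulAut ↥(commutator (PO (fd 7 d)))} (hfs : f (cl _ D.cs) = cl _ D.cs)
    {M : GL (Fin 8) K} {σ : K ≃+* K} {lam : K} (hl : lam ≠ 0) (hM : SimM (fd 7 d) M σ lam)
    (hx : ActL f M σ) (hσ : ∃ k, σ k ≠ k) (hσ3 : ∀ k, σ (σ (σ k)) = k) : False := by
  have hb := D.hb
  let γ : (Fin 8 → K) → Fin 8 → K := fun v => ac M (fun i => σ (v i))
  let γ' : (Fin 8 → K) → Fin 8 → K := fun w i => σ.symm (ac M⁻¹ w i)
  have hgg : ∀ w, γ (γ' w) = w := by
    intro w
    have e1 : (fun i => σ (γ' w i)) = ac M⁻¹ w := by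
      funext i
      exact σ.apply_symm_apply _
    show ac M (fun i => σ (γ' w i)) = w
    rw [e1, ac_inv']
  have hinj : Function.Injective γ := by
    intro v w hvw
    have e1 : (fun i => σ (v i)) = (fun i => σ (w i)) := by
      rw [← ac_inv M (fun i => σ (v i)), ← ac_inv M (fun i => σ (w i))]
      exact congrArg (ac M⁻¹) hvw
    funext i
    exact σ.injective (congrFun e1 i)
  have hadd : ∀ v w, γ (v + w) = γ v + γ w := by
    intro v w
    show ac M (fun i => σ ((v + w) i)) = ac M (fun i => σ (v i)) + ac M (fun i => σ (w i))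
    rw [← ac_add]
    congr 1
    funext i
    exact map_add σ _ _
  have hsmul : ∀ (k : K) v, γ (k • v) = σ k • γ v := by
    intro k v
    show ac M (fun i => σ ((k • v) i)) = σ k • ac M (fun i => σ (v i))
    rw [← ac_smul]
    congr 1
    funext i
    exact map_mul σ _ _
  have hs : tw M σ s = s := by
    have e1 := actL_tw hM hl hx D.cs
    rw [hfs] at e1
    have e2 : (tw M σ s) ^ l = 1 := by
      have e3 : ∀ k : ℕ, (tw M σ s) ^ k = tw M σ (s ^ k) := by
        intro k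
        induction k with
        | zero =>
          rw [pow_zero, pow_zero]
          unfold tw
          rw [map_one, mul_one, mul_inv_cancel]
        | succ k ih => rw [pow_succ, pow_succ, ih, ← tw_mul]
      rw [e3, D.sd.pw]
      unfold tw
      rw [map_one, mul_one, mul_inv_cancel]
    exact D.sign e2 ((cl_eq_iff D.hK _ _).1 e1.symm)
  have hcomm : ∀ v, ac s (γ v) = γ (ac s v) := by
    intro v
    have e1 : s * M = M * gm σ s := by
      unfold tw at hs
      rw [mul_inv_eq_iff_eq_mul] at hs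
      exact hs.symm
    show ac s (ac M (fun i => σ (v i))) = ac M (fun i => σ (ac s v i))
    rw [← ac_mul, e1, ac_mul, ac_gm]
  have hortho : ∀ v w, B (fd 7 d) v w = 0 → B (fd 7 d) (γ v) (γ w) = 0 := by
    intro v w hvw
    rw [hM v w, hvw, map_zero, mul_zero]
  have hV : ∀ v ∈ V4 (fd 7 d) y, γ v ∈ V4 (fd 7 d) y := fun v hv =>
    D.sd.pres hb hgg hcomm hinj hortho hv
  let sL : V4 (fd 7 d) y →ₗ[K] V4 (fd 7 d) y :=
    { toFun := fun v => ⟨ac s v.1, G8_V4 D.sd.mem v.2⟩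
      map_add' := fun v w => Subtype.ext (ac_add _ _ _)
      map_smul' := fun t v => Subtype.ext (ac_smul _ _ _) }
  have hsL : ∀ (k : ℕ) (v : V4 (fd 7 d) y), ((sL ^ k) v).1 = ac (s ^ k) v.1 := by
    intro k
    induction k with
    | zero => intro v; exact (ac_one _).symm
    | succ k ih =>
      intro v
      rw [pow_succ', pow_succ', ac_mul, ← ih]
      rfl
  have hfin : Finite (V4 (fd 7 d) y) := inferInstance
  refine semi' K (V4 (fd 7 d) y) hb.finrank σ hσ hσ3 (fun v => ⟨γ v.1, hV v.1 v.2⟩) ?_ ?_ ?_ sL l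
    D.sd.prime ?_ ?_ ?_ hq
  · intro v w hvw
    exact Subtype.ext (hinj (congrArg Subtype.val hvw))
  · intro v w
    exact Subtype.ext (hadd _ _)
  · intro k v
    exact Subtype.ext (hsmul _ _)
  · intro v
    apply Subtype.ext
    rw [hsL, D.sd.pw, ac_one]
  · intro v hv
    exact Subtype.ext (D.sd.fix0 hb v.2 (congrArg Subtype.val hv))
  · intro v
    exact Subtype.ext (hcomm v.1)

/-- automorphisms of order `3` fixing `c` are inner -/
theorem Da.inner (D : Da K d ε y l r s) (hC : StmtCount.{u}) (hF : StmtField.{u})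
    (h4 : y 4 = Pi.single 1 1) (h6 : y 6 = Pi.single 3 1)
    (hq : ∀ q0 : ℕ, Nat.card K = q0 ^ 3 → ∀ j, 0 < j → j < 12 → ¬ l ∣ q0 ^ j - 1)
    {f : MulAut ↥(commutator (PO (fd 7 d)))} (hf3 : f ^ 3 = 1)
    (hf : f (cl _ D.c) = cl _ D.c) :
    f ∈ (MulAut.conj (G := ↥(commutator (PO (fd 7 d))))).range := by
  obtain ⟨M, σ, lam, hl, hM, hx⟩ := sem_of_good D.hK f (D.good hC h4 h6 hf)
  have hR : (f, (σ : RingAut K)) ∈ RR (fd 7 d) := ⟨M, lam, hl, hM, hx⟩
  have h3 : (σ : RingAut K) ^ 3 = 1 := by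
    apply hF K d D.hK
    have e := pow_mem hR 3
    rwa [Prod.pow_mk, hf3] at e
  by_cases hσ : ∃ k, σ k ≠ k
  · exfalso
    refine D.field hq (D.f_s hf) hl hM hx hσ fun k => ?_
    have e := congrArg (fun t : RingAut K => t k) h3
    exact e
  · push Not at hσ
    have h1 : (σ : RingAut K) = 1 := RingEquiv.ext hσ
    rw [h1] at hR
    exact D.sim_inner hf3 hR

/-- existence of the basis -/
def StmtBs : Prop :=
  ∀ (K : Type u) [Field K] [Fintype K], (2 : K) ≠ 0 → ∀ d : K, d ≠ 0 → IsSquare d →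
    ∀ ε : K, ε ≠ 0 → ∃ y : Fin 8 → Fin 8 → K, Bs (fd 7 d) ε y ∧ y 4 = Pi.single 1 1 ∧
      y 6 = Pi.single 3 1

/-- **`EuFree 3` for `PΩ_8^+(q)`** -/
theorem euFree_of (hC : StmtCount.{u}) (hT : StmtCen.{u}) (hF : StmtField.{u}) (hB : StmtBs.{u})
    (hP : StmtPrime) {K : Type u} [Field K] [Fintype K] {d : K} (hK : FNum K 7 d)
    (hsq : IsSquare d) (h3K : (3 : K) ≠ 0) : EuFree 3 ↥(commutator (PO (fd 7 d))) := by
  have h2 := hK.h2
  obtain ⟨ε, hε⟩ : ∃ t : K, ¬ IsSquare t := by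
    apply FiniteField.exists_nonsquare
    intro h
    apply h2
    have := ringChar.spec K 2
    rw [h] at this
    exact_mod_cast this.2 dvd_rfl
  have hε0 : ε ≠ 0 := by
    rintro rfl
    exact hε ⟨0, by ring⟩
  obtain ⟨y, hb, h4, h6⟩ := hB K h2 d hK.hd hsq ε hε0
  obtain ⟨r, hrc⟩ := CharP.exists K
  have hrp : r.Prime := CharP.char_is_prime K r
  have : Fact r.Prime := ⟨hrp⟩
  have hr0 : (r : K) = 0 := CharP.cast_eq_zero K r
  have hr2 : r ≠ 2 := by
    rintro rfl
    exact h2 (by exact_mod_cast hr0)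
  have hr3 : r ≠ 3 := by
    rintro rfl
    exact h3K (by exact_mod_cast hr0)
  obtain ⟨k, hk, hcard⟩ := FiniteField.card K r
  have hcard' : Nat.card K = r ^ (k : ℕ) := by rw [Nat.card_eq_fintype_card, hcard]
  have hodd : Odd (Nat.card K) := by
    rw [hcard']
    exact (hrp.odd_of_ne_two hr2).pow
  have h3 : ¬ 3 ∣ Nat.card K := by
    rw [hcard']
    intro h
    exact hr3 ((Nat.prime_dvd_prime_iff_eq Nat.prime_three hrp).1
      (Nat.prime_three.dvd_of_dvd_pow h)).symm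
  have h5 : 5 ≤ Nat.card K := by
    have := hK.h5
    rw [Nat.card_eq_fintype_card]
    omega
  obtain ⟨l, hl, hl2, hl3, hld, hl4, hq⟩ := hP (Nat.card K) hodd h5 h3
  obtain ⟨s, hs⟩ := exists_s hb hC hε hl hld hl4
  have hlr : l ≠ r := by
    rintro rfl
    exact hs.hq (by rw [hcard']; exact dvd_pow_self l k.2.ne')
  have D : Da K d ε y l r s := ⟨hK, hb, hε, hs, hl2, hl3, hrp, hr0, hr2, hr3, hlr, h3K, h3⟩
  exact ⟨cl _ D.c, D.eu hC hT, fun f hf3 hfo hfc => hfo (D.inner hC hF h4 h6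
    (fun q0 h0 => hq q0 h0) hf3 hfc)⟩

end

end Vale.Agent.P240.R2.H687.T
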