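import Vale.Agent.P240.R2.H687.TC
import Vale.Agent.P240.R2.H275.F3i
import Vale.Agent.P240.H195.SO6

/-!
The group `PΩ_8^+(5)`: no elementary abelian `3`-subgroup is normalized by the element `c`.
-/

set_option autoImplicit false
set_option linter.all false

namespace Vale.Agent.P240.R2.H687.T

open Matrix Subgroup Vale.Agent.P240.R2.H145.EO Vale.Agent.P240.K Vale.Agent.P240.H195
open Vale.Agent.P240.R2.H401.D (fd)
open Vale.Agent.P240.R2.H275.F3

universe u v

section

variable {K : Type u} [Field K] {d ε : K} {y : Fin 8 → Fin 8 → K}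

/-- the centre of the isometry group -/
lemma center_pm (h2 : (2 : K) ≠ 0) (hd : d ≠ 0) (hsq : IsSquare d) {g : OD (fd 7 d)}
    (hg : g ∈ Subgroup.center ↥(OD (fd 7 d))) : g.1 = 1 ∨ g.1 = -1 := by
  obtain ⟨b, hb⟩ := hsq
  have hb0 : b ≠ 0 := by
    rintro rfl
    exact hd (by rw [hb, mul_zero])
  have key : ∀ v : Fin 8 → K, B (fd 7 d) v v ≠ 0 → ∃ c : K, ac g.1 v = c • v := by
    intro v hv
    have e := (Subgroup.mem_center_iff.1 hg) ⟨rf (fd 7 d) v hv, rf_mem hv⟩
    have e1 : rf (fd 7 d) v hv * g.1 = g.1 * rf (fd 7 d) v hv := congrArg Subtype.val e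
    have e2 : ac (rf (fd 7 d) v hv) (ac g.1 v) = ac g.1 (ac (rf (fd 7 d) v hv) v) := by
      rw [← ac_mul, e1, ac_mul]
    have e3 : ac (rf (fd 7 d) v hv) v = -v := by
      rw [ac_rf, mul_div_assoc, div_self hv, mul_one]
      module
    rw [e3, ac_neg, ac_rf] at e2
    refine ⟨B (fd 7 d) v (ac g.1 v) / B (fd 7 d) v v, ?_⟩
    have e4 : (2 : K) • ac g.1 v = (2 : K) • ((B (fd 7 d) v (ac g.1 v) / B (fd 7 d) v v) • v) := by
      have e5 : (2 : K) • ac g.1 v = ac g.1 v - (2 * B (fd 7 d) v (ac g.1 v) / B (fd 7 d) v v) • v +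
          ac g.1 v + (2 * B (fd 7 d) v (ac g.1 v) / B (fd 7 d) v v) • v := by module
      rw [e5, e2, smul_smul, ← mul_div_assoc]
      module
    exact smul_right_injective _ h2 e4
  have ha : ∀ i : Fin 8, i ≠ 7 → fd 7 d i = 1 := by
    intro i hi
    unfold fd
    rw [if_neg]
    exact hi
  have ha7 : fd 7 d 7 = d := by
    unfold fd
    rw [if_pos]
    rfl
  have hself : ∀ i, B (fd 7 d) (Pi.single i 1) (Pi.single i 1) = fd 7 d i := by
    intro i
    rw [B_single, Pi.single_eq_same]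
    ring
  have hne : ∀ i, fd 7 d i ≠ 0 := Vale.Agent.P240.R2.H275.fd_ne hd
  choose c hc using fun i => key (Pi.single i 1) (by rw [hself]; exact hne i)
  -- all scalars agree
  have hall : ∀ i, c i = c 0 := by
    intro i
    by_cases hi0 : i = 0
    · rw [hi0]
    obtain ⟨t, ht0, ht⟩ : ∃ t : K, t ≠ 0 ∧ t * t * fd 7 d i = 1 := by
      by_cases hi : i = 7
      · refine ⟨b⁻¹, inv_ne_zero hb0, ?_⟩
        rw [hi, ha7, hb]
        field_simp
      · exact ⟨1, one_ne_zero, by rw [ha i hi]; ring⟩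
    have h0i : (0 : Fin 8) ≠ i := fun h => hi0 h.symm
    have hcross : B (fd 7 d) (Pi.single 0 1) (Pi.single i 1) = 0 := by
      rw [B_single, Pi.single_eq_of_ne h0i]
      ring
    have hnorm : B (fd 7 d) (Pi.single 0 1 + t • Pi.single i 1) (Pi.single 0 1 + t • Pi.single i 1) ≠
        0 := by
      rw [B_add_left, B_add_right, B_add_right, B_smul_left, B_smul_left, B_smul_right,
        B_smul_right, hself, hself, B_comm (Pi.single i 1), hcross, ha 0 (by decide)]
      have : (1 : K) + t * 0 + (t * 0 + t * (t * fd 7 d i)) = 2 := by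
        linear_combination ht
      rw [this]
      exact h2
    obtain ⟨c', hc'⟩ := key _ hnorm
    rw [ac_add, ac_smul, hc, hc] at hc'
    have e0 := congrFun hc' 0
    have ei := congrFun hc' i
    simp only [Pi.add_apply, Pi.smul_apply, smul_eq_mul, Pi.single_eq_same,
      Pi.single_eq_of_ne h0i, Pi.single_eq_of_ne h0i.symm, mul_zero, add_zero, zero_add,
      mul_one] at e0 ei
    rw [e0]
    have : t * (c i - c') = 0 := by linear_combination ei
    exact sub_eq_zero.1 ((mul_eq_zero.1 this).resolve_left ht0)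
  have hsc : ∀ v, ac g.1 v = c 0 • v := by
    have h1 : g.1.1 = c 0 • (1 : Matrix (Fin 8) (Fin 8) K) := by
      apply Matrix.ext_of_mulVec_single
      intro i
      rw [smul_mulVec, one_mulVec, ← hall i]
      exact hc i
    intro v
    unfold ac
    rw [h1, smul_mulVec, one_mulVec]
  have hcc : c 0 * c 0 = 1 := by
    have e := OD_B g.2 (Pi.single 0 1) (Pi.single 0 1)
    rw [hsc, B_smul_left, B_smul_right, hself, ha 0 (by decide)] at e
    linear_combination e
  have hf : (c 0 - 1) * (c 0 + 1) = 0 := by linear_combination hcc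
  rcases mul_eq_zero.1 hf with h | h
  · left
    apply gl_ext
    intro v
    rw [hsc, ac_one, sub_eq_zero.1 h, one_smul]
  · right
    apply gl_ext
    intro v
    have e : ac (-1 : GL (Fin 8) K) v = -v := by
      show (-(1 : Matrix (Fin 8) (Fin 8) K)) *ᵥ v = -v
      rw [neg_mulVec, one_mulVec]
    rw [hsc, e, eq_neg_of_add_eq_zero_left h, neg_smul, one_smul]

/-- equality of classes -/
lemma cl_eq_pm (h2 : (2 : K) ≠ 0) (hd : d ≠ 0) (hsq : IsSquare d) (g h : SOD (fd 7 d)) :
    cl _ g = cl _ h ↔ g.1 = h.1 ∨ g.1 = -h.1 := by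
  have h1 : ∀ k : SOD (fd 7 d), cl _ k = 1 ↔ k.1 = 1 ∨ k.1 = -1 := by
    intro k
    have e1 : cl _ k = 1 ↔ (⟨k.1, (mem_SOD.1 k.2).1⟩ : OD (fd 7 d)) ∈
        Subgroup.center ↥(OD (fd 7 d)) := by
      rw [← QuotientGroup.eq_one_iff]
      exact Subtype.ext_iff
    rw [e1]
    constructor
    · intro h
      exact center_pm h2 hd hsq h
    · rintro h
      rw [Subgroup.mem_center_iff]
      intro z
      apply Subtype.ext
      show z.1 * k.1 = k.1 * z.1
      rcases h with h | h <;> rw [h]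
      · rw [mul_one, one_mul]
      · rw [mul_neg, neg_mul, mul_one, one_mul]
  have e2 : cl _ g = cl _ h ↔ cl _ (g * h⁻¹) = 1 := by
    rw [map_mul, map_inv, mul_inv_eq_one]
  rw [e2, h1]
  show g.1 * h.1⁻¹ = 1 ∨ g.1 * h.1⁻¹ = -1 ↔ _
  constructor
  · rintro (h3 | h3)
    · left
      exact mul_inv_eq_one.1 h3
    · right
      rw [mul_inv_eq_iff_eq_mul] at h3
      rw [h3, neg_mul, one_mul]
  · rintro (h3 | h3)
    · left
      rw [h3, mul_inv_cancel]
    · right
      rw [h3, neg_mul, mul_inv_cancel]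

end

end Vale.Agent.P240.R2.H687.T
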