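import Vale.Agent.P240.R2.H687.TI
import Vale.Agent.P240.R2.H687.TJ
import Vale.Agent.P240.R2.H63.OddMain3

/-!
The groups `PΩ_8^+(q)` at the prime `3`.
-/

set_option autoImplicit false
set_option linter.all false

namespace Vale.Agent.P240.R2.H687.T

open Matrix Subgroup Vale.Agent.P240.R2.H145.EO Vale.Agent.P240.K Vale.Agent.P240.H195
open Vale.Agent.P240.R2.H401.D (fd)
open Vale.Agent.P240.R2.H275.F3
open Vale.Agent.P240.R2.H63.Odd Vale.Agent.P240.R2
open Vale.Agent.P240.R2.H432.Q (POQ)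

universe u v

/-- **`EuFree 3` for `PΩ_8^+(q)`**, all forms of dimension `8` with square discriminant -/
theorem euFree_POm {F : Type u} [Field F] [Finite F] (h2 : (2 : F) ≠ 0) (h3 : (3 : F) ≠ 0)
    {A : Matrix (Fin 8) (Fin 8) F} (hA : Aᵀ = A) (h0 : A.det ≠ 0) (hsq : IsSquare A.det)
    {L : Type v} [Group L] (h5 : 5 < Nat.card F ∨ (StmtQ5.{u} ∧ IsSimpleGroup L))
    (e : L ≃* OF.POm A) : EuFree 3 L := by
  haveI := Fintype.ofFinite F
  obtain ⟨D, hD, P, hP⟩ := OF.exists_normal (m := 7) h2 hA h0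
  obtain ⟨f⟩ := OF.nonempty_POm (c := 1) one_ne_zero (hP.trans (one_smul F _).symm)
  obtain ⟨c, hc⟩ := hsq
  have hsqD : IsSquare D := by
    have h4 := congrArg Matrix.det hP
    rw [det_mul, det_mul, det_transpose, OF.dl_det, hc] at h4
    exact ⟨P.1.det * c, by rw [← h4]; ring⟩
  have h : EuFree 3 ↥(_root_.commutator (PO (fd 7 D))) := by
    rcases h5 with h5 | h5
    · exact euFree_big stmtField h2 (by rwa [Nat.card_eq_fintype_card] at h5) hD hsqD h3
    · haveI := h5.2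
      exact euFree_D4' stmtField h5.1 h2 h3 hD hsqD
        (((e.trans f).trans (H329.Ev.pomD 7 D)).symm.isSimpleGroup)
  have : Finite ↥(_root_.commutator (PO (fd 7 D))) := inferInstance
  exact h.congr ((e.trans f).trans (H329.Ev.pomD 7 D)).symm

/-- **dimension `8`, `p = 3`** -/
theorem cov_eight {L : Type u} [Group L] {F : Type} [Field F] [Finite F]
    (hs : IsSimpleGroup L) (hnab : ∃ x y : L, x * y ≠ y * x) (hd : 3 ∣ Nat.card L)
    (h2 : (2 : F) ≠ 0) (h3 : (3 : F) ≠ 0) (h5 : 5 < Nat.card F)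
    {A : Matrix (Fin 8) (Fin 8) F} (hA : Aᵀ = A) (h0 : A.det ≠ 0) (e : L ≃* OF.POm A)
    (𝕜 : Type v) [Field 𝕜] : Cov 𝕜 3 L := by
  haveI : Fact (Nat.Prime 3) := ⟨Nat.prime_three⟩
  by_cases hsq : IsSquare A.det
  · exact Cov.good (Or.inr (Or.inr (Or.inl ⟨euFree_POm h2 h3 hA h0 hsq (Or.inl h5) e, hd⟩)))
  · exact cov_large (p := 3) (by norm_num) hs hnab le_rfl rfl h2 hA h0 (by exact_mod_cast h3)
      (fun _ h => absurd h hsq) h5 e 𝕜

section
variable {L : Type u} [Group L] {F : Type} [Field F] [Finite F] {p : ℕ} [hp : Fact p.Prime]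

/-- **the orthogonal groups** at odd primes: no exception for `|F| ≠ 5` -/
theorem cov_POQ_full (hp2 : p ≠ 2) (hs : IsSimpleGroup L) (hnab : ∃ x y : L, x * y ≠ y * x)
    (hd : p ∣ Nat.card L) {n : ℕ} (hn5 : 5 ≤ n) {Q : QuadraticForm F (Fin n → F)}
    (hQ : ∀ v, (∀ w, QuadraticMap.polar Q v w = 0) → v = 0)
    (h83 : Nat.card F ≠ 5 ∨ ¬ (n = 8 ∧ p = 3)) (e : L ≃* POQ Q)
    (𝕜 : Type v) [Field 𝕜] : Cov 𝕜 p L := by
  by_cases h1 : (p : F) = 0 ∨ (2 : F) = 0 ∨ ¬ (n = 8 ∧ p = 3)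
  · exact cov_POQ_all hp2 hs hnab hd hn5 hQ h1 e 𝕜
  simp only [not_or, not_not] at h1
  obtain ⟨hp0, h2, rfl, rfl⟩ := h1
  have h5 : Nat.card F ≠ 5 := h83.resolve_right (fun h => h ⟨rfl, rfl⟩)
  have h3 : (3 : F) ≠ 0 := by exact_mod_cast hp0
  obtain ⟨A, hA, hA0, ⟨f⟩⟩ := H432.Q.poq_pom h2 Q hQ
  have h7 : 5 < Nat.card F := by
    rcases card_cases h2 with h | h | h
    · exfalso
      haveI := Fintype.ofFinite F
      have h4 : (Nat.card F : F) = 0 := by
        rw [Nat.card_eq_fintype_card]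
        exact Nat.cast_card_eq_zero F
      rw [h] at h4
      exact h3 (by exact_mod_cast h4)
    · exact absurd h h5
    · exact h
  exact cov_eight hs hnab hd h2 h3 h7 hA hA0 (e.trans f) 𝕜

end

end Vale.Agent.P240.R2.H687.T
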