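import Vale.Agent.P240.R2.H687.TC

/-!
The element `s` fixes a singular vector and no totally singular subspace of dimension `4`.
-/

set_option autoImplicit false
set_option linter.all false

namespace Vale.Agent.P240.R2.H687.T

open Matrix Subgroup Vale.Agent.P240.R2.H145.EO
open Vale.Agent.P240.R2.H401.D (fd)

universe u v

section

variable {K : Type u} [Field K] {a : Fin 8 → K} {ε : K} {y : Fin 8 → Fin 8 → K}
variable {l : ℕ} {s : GL (Fin 8) K}

/-- a singular vector fixed by `s` -/
theorem Sd.sing (h : Sd a y l s) (hb : Bs a ε y) : y 4 + y 5 ≠ 0 ∧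
    B a (y 4 + y 5) (y 4 + y 5) = 0 ∧ ac s (y 4 + y 5) = y 4 + y 5 := by
  obtain ⟨-, h4, h5, -, -⟩ := h.mem
  refine ⟨?_, hb.bvv, by rw [ac_add, h4, h5]⟩
  intro h0
  have h1 : B a (y 4 + y 5) (y 4) = 1 := by
    rw [B_add_left, hb.orth, hb.orth]; simp [nn]
  rw [h0, B_comm, B_zero_right] at h1
  exact zero_ne_one h1

/-- no totally singular subspace of dimension `4` is stable -/
theorem Sd.no_ts [Finite K] (h : Sd a y l s) (hb : Bs a ε y)
    {U : Submodule K (Fin 8 → K)} (hr : Module.finrank K U = 4)
    (hU : ∀ v ∈ U, ac s v ∈ U) (hts : ∀ v ∈ U, B a v v = 0) : False := by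
  have hle : Fx s U ≤ U := fun v hv => hv.1
  rcases h.rank hU with h1 | h1
  · -- `s` is trivial on `U`
    have h2 : Fx s U = U :=
      Submodule.eq_of_le_of_finrank_eq hle (le_antisymm (Submodule.finrank_mono hle) h1)
    -- the fixed vectors of `s`
    let W : Submodule K (Fin 8 → K) := Fx s ⊤
    have hUW : U ≤ W := by
      intro v hv
      rw [← h2] at hv
      exact ⟨trivial, hv.2⟩
    have hdis : Disjoint W (V4 a y) := by
      rw [Submodule.disjoint_def]
      intro v hv hv'
      exact h.fix0 hb hv' hv.2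
    have h3 : Module.finrank K W + Module.finrank K (V4 a y) ≤ 8 := by
      have e := Submodule.finrank_sup_add_finrank_inf_eq W (V4 a y)
      rw [disjoint_iff.1 hdis, finrank_bot, add_zero] at e
      rw [← e]
      refine (Submodule.finrank_le _).trans ?_
      rw [Module.finrank_fin_fun]
    rw [hb.finrank] at h3
    have h4 : U = W := Submodule.eq_of_le_of_finrank_eq hUW
      (le_antisymm (Submodule.finrank_mono hUW) (by omega))
    have h5 : y 4 ∈ U := by
      rw [h4]
      exact ⟨trivial, h.mem.2.1⟩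
    have h6 := hts _ h5
    rw [hb.orth] at h6
    simp [nn] at h6
  · -- no fixed vectors
    have h2 : Fx s U = ⊥ := Submodule.finrank_eq_zero.1 (by omega)
    let f : U →ₗ[K] U :=
      { toFun := fun v => ⟨ac s v.1 - v.1, sub_mem (hU _ v.2) v.2⟩
        map_add' := fun v w => Subtype.ext (by
          show ac s (v.1 + w.1) - (v.1 + w.1) = (ac s v.1 - v.1) + (ac s w.1 - w.1)
          rw [ac_add]
          abel)
        map_smul' := fun t v => Subtype.ext (by
          show ac s (t • v.1) - t • v.1 = t • (ac s v.1 - v.1)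
          rw [ac_smul, smul_sub]) }
    have hf : Function.Injective f := by
      rw [injective_iff_map_eq_zero]
      intro v hv
      have e : ac s v.1 - v.1 = 0 := congrArg Subtype.val hv
      have e1 : v.1 ∈ Fx s U := ⟨v.2, sub_eq_zero.1 e⟩
      rw [h2] at e1
      exact Subtype.ext ((Submodule.mem_bot K).1 e1)
    have hsur : Function.Surjective f := LinearMap.injective_iff_surjective.1 hf
    have hV : U ≤ V4 a y := by
      intro v hv
      obtain ⟨w, hw⟩ := hsur ⟨v, hv⟩
      have e : ac s w.1 - w.1 = v := congrArg Subtype.val hw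
      obtain ⟨w1, hw1, c4, c5, c6, c7, hw2⟩ := hb.split w.1
      obtain ⟨-, h4, h5, h6, h7⟩ := h.mem
      have h8 : ac s (c4 • y 4 + c5 • y 5 + c6 • y 6 + c7 • y 7) =
          c4 • y 4 + c5 • y 5 + c6 • y 6 + c7 • y 7 := by
        rw [ac_add, ac_add, ac_add, ac_smul, ac_smul, ac_smul, ac_smul, h4, h5, h6, h7]
      rw [← e, hw2, ac_add, h8, add_sub_add_right_eq_sub]
      exact sub_mem (G8_V4 h.mem hw1) hw1
    have h3 : U = V4 a y := Submodule.eq_of_le_of_finrank_eq hV (by rw [hr, hb.finrank])
    have h5 : y 0 ∈ U := by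
      rw [h3]
      exact hb.lo_mem.1
    have h6 := hts _ h5
    rw [hb.orth] at h6
    simp [nn] at h6

end

end Vale.Agent.P240.R2.H687.T
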