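import Vale.Agent.P240.R2.AS.Defs

/-!
Transport of `SOL` and `t` along an injective map of letters (P240, module M5a).
-/

set_option autoImplicit false

namespace Vale.Agent.P240.R2.H687

open Finset Vale.Agent.P240.R2.AS
open Vale.Agent.P240.R2.H986 (ev ev_nil ev_single ev_cons)

universe u u' v

noncomputable section

variable {L : Type u} {L' : Type u'}

/-- the words of the image alphabet -/
def mapW (f : L → L') (hf : Function.Injective f) (F : Finset (List L)) : Finset (List L') :=
  F.map ⟨List.map f, List.map_injective_iff.2 hf⟩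

lemma mem_mapW {f : L → L'} {hf : Function.Injective f} {F : Finset (List L)} {w : List L'} :
    w ∈ mapW f hf F ↔ ∃ w₀ ∈ F, w₀.map f = w := by
  simp [mapW]

lemma map_mem_mapW {f : L → L'} {hf : Function.Injective f} {F : Finset (List L)} {w : List L} :
    w.map f ∈ mapW f hf F ↔ w ∈ F := by
  rw [mem_mapW]
  constructor
  · rintro ⟨w₀, h, e⟩
    rwa [← List.map_injective_iff.2 hf e]
  · intro h
    exact ⟨w, h, rfl⟩

lemma exists_map_of_mem {f : L → L'} {w : List L'} (h : ∀ x ∈ w, ∃ y, f y = x) :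
    ∃ w₀ : List L, w₀.map f = w := by
  have h1 : w ∈ Set.range (List.map f) := by
    rw [Set.range_list_map]
    exact h
  exact h1

lemma mapW_perm {f : L → L'} {hf : Function.Injective f} {F : Finset (List L)}
    (hF : ∀ w ∈ F, ∀ w', w.Perm w' → w' ∈ F) :
    ∀ w ∈ mapW f hf F, ∀ w', w.Perm w' → w' ∈ mapW f hf F := by
  intro w hw w' h
  rw [mem_mapW] at hw
  obtain ⟨w₀, h₀, rfl⟩ := hw
  obtain ⟨w₁, rfl⟩ := exists_map_of_mem (f := f) (w := w') fun x hx => by
    obtain ⟨y, _, hy⟩ := List.mem_map.1 (h.mem_iff.2 hx)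
    exact ⟨y, hy⟩
  rw [map_mem_mapW]
  exact hF _ h₀ _ ((List.map_perm_map_iff hf).1 h)

/-- pull back functions on words -/
def pull (f : L → L') : (List L' → ℚ) →ₗ[ℚ] (List L → ℚ) := LinearMap.funLeft ℚ ℚ (List.map f)

lemma pull_apply (f : L → L') (z : List L' → ℚ) (w : List L) : pull f z w = z (w.map f) := rfl

lemma ev_pull (f : L → L') (z : List L' → ℚ) (g : List L) : ∀ u v : List L,
    ev (pull f z) g u v = ev z (g.map f) (u.map f) (v.map f) := by
  induction g with
  | nil => intro u v; simp [ev_nil]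
  | cons l g ih =>
    intro u v
    by_cases hg : g = []
    · subst hg
      simp [ev_single, pull_apply]
    · have hg' : g.map f ≠ [] := by simpa using hg
      rw [List.map_cons, ev_cons _ _ hg, ev_cons _ _ hg', ih, ih]
      simp

/-- a word with a letter outside the image: `ev` vanishes -/
lemma ev_zero_of {z : List L' → ℚ} {P : L' → Prop}
    (hz : ∀ w, (∃ x ∈ w, P x) → z w = 0) (g : List L') : ∀ u v : List L',
    (∃ x ∈ u ++ (g ++ v), P x) → ev z g u v = 0 := by
  induction g with
  | nil => intro u v _; exact ev_nil _ _ _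
  | cons l g ih =>
    intro u v h
    by_cases hg : g = []
    · subst hg
      rw [ev_single]
      exact hz _ (by simpa using h)
    · rw [ev_cons _ _ hg, ih _ _ ?_, ih _ _ ?_]
      · ring
      · obtain ⟨x, hx, hP⟩ := h
        refine ⟨x, ?_, hP⟩
        simp only [List.mem_append, List.mem_cons] at hx ⊢
        tauto
      · obtain ⟨x, hx, hP⟩ := h
        refine ⟨x, ?_, hP⟩
        simp only [List.mem_append, List.mem_cons] at hx ⊢
        simp only [List.not_mem_nil, or_false]
        tauto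

variable [Fintype L] [Fintype L']

lemma sum_pairs {f : L → L'} (hf : Function.Injective f) {z : List L' → ℚ}
    (hz : ∀ w, (∃ x ∈ w, ¬ ∃ y, f y = x) → z w = 0) (u v : List L) :
    ∑ x : L' × L', z (u.map f ++ x.1 :: x.2 :: v.map f)
      = ∑ x : L × L, z ((u ++ x.1 :: x.2 :: v).map f) := by
  symm
  refine Finset.sum_of_injOn (Prod.map f f) ((hf.prodMap hf).injOn) (fun _ _ => by simp) ?_ ?_
  · rintro ⟨a, b⟩ _ hx
    refine hz _ ?_
    by_contra hcon
    apply hx
    have ha : ∃ y, f y = a := by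
      by_contra h
      exact hcon ⟨a, by simp, h⟩
    have hb : ∃ y, f y = b := by
      by_contra h
      exact hcon ⟨b, by simp, h⟩
    obtain ⟨a', rfl⟩ := ha
    obtain ⟨b', rfl⟩ := hb
    exact ⟨(a', b'), by simp, rfl⟩
  · rintro ⟨a, b⟩ _
    simp

omit [Fintype L] in
lemma supp_of_SOL {f : L → L'} {hf : Function.Injective f} {F : Finset (List L)}
    {z : List L' → ℚ} (hz : z ∈ SOL (mapW f hf F)) : ∀ w, (∃ x ∈ w, ¬ ∃ y, f y = x) → z w = 0 := by
  rintro w ⟨x, hx, h⟩
  refine hz.1 w fun hw => h ?_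
  obtain ⟨w₀, _, rfl⟩ := mem_mapW.1 hw
  obtain ⟨y, _, hy⟩ := List.mem_map.1 hx
  exact ⟨y, hy⟩

lemma pull_SOL {f : L → L'} {hf : Function.Injective f} {F : Finset (List L)}
    {z : List L' → ℚ} (hz : z ∈ SOL (mapW f hf F)) : pull f z ∈ SOL F := by
  refine ⟨fun w hw => hz.1 _ fun h => hw (map_mem_mapW.1 h), fun u v => ?_⟩
  have h1 := hz.2 (u.map f) (v.map f)
  rw [sum_pairs hf (supp_of_SOL hz)] at h1
  exact h1

lemma exists_SOL {f : L → L'} (hf : Function.Injective f) {F : Finset (List L)}
    {z : List L → ℚ} (hz : z ∈ SOL F) : ∃ z' ∈ SOL (mapW f hf F), pull f z' = z := by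
  have hi := List.map_injective_iff.2 hf
  have e1 : ∀ w, Function.extend (List.map f) z 0 (w.map f) = z w := fun w => hi.extend_apply _ _ _
  have e2 : ∀ w, (¬ ∃ w₀ : List L, w₀.map f = w) → Function.extend (List.map f) z 0 w = 0 :=
    fun w hw => Function.extend_apply' _ _ _ hw
  refine ⟨Function.extend (List.map f) z 0, ⟨fun w hw => ?_, fun u v => ?_⟩, ?_⟩
  · by_cases h : ∃ w₀ : List L, w₀.map f = w
    · obtain ⟨w₀, rfl⟩ := h
      rw [e1]
      exact hz.1 _ fun h => hw (map_mem_mapW.2 h)
    · exact e2 w h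
  · by_cases h : (∃ u₀ : List L, u₀.map f = u) ∧ ∃ v₀ : List L, v₀.map f = v
    · obtain ⟨⟨u₀, rfl⟩, v₀, rfl⟩ := h
      rw [sum_pairs hf]
      · simp only [e1]
        exact hz.2 u₀ v₀
      · rintro w ⟨x, hx, h⟩
        refine e2 w ?_
        rintro ⟨w₀, rfl⟩
        obtain ⟨y, _, hy⟩ := List.mem_map.1 hx
        exact h ⟨y, hy⟩
    · refine Finset.sum_eq_zero fun x _ => e2 _ ?_
      rintro ⟨w₀, hw⟩
      apply h
      constructor
      · refine exists_map_of_mem fun y hy => ?_
        have : y ∈ w₀.map f := by rw [hw]; simp [hy]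
        obtain ⟨y', _, h'⟩ := List.mem_map.1 this
        exact ⟨y', h'⟩
      · refine exists_map_of_mem fun y hy => ?_
        have : y ∈ w₀.map f := by rw [hw]; simp [hy]
        obtain ⟨y', _, h'⟩ := List.mem_map.1 this
        exact ⟨y', h'⟩
  · funext w
    exact e1 w

/-- **Transport of `t`** along an injective map of letters. -/
theorem t_map {f : L → L'} (hf : Function.Injective f) (F : Finset (List L)) :
    t (mapW f hf F) = t F := by
  have h1 : ((SOL (mapW f hf F)).map (bm L')).map (pull f) = (SOL F).map (bm L) := by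
    ext y
    simp only [Submodule.mem_map]
    constructor
    · rintro ⟨_, ⟨z, hz, rfl⟩, rfl⟩
      refine ⟨pull f z, pull_SOL hz, ?_⟩
      funext g
      exact ev_pull f z g [] []
    · rintro ⟨z, hz, rfl⟩
      obtain ⟨z', hz', rfl⟩ := exists_SOL hf hz
      refine ⟨_, ⟨z', hz', rfl⟩, ?_⟩
      funext g
      exact (ev_pull f z' g [] []).symm
  have h2 : Function.Injective ((pull f).domRestrict ((SOL (mapW f hf F)).map (bm L'))) := by
    rw [← LinearMap.ker_eq_bot, LinearMap.ker_eq_bot']
    rintro ⟨_, z, hz, rfl⟩ h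
    apply Subtype.ext
    funext g
    by_cases hg : ∃ x ∈ g, ¬ ∃ y, f y = x
    · refine ev_zero_of (P := fun x => ¬ ∃ y, f y = x) (supp_of_SOL hz) g [] [] ?_
      simpa using hg
    · have hg' : ∀ x ∈ g, ∃ y, f y = x := by
        intro x hx
        by_contra h'
        exact hg ⟨x, hx, h'⟩
      obtain ⟨g₀, rfl⟩ := exists_map_of_mem hg'
      exact congrFun h g₀
  have h3 : (SOL F).map (bm L)
      = LinearMap.range ((pull f).domRestrict ((SOL (mapW f hf F)).map (bm L'))) := by
    rw [← h1, LinearMap.range_domRestrict]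
  unfold t
  rw [h3]
  exact (LinearMap.finrank_range_of_inj h2).symm

end

end Vale.Agent.P240.R2.H687
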