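import Vale.Agent.P240.R2.H687.AutU
import Vale.Agent.P240.R2.H432.UAsm2
import Vale.Agent.P240.R2.H667.UN2

/-!
`TopFac` for `PSU_n(q)`, `n ≥ 3`, all `q ≥ 3`, `p` odd with `p ∤ q (q + 1)` (P240).
-/

set_option autoImplicit false

namespace Vale.Agent.P240.R2.H687.U

open Vale.Agent.P240.R2.H487 (LocTopF TopFac)
open Vale.Agent.P240.R2.AS (PSU)

universe v w

/-- **`TopFac` for `PSU_n(q)`**, `q ≥ 3` odd or even, `n ≥ 3`, `p` odd, `p ∤ q (q + 1)` -/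
theorem topFac_PSU {K : Type} [Field K] [Fintype K]
    [StarRing K] {n q : ℕ} (hq : 3 ≤ q) (hK : Nat.card K = q ^ 2) (hs : ∀ x : K, star x = x ^ q)
    (hn : 3 ≤ n) {p : ℕ} [Fact p.Prime] (hp2 : p ≠ 2) (hpq : ¬ p ∣ q + 1)
    (hpK : (p : K) ≠ 0) (𝕜 : Type w) [Field 𝕜] {L : Type v} [Group L]
    (e : Nonempty (L ≃* PSU K n)) (hd : p ∣ Nat.card L) : TopFac 𝕜 p L :=
  H432.Odd.topFac_of_TR hq hK hs hn hp2 hpq hpK
    (fun M σ θ hD => H667.Un.un_all hK hs hp2 hpq hD)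
    (fun α => tr_PSU hq hK hs hn α) 𝕜 e hd

end Vale.Agent.P240.R2.H687.U
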